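import Vale.Agent.P298.H790.Trunc

/-!
# P298, block LC (helper790): finite colength from radicals, polynomials in a coordinate
-/

namespace Vale.Agent.P298.H790

open Filter Topology Metric Vale.Agent.P298 Vale.Agent.P298.H766 Module

variable {n k : ℕ}

theorem finite_of_pow_le {J : Ideal (MvPowerSeries (Fin n) ℂ)} {M : ℕ} (hM : mR n ^ M ≤ J) :
    Module.Finite ℂ (MvPowerSeries (Fin n) ℂ ⧸ J) := by
  classical
  let S := MvPolynomial.restrictTotalDegree (Fin n) ℂ M
  have hS : Module.Finite ℂ S := inferInstance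
  let L : S →ₗ[ℂ] (MvPowerSeries (Fin n) ℂ ⧸ J) :=
    (Ideal.Quotient.mkₐ ℂ J).toLinearMap ∘ₗ
      (MvPolynomial.coeToMvPowerSeries.algHom ℂ).toLinearMap ∘ₗ S.subtype
  refine Module.Finite.of_surjective L ?_
  intro y
  obtain ⟨f, rfl⟩ := Ideal.Quotient.mk_surjective y
  have h1 : f - (f.truncTotal (M + 1) : MvPowerSeries (Fin n) ℂ) ∈ J :=
    hM (Ideal.pow_le_pow_right (Nat.le_succ M) (mem_mR_pow_of_order (M + 1) (exists_trunc _ f)))
  refine ⟨⟨f.truncTotal (M + 1), ?_⟩, ?_⟩
  · rw [MvPolynomial.mem_restrictTotalDegree]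
    exact Nat.lt_succ_iff.1 (MvPowerSeries.totalDegree_truncTotal_lt _ (Nat.succ_ne_zero M))
  · simp only [L, LinearMap.comp_apply, Submodule.subtype_apply, AlgHom.toLinearMap_apply,
      Ideal.Quotient.mkₐ_eq_mk, MvPolynomial.coeToMvPowerSeries.algHom_apply]
    rw [eq_comm, Ideal.Quotient.eq]
    simpa using h1

theorem exists_colength_of_radical {s : Fin k → (Fin n → ℂ) → ℂ} (hs : ∀ j, Hol (s j))
    (h : ∀ i, (MvPowerSeries.X i : MvPowerSeries (Fin n) ℂ) ∈ (serIdeal s).radical) :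
    ∃ d, Colength s d := by
  have h1 : mR n ≤ (serIdeal s).radical := by
    rw [mR, Ideal.span_le]
    rintro _ ⟨i, rfl⟩
    exact h i
  have h2 : (mR n).FG := Submodule.fg_span (Set.finite_range _)
  obtain ⟨M, hM⟩ := Ideal.exists_pow_le_of_le_radical_of_fg h1 h2
  exact ⟨_, (colength_iff_ser hs _).2 ⟨finite_of_pow_le hM, rfl⟩⟩

/-- in a radical ideal, the roots of nonzero polynomials vanish -/
theorem mem_of_poly {I : Ideal (MvPowerSeries (Fin n) ℂ)} (hI : I.IsRadical)
    {y : MvPowerSeries (Fin n) ℂ} (hy : MvPowerSeries.constantCoeff y = 0)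
    {p : Polynomial ℂ} (hp : p ≠ 0) (h : Polynomial.aeval y p ∈ I) : y ∈ I := by
  obtain ⟨q, hq, hq0⟩ := Polynomial.exists_eq_pow_rootMultiplicity_mul_and_not_dvd p hp 0
  rw [map_zero, sub_zero] at hq hq0
  have h1 : IsUnit (Polynomial.aeval y q) := by
    rw [MvPowerSeries.isUnit_iff_constantCoeff, isUnit_iff_ne_zero]
    intro h2
    apply hq0
    rw [Polynomial.X_dvd_iff]
    have h3 : MvPowerSeries.constantCoeff (Polynomial.aeval y q) =
        Polynomial.eval (MvPowerSeries.constantCoeff y) q := by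
      rw [Polynomial.aeval_def, Polynomial.hom_eval₂]
      have : (MvPowerSeries.constantCoeff (σ := Fin n) (R := ℂ)).comp
        (algebraMap ℂ (MvPowerSeries (Fin n) ℂ)) = RingHom.id ℂ := by
        ext a
        rw [RingHom.comp_apply, MvPowerSeries.algebraMap_apply]
        simp
      rw [this, Polynomial.eval₂_id]
    rw [h3, hy, ← Polynomial.coeff_zero_eq_eval_zero] at h2
    exact h2
  rw [hq, map_mul, map_pow, Polynomial.aeval_X] at h
  have h2 := (Ideal.mul_unit_mem_iff_mem I h1).1 h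
  exact hI ⟨_, h2⟩

end Vale.Agent.P298.H790
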