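import Vale.Agent.P298.H790.Alg

/-!
# P298, block LC (helper790): the blow-up of a point, relations between derivatives
-/

namespace Vale.Agent.P298.H790

open Filter Topology Metric Vale.Agent.P298 Vale.Agent.P298.H766 Module

/-- derivative along a line -/
theorem hasDerivAt_line {E : Type*} [NormedAddCommGroup E] [NormedSpace ℂ E] {f : E → ℂ} {p : E}
    (hf : DifferentiableAt ℂ f p) (u : E) :
    HasDerivAt (fun s : ℂ => f (p + s • u)) (fderiv ℂ f p u) 0 := by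
  have h1 : HasDerivAt (fun s : ℂ => p + s • u) u 0 := by
    have := ((hasDerivAt_id (0 : ℂ)).smul_const u).const_add p
    simpa using this
  have h2 : HasFDerivAt f (fderiv ℂ f p) ((fun s : ℂ => p + s • u) 0) := by
    simpa using hf.hasFDerivAt
  exact h2.comp_hasDerivAt (0 : ℂ) h1

/-- the frame `v₀ + Y v₁ + Z v₂`, with `w = (Y, Z, x, t)` -/
def ray (v : Fin 3 → ℂ → (Fin 3 → ℂ)) (w : Fin 4 → ℂ) : Fin 3 → ℂ :=
  v 0 (w 3) + w 0 • v 1 (w 3) + w 1 • v 2 (w 3)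

/-- the blow-up map `x (v₀ + Y v₁ + Z v₂)`, with `w = (Y, Z, x, t)` -/
def bl (v : Fin 3 → ℂ → (Fin 3 → ℂ)) (w : Fin 4 → ℂ) : Fin 3 → ℂ := w 2 • ray v w

variable {F : (Fin 3 → ℂ) → ℂ → ℂ} {v : Fin 3 → ℂ → (Fin 3 → ℂ)} {q : ℂ → ℂ} {H : (Fin 4 → ℂ) → ℂ}

/-- the derivative of `F (·, t)` at the blown up point, in the direction `v_j` -/
noncomputable def DD (F : (Fin 3 → ℂ) → ℂ → ℂ) (v : Fin 3 → ℂ → (Fin 3 → ℂ)) (j : Fin 3)
    (w : Fin 4 → ℂ) : ℂ := fderiv ℂ (fun x => F x (w 3)) (bl v w) (v j (w 3))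

/-- third function of the system -/
noncomputable def Cc (q : ℂ → ℂ) (H : (Fin 4 → ℂ) → ℂ) (w : Fin 4 → ℂ) : ℂ :=
  2 * q (w 3) + 3 * w 2 * H w + (w 2) ^ 2 * pd 2 H w

theorem relations (hF : AnalyticAt ℂ (fun p : (Fin 3 → ℂ) × ℂ => F p.1 p.2) (0, 0))
    (hv : ∀ j, AnalyticAt ℂ (v j) 0) (hH : Hol H)
    (hFH : ∀ᶠ w in 𝓝 (0 : Fin 4 → ℂ), F (bl v w) (w 3) =
      (w 2) ^ 2 * q (w 3) + (w 2) ^ 3 * H w) :
    ∀ᶠ w in 𝓝 (0 : Fin 4 → ℂ),
      w 2 * DD F v 1 w = (w 2) ^ 3 * pd 0 H w ∧ w 2 * DD F v 2 w = (w 2) ^ 3 * pd 1 H w ∧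
      DD F v 0 w + w 0 * DD F v 1 w + w 1 * DD F v 2 w = w 2 * Cc q H w := by
  have hray : Continuous (fun w : Fin 4 → ℂ => w 3) := by fun_prop
  have hv' : ∀ j, ContinuousAt (fun w : Fin 4 → ℂ => v j (w 3)) 0 := fun j => by
    have h1 : ContinuousAt (v j) ((0 : Fin 4 → ℂ) 3) := (hv j).continuousAt
    exact h1.comp (f := fun w : Fin 4 → ℂ => w 3) hray.continuousAt
  have hb : ContinuousAt (fun w : Fin 4 → ℂ => (bl v w, w 3)) 0 := by
    refine ContinuousAt.prodMk ?_ hray.continuousAt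
    unfold bl ray
    have h0 : ∀ i : Fin 4, ContinuousAt (fun w : Fin 4 → ℂ => w i) 0 := fun i =>
      (continuous_apply i).continuousAt
    exact (h0 2).smul (((hv' 0).add ((h0 0).smul (hv' 1))).add ((h0 1).smul (hv' 2)))
  have hb0 : (bl v (0 : Fin 4 → ℂ), (0 : Fin 4 → ℂ) 3) = (0, 0) := by
    simp [bl]
  have h1 : ∀ᶠ w in 𝓝 (0 : Fin 4 → ℂ),
      AnalyticAt ℂ (fun p : (Fin 3 → ℂ) × ℂ => F p.1 p.2) (bl v w, w 3) := by
    have h2 := hF.eventually_analyticAt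
    rw [← hb0] at h2
    exact hb.eventually h2
  have hH1 := AnalyticAt.eventually_analyticAt hH
  filter_upwards [h1, hH1, hFH.eventually_nhds] with w hw1 hw2 hw3
  have hd : DifferentiableAt ℂ (fun x => F x (w 3)) (bl v w) := by
    have h3 : AnalyticAt ℂ (fun x : Fin 3 → ℂ => (x, w 3)) (bl v w) :=
      analyticAt_id.prod analyticAt_const
    have h4 : AnalyticAt ℂ (fun x => F x (w 3)) (bl v w) :=
      AnalyticAt.fun_comp (g := fun p : (Fin 3 → ℂ) × ℂ => F p.1 p.2)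
        (f := fun x : Fin 3 → ℂ => (x, w 3)) hw1 h3
    exact h4.differentiableAt
  have hHd := hw2.differentiableAt
  have key : ∀ i : Fin 4, ∀ᶠ s : ℂ in 𝓝 0,
      F (bl v (w + s • (Pi.single i 1 : Fin 4 → ℂ))) ((w + s • (Pi.single i 1 : Fin 4 → ℂ)) 3) =
      ((w + s • (Pi.single i 1 : Fin 4 → ℂ)) 2) ^ 2 *
        q ((w + s • (Pi.single i 1 : Fin 4 → ℂ)) 3) +
        ((w + s • (Pi.single i 1 : Fin 4 → ℂ)) 2) ^ 3 *
        H (w + s • (Pi.single i 1 : Fin 4 → ℂ)) := by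
    intro i
    have h5 : ContinuousAt (fun s : ℂ => w + s • (Pi.single i 1 : Fin 4 → ℂ)) 0 := by fun_prop
    have h6 : (fun s : ℂ => w + s • (Pi.single i 1 : Fin 4 → ℂ)) 0 = w := by simp
    have h7 := hw3
    rw [← h6] at h7
    exact h5.eventually h7
  refine ⟨?_, ?_, ?_⟩
  · have e1 := hasDerivAt_line hd (w 2 • v 1 (w 3))
    have e2 := hasDerivAt_line hHd (Pi.single 0 1)
    have e3 : HasDerivAt (fun s : ℂ => (w 2) ^ 2 * q (w 3) +
        (w 2) ^ 3 * H (w + s • Pi.single 0 1)) ((w 2) ^ 3 * pd 0 H w) 0 := by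
      have := (e2.const_mul ((w 2) ^ 3)).const_add ((w 2) ^ 2 * q (w 3))
      exact this
    have e4 : (fun s : ℂ => F (bl v w + s • (w 2 • v 1 (w 3))) (w 3)) =ᶠ[𝓝 0]
        fun s : ℂ => (w 2) ^ 2 * q (w 3) + (w 2) ^ 3 * H (w + s • Pi.single 0 1) := by
      filter_upwards [key 0] with s hs
      have i2 : (w + s • (Pi.single 0 1 : Fin 4 → ℂ)) 2 = w 2 := by simp
      have i3 : (w + s • (Pi.single 0 1 : Fin 4 → ℂ)) 3 = w 3 := by simp
      have i4 : bl v (w + s • (Pi.single 0 1 : Fin 4 → ℂ)) = bl v w + s • (w 2 • v 1 (w 3)) := by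
        unfold bl ray
        rw [i2, i3]
        simp
        module
      rw [i2, i3, i4] at hs
      exact hs
    have e5 := (e1.congr_of_eventuallyEq e4.symm).unique e3
    unfold DD
    rw [← e5, map_smul, smul_eq_mul]
  · have e1 := hasDerivAt_line hd (w 2 • v 2 (w 3))
    have e2 := hasDerivAt_line hHd (Pi.single 1 1)
    have e3 : HasDerivAt (fun s : ℂ => (w 2) ^ 2 * q (w 3) +
        (w 2) ^ 3 * H (w + s • Pi.single 1 1)) ((w 2) ^ 3 * pd 1 H w) 0 := by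
      have := (e2.const_mul ((w 2) ^ 3)).const_add ((w 2) ^ 2 * q (w 3))
      exact this
    have e4 : (fun s : ℂ => F (bl v w + s • (w 2 • v 2 (w 3))) (w 3)) =ᶠ[𝓝 0]
        fun s : ℂ => (w 2) ^ 2 * q (w 3) + (w 2) ^ 3 * H (w + s • Pi.single 1 1) := by
      filter_upwards [key 1] with s hs
      have i2 : (w + s • (Pi.single 1 1 : Fin 4 → ℂ)) 2 = w 2 := by simp
      have i3 : (w + s • (Pi.single 1 1 : Fin 4 → ℂ)) 3 = w 3 := by simp
      have i4 : bl v (w + s • (Pi.single 1 1 : Fin 4 → ℂ)) = bl v w + s • (w 2 • v 2 (w 3)) := by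
        unfold bl ray
        rw [i2, i3]
        simp
        module
      rw [i2, i3, i4] at hs
      exact hs
    have e5 := (e1.congr_of_eventuallyEq e4.symm).unique e3
    unfold DD
    rw [← e5, map_smul, smul_eq_mul]
  · have e1 := hasDerivAt_line hd (ray v w)
    have e2 := hasDerivAt_line hHd (Pi.single 2 1)
    have e6 : HasDerivAt (fun s : ℂ => w 2 + s) 1 0 := by
      simpa using (hasDerivAt_id (0 : ℂ)).const_add (w 2)
    have e3 : HasDerivAt (fun s : ℂ => (w 2 + s) ^ 2 * q (w 3) +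
        (w 2 + s) ^ 3 * H (w + s • Pi.single 2 1)) (w 2 * Cc q H w) 0 := by
      have := ((e6.pow 2).mul_const (q (w 3))).add ((e6.pow 3).mul e2)
      refine this.congr_deriv ?_
      unfold Cc pd
      simp
      ring
    have e4 : (fun s : ℂ => F (bl v w + s • ray v w) (w 3)) =ᶠ[𝓝 0]
        fun s : ℂ => (w 2 + s) ^ 2 * q (w 3) + (w 2 + s) ^ 3 * H (w + s • Pi.single 2 1) := by
      filter_upwards [key 2] with s hs
      have i2 : (w + s • (Pi.single 2 1 : Fin 4 → ℂ)) 2 = w 2 + s := by simp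
      have i3 : (w + s • (Pi.single 2 1 : Fin 4 → ℂ)) 3 = w 3 := by simp
      have i4 : bl v (w + s • (Pi.single 2 1 : Fin 4 → ℂ)) = bl v w + s • ray v w := by
        unfold bl ray
        rw [i2, i3]
        simp
        module
      rw [i2, i3, i4] at hs
      exact hs
    have e5 := (e1.congr_of_eventuallyEq e4.symm).unique e3
    rw [← e5]
    unfold DD ray
    simp only [map_add, map_smul, smul_eq_mul]

end Vale.Agent.P298.H790
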