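import Vale.Agent.P298.H790.Blow1

/-!
# P298, block LC (helper790): the blow-up system has finite colength
-/

namespace Vale.Agent.P298.H790

open Filter Topology Metric Vale.Agent.P298 Vale.Agent.P298.H766 Module

section Poly

variable {S : Type*} [CommRing S] [Algebra ℂ S]

/-- the `Y`-derivative of the cubic `k₀Y²+k₁YZ+k₂Z²+k₃Y³+k₄Y²Z+k₅YZ²+k₆Z³` -/
noncomputable def PY (k : Fin 7 → ℂ) (y z : S) : S :=
  algebraMap ℂ S (2 * k 0) * y + algebraMap ℂ S (k 1) * z + algebraMap ℂ S (3 * k 3) * y ^ 2 +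
    algebraMap ℂ S (2 * k 4) * (y * z) + algebraMap ℂ S (k 5) * z ^ 2

/-- the `Z`-derivative of the cubic `k₀Y²+k₁YZ+k₂Z²+k₃Y³+k₄Y²Z+k₅YZ²+k₆Z³` -/
noncomputable def PZ (k : Fin 7 → ℂ) (y z : S) : S :=
  algebraMap ℂ S (k 1) * y + algebraMap ℂ S (2 * k 2) * z + algebraMap ℂ S (k 4) * y ^ 2 +
    algebraMap ℂ S (2 * k 5) * (y * z) + algebraMap ℂ S (3 * k 6) * z ^ 2

theorem map_PY {S' : Type*} [CommRing S'] [Algebra ℂ S'] (φ : S →ₐ[ℂ] S') (k : Fin 7 → ℂ)
    (y z : S) : φ (PY k y z) = PY k (φ y) (φ z) := by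
  simp only [PY, map_add, map_mul, map_pow, AlgHom.commutes]

theorem map_PZ {S' : Type*} [CommRing S'] [Algebra ℂ S'] (φ : S →ₐ[ℂ] S') (k : Fin 7 → ℂ)
    (y z : S) : φ (PZ k y z) = PZ k (φ y) (φ z) := by
  simp only [PZ, map_add, map_mul, map_pow, AlgHom.commutes]

end Poly

/-- the origin is an isolated critical point of the cubic with coefficients `k` -/
def Iso (k : Fin 7 → ℂ) : Prop :=
  ∀ (n : ℕ) (I : Ideal (MvPowerSeries (Fin n) ℂ)), I.IsRadical →
    ∀ y z : MvPowerSeries (Fin n) ℂ, MvPowerSeries.constantCoeff y = 0 →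
      MvPowerSeries.constantCoeff z = 0 → PY k y z ∈ I → PZ k y z ∈ I → y ∈ I ∧ z ∈ I

/-- Taylor series of polynomial functions -/
theorem ser_poly {n : ℕ} (p : MvPolynomial (Fin n) ℂ) :
    ser (fun x => MvPolynomial.eval x p) = (p : MvPowerSeries (Fin n) ℂ) := by
  have h : (fun x : Fin n → ℂ => MvPolynomial.eval x p) = (toAn n p : (Fin n → ℂ) → ℂ) := by
    funext x
    rw [toAn_apply]
  rw [h, ← T_toAn p, ser_eq (toAn n p).2]

theorem hol_poly {n : ℕ} (p : MvPolynomial (Fin n) ℂ) : Hol (fun x => MvPolynomial.eval x p) := by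
  have h : (fun x : Fin n → ℂ => MvPolynomial.eval x p) = (toAn n p : (Fin n → ℂ) → ℂ) := by
    funext x
    rw [toAn_apply]
  rw [h]
  exact (toAn n p).2

theorem ser_PY (k : Fin 7 → ℂ) : ser (fun u : Fin 3 → ℂ => PY k (u 0) (u 1)) =
    PY k (MvPowerSeries.X 0) (MvPowerSeries.X 1) := by
  have h : (fun u : Fin 3 → ℂ => PY k (u 0) (u 1)) = fun u : Fin 3 → ℂ =>
      MvPolynomial.eval u (PY k (MvPolynomial.X 0 : MvPolynomial (Fin 3) ℂ)
        (MvPolynomial.X 1)) := by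
    funext u
    have := map_PY (MvPolynomial.aeval u : MvPolynomial (Fin 3) ℂ →ₐ[ℂ] ℂ) k
      (MvPolynomial.X 0) (MvPolynomial.X 1)
    rw [MvPolynomial.aeval_X, MvPolynomial.aeval_X] at this
    rw [← this]
    rfl
  rw [h, ser_poly]
  have := map_PY (MvPolynomial.coeToMvPowerSeries.algHom ℂ :
    MvPolynomial (Fin 3) ℂ →ₐ[ℂ] MvPowerSeries (Fin 3) ℂ) k (MvPolynomial.X 0) (MvPolynomial.X 1)
  rw [MvPolynomial.coeToMvPowerSeries.algHom_apply,
    MvPolynomial.coeToMvPowerSeries.algHom_apply,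
    MvPolynomial.coeToMvPowerSeries.algHom_apply] at this
  simpa using this

theorem ser_PZ (k : Fin 7 → ℂ) : ser (fun u : Fin 3 → ℂ => PZ k (u 0) (u 1)) =
    PZ k (MvPowerSeries.X 0) (MvPowerSeries.X 1) := by
  have h : (fun u : Fin 3 → ℂ => PZ k (u 0) (u 1)) = fun u : Fin 3 → ℂ =>
      MvPolynomial.eval u (PZ k (MvPolynomial.X 0 : MvPolynomial (Fin 3) ℂ)
        (MvPolynomial.X 1)) := by
    funext u
    have := map_PZ (MvPolynomial.aeval u : MvPolynomial (Fin 3) ℂ →ₐ[ℂ] ℂ) k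
      (MvPolynomial.X 0) (MvPolynomial.X 1)
    rw [MvPolynomial.aeval_X, MvPolynomial.aeval_X] at this
    rw [← this]
    rfl
  rw [h, ser_poly]
  have := map_PZ (MvPolynomial.coeToMvPowerSeries.algHom ℂ :
    MvPolynomial (Fin 3) ℂ →ₐ[ℂ] MvPowerSeries (Fin 3) ℂ) k (MvPolynomial.X 0) (MvPolynomial.X 1)
  rw [MvPolynomial.coeToMvPowerSeries.algHom_apply,
    MvPolynomial.coeToMvPowerSeries.algHom_apply,
    MvPolynomial.coeToMvPowerSeries.algHom_apply] at this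
  simpa using this

theorem hol_PY (k : Fin 7 → ℂ) : Hol (fun u : Fin 3 → ℂ => PY k (u 0) (u 1)) := by
  have h : (fun u : Fin 3 → ℂ => PY k (u 0) (u 1)) = fun u : Fin 3 → ℂ =>
      MvPolynomial.eval u (PY k (MvPolynomial.X 0 : MvPolynomial (Fin 3) ℂ)
        (MvPolynomial.X 1)) := by
    funext u
    have := map_PY (MvPolynomial.aeval u : MvPolynomial (Fin 3) ℂ →ₐ[ℂ] ℂ) k
      (MvPolynomial.X 0) (MvPolynomial.X 1)
    rw [MvPolynomial.aeval_X, MvPolynomial.aeval_X] at this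
    rw [← this]
    rfl
  rw [h]
  exact hol_poly _

theorem hol_PZ (k : Fin 7 → ℂ) : Hol (fun u : Fin 3 → ℂ => PZ k (u 0) (u 1)) := by
  have h : (fun u : Fin 3 → ℂ => PZ k (u 0) (u 1)) = fun u : Fin 3 → ℂ =>
      MvPolynomial.eval u (PZ k (MvPolynomial.X 0 : MvPolynomial (Fin 3) ℂ)
        (MvPolynomial.X 1)) := by
    funext u
    have := map_PZ (MvPolynomial.aeval u : MvPolynomial (Fin 3) ℂ →ₐ[ℂ] ℂ) k
      (MvPolynomial.X 0) (MvPolynomial.X 1)
    rw [MvPolynomial.aeval_X, MvPolynomial.aeval_X] at this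
    rw [← this]
    rfl
  rw [h]
  exact hol_poly _

/-- powers of a germ vanishing at the origin lie in an ideal of finite colength -/
theorem inIdeal_pow {n k : ℕ} {s : Fin k → (Fin n → ℂ) → ℂ} (hs : ∀ j, Hol (s j)) {d : ℕ}
    (h : Colength s d) {f : (Fin n → ℂ) → ℂ} (hf : Hol f) (f0 : f 0 = 0) :
    InIdeal s (fun x => f x ^ d) := by
  obtain ⟨h1, h2⟩ := hasColength_of_colength hs h
  have h3 := coord_pow_mem (locIdeal (Set.range s)) (nul_le_locIdeal _) h1 ⟨f, hf⟩ f0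
  rw [h2, mem_locIdeal_iff hs] at h3
  exact h3

/-- the inclusion of the slice `t = 0` -/
def sn (u : Fin 3 → ℂ) : Fin 4 → ℂ := Fin.snoc (α := fun _ => ℂ) u 0

@[simp] theorem sn0 (u : Fin 3 → ℂ) : sn u 0 = u 0 := rfl
@[simp] theorem sn1 (u : Fin 3 → ℂ) : sn u 1 = u 1 := rfl
@[simp] theorem sn2 (u : Fin 3 → ℂ) : sn u 2 = u 2 := rfl
@[simp] theorem sn3 (u : Fin 3 → ℂ) : sn u 3 = 0 := rfl

variable {F : (Fin 3 → ℂ) → ℂ → ℂ} {v : Fin 3 → ℂ → (Fin 3 → ℂ)} {q : ℂ → ℂ} {H : (Fin 4 → ℂ) → ℂ}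

theorem sum_single {m : ℕ} (x : Fin m → ℂ) : x = ∑ i, x i • (Pi.single i 1 : Fin m → ℂ) := by
  funext j
  simp [Finset.sum_apply, Pi.single_apply]

theorem DD_eq (F : (Fin 3 → ℂ) → ℂ → ℂ) (v : Fin 3 → ℂ → (Fin 3 → ℂ)) (j : Fin 3)
    (w : Fin 4 → ℂ) :
    DD F v j w = ∑ i, v j (w 3) i * pd i (fun x => F x (w 3)) (bl v w) := by
  have h : v j (w 3) = ∑ i, v j (w 3) i • (Pi.single i 1 : Fin 3 → ℂ) := sum_single _
  unfold DD
  conv_lhs => rw [h]
  rw [map_sum]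
  simp only [map_smul, smul_eq_mul]
  rfl

theorem analyticAt_coord {m : ℕ} (i : Fin m) (x : Fin m → ℂ) :
    AnalyticAt ℂ (fun w : Fin m → ℂ => w i) x :=
  (ContinuousLinearMap.proj (R := ℂ) (φ := fun _ : Fin m => ℂ) i).analyticAt x

theorem analytic_v (hv : ∀ j, AnalyticAt ℂ (v j) 0) (j : Fin 3) :
    AnalyticAt ℂ (fun w : Fin 4 → ℂ => v j (w 3)) 0 := by
  have h1 : AnalyticAt ℂ (v j) ((0 : Fin 4 → ℂ) 3) := hv j
  exact AnalyticAt.fun_comp h1 (analyticAt_coord 3 0)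

theorem analytic_bl (hv : ∀ j, AnalyticAt ℂ (v j) 0) : AnalyticAt ℂ (bl v) 0 := by
  have h := analytic_v hv
  have hc := fun i : Fin 4 => analyticAt_coord i (0 : Fin 4 → ℂ)
  exact (hc 2).smul (((h 0).add ((hc 0).smul (h 1))).add ((hc 1).smul (h 2)))

theorem bl_zero : bl v 0 = 0 := by simp [bl]

theorem hol_pd_bl (hF : AnalyticAt ℂ (fun p : (Fin 3 → ℂ) × ℂ => F p.1 p.2) (0, 0))
    (hv : ∀ j, AnalyticAt ℂ (v j) 0) (i : Fin 3) :
    Hol (fun w => pd i (fun x => F x (w 3)) (bl v w)) := by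
  have h1 := analyticAt_pd hF i
  have h2 : AnalyticAt ℂ (fun w : Fin 4 → ℂ => (bl v w, w 3)) 0 :=
    (analytic_bl hv).prod (analyticAt_coord 3 0)
  have h3 : ((fun w : Fin 4 → ℂ => (bl v w, w 3)) 0) = (0, 0) := by
    simp [bl_zero]
  rw [← h3] at h1
  exact AnalyticAt.fun_comp (g := fun p : (Fin 3 → ℂ) × ℂ => pd i (fun x => F x p.2) p.1)
    (f := fun w : Fin 4 → ℂ => (bl v w, w 3)) h1 h2

theorem hol_DD (hF : AnalyticAt ℂ (fun p : (Fin 3 → ℂ) × ℂ => F p.1 p.2) (0, 0))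
    (hv : ∀ j, AnalyticAt ℂ (v j) 0) (j : Fin 3) : Hol (DD F v j) := by
  have h : DD F v j = fun w => ∑ i, v j (w 3) i * pd i (fun x => F x (w 3)) (bl v w) :=
    funext fun w => DD_eq F v j w
  rw [h]
  refine Finset.analyticAt_fun_sum _ fun i _ => ?_
  exact AnalyticAt.mul (analyticAt_pi_iff.1 (analytic_v hv j) i) (hol_pd_bl hF hv i)

theorem hol_pd {n : ℕ} {f : (Fin n → ℂ) → ℂ} (hf : Hol f) (i : Fin n) : Hol (pd i f) := by
  have h1 : AnalyticAt ℂ (fderiv ℂ f) 0 := AnalyticAt.fderiv hf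
  exact (ContinuousLinearMap.apply ℂ ℂ (Pi.single i 1 : Fin n → ℂ)).analyticAt _ |>.comp h1

theorem hol_Cc (hq : AnalyticAt ℂ q 0) (hH : Hol H) : Hol (Cc q H) := by
  have hc := fun i : Fin 4 => analyticAt_coord i (0 : Fin 4 → ℂ)
  have h1 : AnalyticAt ℂ q ((0 : Fin 4 → ℂ) 3) := hq
  have h2 : AnalyticAt ℂ (fun w : Fin 4 → ℂ => q (w 3)) 0 := AnalyticAt.fun_comp h1 (hc 3)
  exact ((analyticAt_const.mul h2).add ((analyticAt_const.mul (hc 2)).mul hH)).add
    (((hc 2).pow 2).mul (hol_pd hH 2))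

variable {T : (Fin 3 → ℂ) ≃L[ℂ] (Fin 3 → ℂ)} {k : Fin 7 → ℂ} {μ : ℕ}

/-- The system `∂_Y H, ∂_Z H, C` has finite colength on the slice `t = 0`. -/
theorem exists_colength_slice (hF : AnalyticAt ℂ (fun p : (Fin 3 → ℂ) × ℂ => F p.1 p.2) (0, 0))
    (hμ : Milnor (F · 0) μ) (hv : ∀ j, AnalyticAt ℂ (v j) 0)
    (hT : ∀ j, v j 0 = T (Pi.single j 1)) (hq : AnalyticAt ℂ q 0) (hH : Hol H)
    (hFH : ∀ᶠ w in 𝓝 (0 : Fin 4 → ℂ), F (bl v w) (w 3) =
      (w 2) ^ 2 * q (w 3) + (w 2) ^ 3 * H w)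
    (hY : ∀ᶠ u in 𝓝 (0 : Fin 2 → ℂ), pd 0 H ![u 0, u 1, 0, 0] = PY k (u 0) (u 1))
    (hZ : ∀ᶠ u in 𝓝 (0 : Fin 2 → ℂ), pd 1 H ![u 0, u 1, 0, 0] = PZ k (u 0) (u 1))
    (hk : Iso k) :
    ∃ d, Colength ![fun u => pd 0 H (sn u), fun u => pd 1 H (sn u), fun u => Cc q H (sn u)] d := by
  set a0 : (Fin 3 → ℂ) → ℂ := fun u => pd 0 H (sn u) with ha0
  set a1 : (Fin 3 → ℂ) → ℂ := fun u => pd 1 H (sn u) with ha1
  set a2 : (Fin 3 → ℂ) → ℂ := fun u => Cc q H (sn u) with ha2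
  have h0 : Hol a0 := hol_restrict (hol_pd hH 0)
  have h1 : Hol a1 := hol_restrict (hol_pd hH 1)
  have h2 : Hol a2 := hol_restrict (hol_Cc hq hH)
  have hs : ∀ j, Hol ((![a0, a1, a2] : Fin 3 → (Fin 3 → ℂ) → ℂ) j) := by
    intro j
    fin_cases j
    · exact h0
    · exact h1
    · exact h2
  set J := serIdeal ![a0, a1, a2] with hJ
  have m0 : ser a0 ∈ J := Ideal.subset_span ⟨0, rfl⟩
  have m1 : ser a1 ∈ J := Ideal.subset_span ⟨1, rfl⟩
  have m2 : ser a2 ∈ J := Ideal.subset_span ⟨2, rfl⟩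
  set e : Fin 3 → (Fin 3 → ℂ) → ℂ := fun j u => DD F v j (sn u) with he
  have hE : ∀ j, Hol (e j) := fun j => hol_restrict (hol_DD hF hv j)
  have hc := fun i : Fin 3 => analyticAt_coord i (0 : Fin 3 → ℂ)
  have hrel := (tendsto_incl (m := 3)).eventually (relations hF hv hH hFH)
  have X2 : (MvPowerSeries.X 2 : MvPowerSeries (Fin 3) ℂ) ≠ 0 := by
    intro h
    have := congrArg (MvPowerSeries.coeff (Finsupp.single (2 : Fin 3) 1)) h
    rw [MvPowerSeries.coeff_index_single_self_X, map_zero] at this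
    exact one_ne_zero this
  have hm : ∀ (i : Fin 3) {g : (Fin 3 → ℂ) → ℂ}, Hol g → Hol (fun u => u i * g u) :=
    fun i g hg => AnalyticAt.mul (hc i) hg
  have r1 : ser (e 1) = MvPowerSeries.X 2 ^ 2 * ser a0 := by
    have h3 : ser (fun u : Fin 3 → ℂ => u 2 * e 1 u) =
        ser (fun u : Fin 3 → ℂ => u 2 * (u 2 * (u 2 * a0 u))) := by
      refine ser_congr ?_
      filter_upwards [hrel] with u hu
      have := hu.1
      change u 2 * e 1 u = (u 2) ^ 3 * a0 u at this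
      rw [this]
      ring
    rw [ser_mul (hc 2) (hE 1), ser_mul (hc 2) (hm 2 (hm 2 h0)),
      ser_mul (hc 2) (hm 2 h0), ser_mul (hc 2) h0, ser_coord] at h3
    have := mul_left_cancel₀ X2 h3
    rw [this]
    ring
  have r2 : ser (e 2) = MvPowerSeries.X 2 ^ 2 * ser a1 := by
    have h3 : ser (fun u : Fin 3 → ℂ => u 2 * e 2 u) =
        ser (fun u : Fin 3 → ℂ => u 2 * (u 2 * (u 2 * a1 u))) := by
      refine ser_congr ?_
      filter_upwards [hrel] with u hu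
      have := hu.2.1
      change u 2 * e 2 u = (u 2) ^ 3 * a1 u at this
      rw [this]
      ring
    rw [ser_mul (hc 2) (hE 2), ser_mul (hc 2) (hm 2 (hm 2 h1)),
      ser_mul (hc 2) (hm 2 h1), ser_mul (hc 2) h1, ser_coord] at h3
    have := mul_left_cancel₀ X2 h3
    rw [this]
    ring
  have r0 : ser (e 0) = MvPowerSeries.X 2 * ser a2 - MvPowerSeries.X 0 * ser (e 1) -
      MvPowerSeries.X 1 * ser (e 2) := by
    have h3 : ser (e 0) = ser (fun u : Fin 3 → ℂ => (u 2 * a2 u - u 0 * e 1 u) - u 1 * e 2 u) := by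
      refine ser_congr ?_
      filter_upwards [hrel] with u hu
      have := hu.2.2
      change e 0 u + u 0 * e 1 u + u 1 * e 2 u = u 2 * a2 u at this
      linear_combination this
    have h4 : Hol (fun u : Fin 3 → ℂ => u 2 * a2 u - u 0 * e 1 u) :=
      AnalyticAt.sub (hm 2 h2) (hm 0 (hE 1))
    rw [ser_sub h4 (hm 1 (hE 2)), ser_sub (hm 2 h2) (hm 0 (hE 1)), ser_mul (hc 2) h2,
      ser_mul (hc 0) (hE 1), ser_mul (hc 1) (hE 2), ser_coord, ser_coord, ser_coord] at h3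
    exact h3
  have n1 : ser (e 1) ∈ J := by rw [r1]; exact Ideal.mul_mem_left _ _ m0
  have n2 : ser (e 2) ∈ J := by rw [r2]; exact Ideal.mul_mem_left _ _ m1
  have n0 : ser (e 0) ∈ J := by
    rw [r0]
    exact sub_mem (sub_mem (Ideal.mul_mem_left _ _ m2) (Ideal.mul_mem_left _ _ n1))
      (Ideal.mul_mem_left _ _ n2)
  have nj : ∀ j, ser (e j) ∈ J := by
    intro j
    fin_cases j
    · exact n0
    · exact n1
    · exact n2
  -- the coordinate `x`
  have hbl : ∀ u, bl v (sn u) = u 2 • T (Pi.single 0 1 + u 0 • Pi.single 1 1 +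
      u 1 • Pi.single 2 1) := by
    intro u
    unfold bl ray
    rw [sn0, sn1, sn2, sn3, hT, hT, hT]
    simp only [map_add, map_smul]
  have hf0 : Hol (F · 0) := by
    have h3 : AnalyticAt ℂ (fun x : Fin 3 → ℂ => (x, (0 : ℂ))) 0 :=
      analyticAt_id.prod analyticAt_const
    exact AnalyticAt.fun_comp (g := fun p : (Fin 3 → ℂ) × ℂ => F p.1 p.2)
      (f := fun x : Fin 3 → ℂ => (x, (0 : ℂ))) hF h3
  have hl : Hol (fun y : Fin 3 → ℂ => (T.symm y) 0) :=
    (((ContinuousLinearMap.proj (R := ℂ) (φ := fun _ : Fin 3 => ℂ) 0).comp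
      (T.symm : (Fin 3 → ℂ) →L[ℂ] (Fin 3 → ℂ))).analyticAt 0)
  obtain ⟨a, ha, hax⟩ := inIdeal_pow (fun i => hol_pd hf0 i) hμ hl (by simp)
  have hblc : AnalyticAt ℂ (fun u : Fin 3 → ℂ => bl v (sn u)) 0 := by
    have h3 : AnalyticAt ℂ (bl v) (inclL 3 0) := by
      rw [map_zero]
      exact analytic_bl hv
    have h4 := h3.comp ((inclL 3).analyticAt 0)
    have h5 : bl v ∘ (inclL 3) = fun u : Fin 3 → ℂ => bl v (sn u) := by
      funext x
      simp only [Function.comp_apply, inclL_apply]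
      rfl
    rw [h5] at h4
    exact h4
  have hbl0 : bl v (sn 0) = 0 := by rw [hbl]; simp
  have hblt : Tendsto (fun u : Fin 3 → ℂ => bl v (sn u)) (𝓝 0) (𝓝 0) := by
    have := hblc.continuousAt.tendsto
    rwa [hbl0] at this
  have hg : ∀ i, Hol (fun u : Fin 3 → ℂ => a i (bl v (sn u))) := by
    intro i
    have h3 : AnalyticAt ℂ (a i) (bl v (sn 0)) := by
      rw [hbl0]
      exact ha i
    exact AnalyticAt.fun_comp (g := a i) (f := fun u : Fin 3 → ℂ => bl v (sn u)) h3 hblc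
  have hpd : ∀ i u, pd i (F · 0) (bl v (sn u)) = ∑ j, (T.symm (Pi.single i 1)) j * e j u := by
    intro i u
    have h3 : (Pi.single i 1 : Fin 3 → ℂ) = ∑ j, (T.symm (Pi.single i 1)) j • v j 0 := by
      have h4 : (Pi.single i 1 : Fin 3 → ℂ) = T (T.symm (Pi.single i 1)) := by simp
      conv_lhs => rw [h4, sum_single (T.symm (Pi.single i 1))]
      rw [map_sum]
      simp only [map_smul, hT]
    unfold pd
    conv_lhs => rw [h3]
    rw [map_sum]
    simp only [map_smul, smul_eq_mul]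
    rfl
  have x2 : MvPowerSeries.X 2 ∈ J.radical := by
    refine ⟨μ, ?_⟩
    have h3 : ser (fun u : Fin 3 → ℂ => u 2 ^ μ) = ser (fun u : Fin 3 → ℂ =>
        ∑ i, a i (bl v (sn u)) * ∑ j, (T.symm (Pi.single i 1)) j * e j u) := by
      refine ser_congr ?_
      filter_upwards [hblt.eventually hax] with u hu
      have h4 : (T.symm (bl v (sn u))) 0 = u 2 := by
        rw [hbl]
        simp
      rw [h4] at hu
      rw [hu]
      refine Finset.sum_congr rfl fun i _ => ?_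
      rw [← hpd]
    have h5 : ∀ i, Hol (fun u : Fin 3 → ℂ => ∑ j, (T.symm (Pi.single i 1)) j * e j u) := by
      intro i
      exact Finset.analyticAt_fun_sum _ fun j _ => analyticAt_const.mul (hE j)
    have h6 : ser (fun u : Fin 3 → ℂ => u 2 ^ μ) = MvPowerSeries.X 2 ^ μ := by
      have h7 : (fun u : Fin 3 → ℂ => u 2 ^ μ) = fun u : Fin 3 → ℂ =>
          MvPolynomial.eval u ((MvPolynomial.X 2 : MvPolynomial (Fin 3) ℂ) ^ μ) := by
        funext u
        simp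
      rw [h7, ser_poly]
      simp
    rw [← h6, h3, ser_sum Finset.univ (u := fun (i : Fin 3) (u : Fin 3 → ℂ) =>
      a i (bl v (sn u)) * ∑ j, (T.symm (Pi.single i 1)) j * e j u)
      (fun i => (hg i).mul (h5 i))]
    refine Submodule.sum_mem _ fun i _ => ?_
    rw [ser_mul (hg i) (h5 i)]
    refine Ideal.mul_mem_left _ _ ?_
    rw [ser_sum Finset.univ (u := fun (j : Fin 3) (u : Fin 3 → ℂ) =>
      (T.symm (Pi.single i 1)) j * e j u) (fun j => analyticAt_const.mul (hE j))]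
    refine Submodule.sum_mem _ fun j _ => ?_
    rw [ser_mul analyticAt_const (hE j)]
    exact Ideal.mul_mem_left _ _ (nj j)
  -- the coordinates `Y`, `Z`
  have hp : Tendsto (fun u : Fin 2 → ℂ => u) (𝓝 0) (𝓝 0) := tendsto_id
  have g0 : PY k (MvPowerSeries.X 0) (MvPowerSeries.X 1) ∈ J.radical := by
    obtain ⟨G, hG, hGx⟩ := exists_div_last (m := 2) (G := fun u => a0 u - PY k (u 0) (u 1))
      (h0.sub (hol_PY k)) (by
        filter_upwards [hY] with u hu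
        have h3 : sn (Fin.snoc (α := fun _ => ℂ) u 0) = ![u 0, u 1, 0, 0] := by
          funext i
          fin_cases i <;> rfl
        change pd 0 H (sn (Fin.snoc (α := fun _ => ℂ) u 0)) - _ = 0
        rw [h3, hu]
        exact sub_self _)
    have h3 : ser (fun u : Fin 3 → ℂ => PY k (u 0) (u 1)) = ser a0 - ser G * MvPowerSeries.X 2 := by
      have h4 : ser (fun u : Fin 3 → ℂ => PY k (u 0) (u 1)) =
          ser (fun u : Fin 3 → ℂ => a0 u - G u * u 2) := by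
        refine ser_congr ?_
        filter_upwards [hGx] with u hu
        change a0 u - PY k (u 0) (u 1) = G u * u 2 at hu
        linear_combination -hu
      have h5 : Hol (fun u : Fin 3 → ℂ => G u * u 2) := AnalyticAt.mul hG (hc 2)
      rw [h4, ser_sub h0 h5, ser_mul hG (hc 2), ser_coord]
    rw [← ser_PY, h3]
    exact sub_mem (Ideal.le_radical m0) (Ideal.mul_mem_left _ _ x2)
  have g1 : PZ k (MvPowerSeries.X 0) (MvPowerSeries.X 1) ∈ J.radical := by
    obtain ⟨G, hG, hGx⟩ := exists_div_last (m := 2) (G := fun u => a1 u - PZ k (u 0) (u 1))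
      (h1.sub (hol_PZ k)) (by
        filter_upwards [hZ] with u hu
        have h3 : sn (Fin.snoc (α := fun _ => ℂ) u 0) = ![u 0, u 1, 0, 0] := by
          funext i
          fin_cases i <;> rfl
        change pd 1 H (sn (Fin.snoc (α := fun _ => ℂ) u 0)) - _ = 0
        rw [h3, hu]
        exact sub_self _)
    have h3 : ser (fun u : Fin 3 → ℂ => PZ k (u 0) (u 1)) = ser a1 - ser G * MvPowerSeries.X 2 := by
      have h4 : ser (fun u : Fin 3 → ℂ => PZ k (u 0) (u 1)) =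
          ser (fun u : Fin 3 → ℂ => a1 u - G u * u 2) := by
        refine ser_congr ?_
        filter_upwards [hGx] with u hu
        change a1 u - PZ k (u 0) (u 1) = G u * u 2 at hu
        linear_combination -hu
      have h5 : Hol (fun u : Fin 3 → ℂ => G u * u 2) := AnalyticAt.mul hG (hc 2)
      rw [h4, ser_sub h1 h5, ser_mul hG (hc 2), ser_coord]
    rw [← ser_PZ, h3]
    exact sub_mem (Ideal.le_radical m1) (Ideal.mul_mem_left _ _ x2)
  obtain ⟨x0, x1⟩ := hk 3 J.radical (Ideal.radical_isRadical J) _ _ (by simp) (by simp) g0 g1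
  refine exists_colength_of_radical hs fun i => ?_
  fin_cases i
  · exact x0
  · exact x1
  · exact x2

/-- The system `∂_Y H, ∂_Z H, C, t` has finite colength. -/
theorem exists_colength_blow (hF : AnalyticAt ℂ (fun p : (Fin 3 → ℂ) × ℂ => F p.1 p.2) (0, 0))
    (hμ : Milnor (F · 0) μ) (hv : ∀ j, AnalyticAt ℂ (v j) 0)
    (hT : ∀ j, v j 0 = T (Pi.single j 1)) (hq : AnalyticAt ℂ q 0) (hH : Hol H)
    (hFH : ∀ᶠ w in 𝓝 (0 : Fin 4 → ℂ), F (bl v w) (w 3) =
      (w 2) ^ 2 * q (w 3) + (w 2) ^ 3 * H w)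
    (hY : ∀ᶠ u in 𝓝 (0 : Fin 2 → ℂ), pd 0 H ![u 0, u 1, 0, 0] = PY k (u 0) (u 1))
    (hZ : ∀ᶠ u in 𝓝 (0 : Fin 2 → ℂ), pd 1 H ![u 0, u 1, 0, 0] = PZ k (u 0) (u 1))
    (hk : Iso k) :
    ∃ d, Colength (Fin.snoc (α := fun _ => (Fin 4 → ℂ) → ℂ) ![pd 0 H, pd 1 H, Cc q H]
      fun w => w 3) d := by
  obtain ⟨d, hd⟩ := exists_colength_slice hF hμ hv hT hq hH hFH hY hZ hk
  refine ⟨d, (colength_restrict (m := 3) (s := ![pd 0 H, pd 1 H, Cc q H]) ?_ d).2 ?_⟩
  · intro j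
    fin_cases j
    · exact hol_pd hH 0
    · exact hol_pd hH 1
    · exact hol_Cc hq hH
  · convert hd using 1
    funext j
    fin_cases j <;> rfl

end Vale.Agent.P298.H790
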