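import Vale.Agent.P298.H790.Blow2

/-!
# P298, block LC (helper790): the blow-up argument
-/

namespace Vale.Agent.P298.H790

open Filter Topology Metric Vale.Agent.P298 Vale.Agent.P298.H766 Module

variable {F : (Fin 3 → ℂ) → ℂ → ℂ} {v : Fin 3 → ℂ → (Fin 3 → ℂ)} {q : ℂ → ℂ} {H : (Fin 4 → ℂ) → ℂ}
  {T : (Fin 3 → ℂ) ≃L[ℂ] (Fin 3 → ℂ)} {k : Fin 7 → ℂ} {μ : ℕ}

/-- linear forms are controlled by their values on a moving frame -/
theorem frame_bound (hv : ∀ j, ContinuousAt (v j) 0) (hT : ∀ j, v j 0 = T (Pi.single j 1)) :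
    ∃ K0 : ℝ, 0 ≤ K0 ∧ ∀ᶠ t in 𝓝 (0 : ℂ), ∀ L : (Fin 3 → ℂ) →L[ℂ] ℂ,
      ∑ i, ‖L (Pi.single i 1)‖ ≤ K0 * ∑ j, ‖L (v j t)‖ := by
  set κ : Fin 3 → Fin 3 → ℂ := fun i j => T.symm (Pi.single i 1) j with hκ
  set M : ℝ := ∑ i, ∑ j, ‖κ i j‖ with hM
  have hM0 : 0 ≤ M := Finset.sum_nonneg fun i _ => Finset.sum_nonneg fun j _ => norm_nonneg _
  refine ⟨2 * M, by positivity, ?_⟩
  have h1 : ∀ i, (Pi.single i 1 : Fin 3 → ℂ) = ∑ j, κ i j • v j 0 := by
    intro i
    have h4 : (Pi.single i 1 : Fin 3 → ℂ) = T (T.symm (Pi.single i 1)) := by simp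
    conv_lhs => rw [h4, sum_single (T.symm (Pi.single i 1))]
    rw [map_sum]
    simp only [map_smul, hT, hκ]
  have h2 : ∀ᶠ t in 𝓝 (0 : ℂ), ∀ j, M * ‖v j 0 - v j t‖ ≤ 1 / 2 := by
    rw [eventually_all]
    intro j
    have h3 : ContinuousAt (fun t => M * ‖v j 0 - v j t‖) 0 :=
      continuousAt_const.mul (continuousAt_const.sub (hv j)).norm
    have h4 : (fun t => M * ‖v j 0 - v j t‖) 0 < 1 / 2 := by simp
    exact (h3.eventually_lt continuousAt_const h4).mono fun t ht => ht.le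
  filter_upwards [h2] with t ht L
  set S : ℝ := ∑ i, ‖L (Pi.single i 1)‖ with hS
  have hS0 : 0 ≤ S := Finset.sum_nonneg fun i _ => norm_nonneg _
  have hL : ∀ x : Fin 3 → ℂ, ‖L x‖ ≤ ‖x‖ * S := by
    intro x
    conv_lhs => rw [sum_single x]
    rw [map_sum]
    simp only [map_smul, smul_eq_mul]
    refine (norm_sum_le _ _).trans ?_
    rw [hS, Finset.mul_sum]
    refine Finset.sum_le_sum fun i _ => ?_
    rw [norm_mul]
    exact mul_le_mul_of_nonneg_right (norm_le_pi_norm x i) (norm_nonneg _)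
  have h5 : ∀ i, ‖L (Pi.single i 1)‖ ≤ (∑ j, ‖κ i j‖) * (∑ j, ‖L (v j t)‖) +
      ∑ j, ‖κ i j‖ * (‖v j 0 - v j t‖ * S) := by
    intro i
    have h6 : L (Pi.single i 1) = ∑ j, κ i j * L (v j t) + ∑ j, κ i j * L (v j 0 - v j t) := by
      conv_lhs => rw [h1 i]
      rw [map_sum, ← Finset.sum_add_distrib]
      refine Finset.sum_congr rfl fun j _ => ?_
      rw [map_smul, map_sub, smul_eq_mul]
      ring
    rw [h6]
    refine (norm_add_le _ _).trans (add_le_add ?_ ?_)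
    · refine (norm_sum_le _ _).trans ?_
      rw [Finset.sum_mul]
      refine Finset.sum_le_sum fun j _ => ?_
      rw [norm_mul]
      refine mul_le_mul_of_nonneg_left ?_ (norm_nonneg _)
      exact Finset.single_le_sum (f := fun j => ‖L (v j t)‖) (fun j _ => norm_nonneg _)
        (Finset.mem_univ j)
    · refine (norm_sum_le _ _).trans ?_
      refine Finset.sum_le_sum fun j _ => ?_
      rw [norm_mul]
      exact mul_le_mul_of_nonneg_left (hL _) (norm_nonneg _)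
  have h7 : S ≤ M * (∑ j, ‖L (v j t)‖) + ∑ i, ∑ j, ‖κ i j‖ * (‖v j 0 - v j t‖ * S) := by
    calc S ≤ ∑ i, ((∑ j, ‖κ i j‖) * (∑ j, ‖L (v j t)‖) +
          ∑ j, ‖κ i j‖ * (‖v j 0 - v j t‖ * S)) := Finset.sum_le_sum fun i _ => h5 i
      _ = M * (∑ j, ‖L (v j t)‖) + ∑ i, ∑ j, ‖κ i j‖ * (‖v j 0 - v j t‖ * S) := by
          rw [Finset.sum_add_distrib, ← Finset.sum_mul]
  rcases hM0.eq_or_lt with hM1 | hM1
  · have hz : ∀ i j, ‖κ i j‖ = 0 := by
      intro i j
      have h8 : ‖κ i j‖ ≤ M := by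
        calc ‖κ i j‖ ≤ ∑ j, ‖κ i j‖ := Finset.single_le_sum (f := fun j => ‖κ i j‖)
              (fun j _ => norm_nonneg _) (Finset.mem_univ j)
          _ ≤ M := Finset.single_le_sum (f := fun i => ∑ j, ‖κ i j‖)
              (fun i _ => Finset.sum_nonneg fun j _ => norm_nonneg _) (Finset.mem_univ i)
      rw [← hM1] at h8
      exact le_antisymm h8 (norm_nonneg _)
    simp only [hz, zero_mul, Finset.sum_const_zero, add_zero] at h7
    rw [← hM1] at h7 ⊢
    linarith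
  · have h9 : ∑ i, ∑ j, ‖κ i j‖ * (‖v j 0 - v j t‖ * S) ≤ S / 2 := by
      calc ∑ i, ∑ j, ‖κ i j‖ * (‖v j 0 - v j t‖ * S)
          ≤ ∑ i, ∑ j, ‖κ i j‖ * (1 / 2 / M * S) := by
            refine Finset.sum_le_sum fun i _ => Finset.sum_le_sum fun j _ => ?_
            refine mul_le_mul_of_nonneg_left (mul_le_mul_of_nonneg_right ?_ hS0) (norm_nonneg _)
            rw [le_div_iff₀ hM1, mul_comm]
            exact ht j
        _ = M * (1 / 2 / M * S) := by
            simp only [← Finset.sum_mul]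
            rw [← hM]
        _ = S / 2 := by field_simp
    linarith

/-- a system of colength zero has a member which does not vanish at the origin -/
theorem exists_ne_of_colength_zero {n k : ℕ} {s : Fin k → (Fin n → ℂ) → ℂ} (h : Colength s 0) :
    ∃ j, s j 0 ≠ 0 := by
  obtain ⟨b, hb, H⟩ := h
  obtain ⟨c, ⟨a, ha, hx⟩, -⟩ := H (fun _ => 1) analyticAt_const
  have h1 := hx.self_of_nhds
  by_contra h2
  push Not at h2
  simp [h2] at h1

/-- **Blow-up lemma.** If the family `x² q(t) + x³ H(Y,Z,x,t)` in the chart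
`x (v₀ + Y v₁ + Z v₂)` has an isolated critical point of `H(·,·,0,0)`, then `q = 0`. -/
theorem blow {r : ℝ} (hr : 0 < r) (hF : IsHolFamily r F)
    (hμ : ∀ t ∈ ball (0 : ℂ) r, Milnor (F · t) μ) (hv : ∀ j, AnalyticAt ℂ (v j) 0)
    (hT : ∀ j, v j 0 = T (Pi.single j 1)) (hq : AnalyticAt ℂ q 0) (q0 : q 0 = 0) (hH : Hol H)
    (hFH : ∀ᶠ w in 𝓝 (0 : Fin 4 → ℂ), F (bl v w) (w 3) =
      (w 2) ^ 2 * q (w 3) + (w 2) ^ 3 * H w)
    (hY : ∀ᶠ u in 𝓝 (0 : Fin 2 → ℂ), pd 0 H ![u 0, u 1, 0, 0] = PY k (u 0) (u 1))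
    (hZ : ∀ᶠ u in 𝓝 (0 : Fin 2 → ℂ), pd 1 H ![u 0, u 1, 0, 0] = PZ k (u 0) (u 1))
    (hk : Iso k) : ∀ᶠ t in 𝓝 (0 : ℂ), q t = 0 := by
  by_contra hq1
  have hF0 : AnalyticAt ℂ (fun p : (Fin 3 → ℂ) × ℂ => F p.1 p.2) (0, 0) :=
    (hF 0 (mem_ball_self hr)).1
  obtain ⟨d, hd⟩ := exists_colength_blow hF0 (hμ 0 (mem_ball_self hr)) hv hT hq hH hFH hY hZ hk
  have hA0 : pd 0 H 0 = 0 := by
    have := hY.self_of_nhds
    have h1 : (![(0 : Fin 2 → ℂ) 0, (0 : Fin 2 → ℂ) 1, 0, 0] : Fin 4 → ℂ) = 0 := by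
      funext i
      fin_cases i <;> rfl
    rw [h1] at this
    rw [this]
    simp [PY]
  have hB0 : pd 1 H 0 = 0 := by
    have := hZ.self_of_nhds
    have h1 : (![(0 : Fin 2 → ℂ) 0, (0 : Fin 2 → ℂ) 1, 0, 0] : Fin 4 → ℂ) = 0 := by
      funext i
      fin_cases i <;> rfl
    rw [h1] at this
    rw [this]
    simp [PZ]
  have hC0 : Cc q H 0 = 0 := by simp [Cc, q0]
  have ha : ∀ i, Hol ((![pd 0 H, pd 1 H, Cc q H] : Fin 3 → (Fin 4 → ℂ) → ℂ) i) := by
    intro j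
    fin_cases j
    · exact hol_pd hH 0
    · exact hol_pd hH 1
    · exact hol_Cc hq hH
  have ha0 : ∀ i, (![pd 0 H, pd 1 H, Cc q H] : Fin 3 → (Fin 4 → ℂ) → ℂ) i 0 = 0 := by
    intro j
    fin_cases j
    · exact hA0
    · exact hB0
    · exact hC0
  have hl : Hol (fun w : Fin 4 → ℂ => w 3) := analyticAt_coord 3 0
  obtain ⟨N, hN, m, φ, h1, h2, h3⟩ := arcs ha hl ha0 rfl hd
  -- there is at least one arc
  have hm : 0 < m := by
    rcases Nat.eq_zero_or_pos m with hm | hm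
    · exfalso
      subst hm
      have h4 : Colength (Fin.snoc (α := fun _ => (Fin 4 → ℂ) → ℂ) ![pd 0 H, pd 1 H, Cc q H]
          fun w => w 3) 0 := by
        rw [h3 _ hl]
        simp
      obtain ⟨j, hj⟩ := exists_ne_of_colength_zero h4
      apply hj
      refine Fin.lastCases ?_ (fun i => ?_) j
      · simp
      · simpa using ha0 i
    · exact hm
  set ψ := φ ⟨0, hm⟩ with hψ
  have e0 : ψ (ser (pd 0 H)) = 0 := h1 ⟨0, hm⟩ 0
  have e1 : ψ (ser (pd 1 H)) = 0 := h1 ⟨0, hm⟩ 1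
  have e2 : ψ (ser (Cc q H)) = 0 := h1 ⟨0, hm⟩ 2
  have e3 : ψ (MvPowerSeries.X 3) = PowerSeries.X ^ N := by
    have := h2 ⟨0, hm⟩
    rwa [ser_coord] at this
  -- the arc does not lie in the exceptional divisor
  have hx : ψ (MvPowerSeries.X 2) ≠ 0 := by
    intro hx0
    obtain ⟨n, u, hu, hu0, hqu⟩ := hq.exists_eventuallyEq_pow_smul_nonzero_iff.2 hq1
    have hu3 : Hol (fun w : Fin 4 → ℂ => u (w 3)) := by
      have h4 : AnalyticAt ℂ u ((0 : Fin 4 → ℂ) 3) := hu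
      exact AnalyticAt.fun_comp h4 (analyticAt_coord 3 0)
    have hG : Hol (fun w : Fin 4 → ℂ => 3 * H w + w 2 * pd 2 H w) :=
      AnalyticAt.add (AnalyticAt.mul analyticAt_const hH)
        (AnalyticAt.mul (analyticAt_coord 2 0) (hol_pd hH 2))
    have hc2 : Hol (fun w : Fin 4 → ℂ => w 2) := analyticAt_coord 2 0
    have hP : Hol (fun w : Fin 4 → ℂ => w 3 ^ n) := AnalyticAt.pow hl n
    have hPu : Hol (fun w : Fin 4 → ℂ => w 3 ^ n * u (w 3)) := AnalyticAt.mul hP hu3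
    have hPu2 : Hol (fun w : Fin 4 → ℂ => 2 * (w 3 ^ n * u (w 3))) :=
      AnalyticAt.mul analyticAt_const hPu
    have hGx : Hol (fun w : Fin 4 → ℂ => w 2 * (3 * H w + w 2 * pd 2 H w)) :=
      AnalyticAt.mul hc2 hG
    have h5 : ser (Cc q H) = ser (fun w : Fin 4 → ℂ => 2 * (w 3 ^ n * u (w 3)) +
        w 2 * (3 * H w + w 2 * pd 2 H w)) := by
      refine ser_congr ?_
      have h6 : Tendsto (fun w : Fin 4 → ℂ => w 3) (𝓝 0) (𝓝 0) :=
        (continuous_apply (3 : Fin 4)).tendsto (0 : Fin 4 → ℂ)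
      filter_upwards [h6.eventually hqu] with w hw
      unfold Cc
      rw [hw, sub_zero, smul_eq_mul]
      ring
    have h7 : ser (fun w : Fin 4 → ℂ => w 3 ^ n) = MvPowerSeries.X 3 ^ n := by
      have h8 : (fun w : Fin 4 → ℂ => w 3 ^ n) = fun w : Fin 4 → ℂ =>
          MvPolynomial.eval w ((MvPolynomial.X 3 : MvPolynomial (Fin 4) ℂ) ^ n) := by
        funext w
        simp
      rw [h8, ser_poly]
      simp
    rw [h5, ser_add hPu2 hGx, ser_mul analyticAt_const hPu, ser_mul hP hu3, ser_mul hc2 hG,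
      ser_coord, map_add, map_mul, map_mul, map_mul, hx0, zero_mul, add_zero, h7, map_pow, e3,
      ser_const] at e2
    have h9 : ψ (MvPowerSeries.C (2 : ℂ)) ≠ 0 := by
      intro h10
      have h11 := P298.H824.constantCoeff_arc ψ (MvPowerSeries.C (2 : ℂ))
      rw [h10] at h11
      simp at h11
    have h12 : ψ (ser fun w : Fin 4 → ℂ => u (w 3)) ≠ 0 := by
      intro h10
      have h11 := P298.H824.constantCoeff_arc ψ (ser fun w : Fin 4 → ℂ => u (w 3))
      rw [h10, constantCoeff_ser hu3] at h11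
      exact hu0 (by simpa using h11.symm)
    have h13 : (PowerSeries.X : PowerSeries ℂ) ≠ 0 := PowerSeries.X_ne_zero
    exact (mul_ne_zero h9 (mul_ne_zero (pow_ne_zero _ (pow_ne_zero _ h13)) h12)) e2
  -- the order of the arc in the coordinate `x`
  obtain ⟨m0, hm0⟩ : ∃ m0 : ℕ, (ψ (MvPowerSeries.X 2)).order = m0 := by
    have h4 := PowerSeries.order_finite_iff_ne_zero.2 hx
    exact ⟨_, (ENat.natCast_toNat h4.ne).symm⟩
  have hm0' := PowerSeries.order_eq_nat.1 hm0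
  -- semicontinuity bound
  have hsl : ∀ᶠ t in 𝓝 (0 : ℂ), HasColength (Set.range fun j : Fin 3 => fun x : Fin 3 → ℂ =>
      pd j (fun x => F x t) x) μ := by
    filter_upwards [isOpen_ball.mem_nhds (mem_ball_self hr)] with t ht
    have h4 : Hol (fun x => F x t) := by
      have h5 : AnalyticAt ℂ (fun x : Fin 3 → ℂ => (x, t)) 0 :=
        analyticAt_id.prod analyticAt_const
      exact AnalyticAt.fun_comp (g := fun p : (Fin 3 → ℂ) × ℂ => F p.1 p.2)
        (f := fun x : Fin 3 → ℂ => (x, t)) (hF t ht).1 h5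
    exact hasColength_of_colength (fun j => hol_pd h4 j) (hμ t ht)
  obtain ⟨mm, C, hmm, hsc⟩ := semicontinuity (0 : ℂ)
    (fun (j : Fin 3) (p : (Fin 3 → ℂ) × ℂ) => pd j (fun x => F x p.2) p.1)
    (fun j => analyticAt_pd hF0 j) μ hsl
  obtain ⟨K0, hK0, hfr⟩ := frame_bound (fun j => (hv j).continuousAt) hT
  set K := m0 * mm + m0 + 1 with hK
  obtain ⟨CA, hCA⟩ := trunc_bound (hol_pd hH 0) ψ e0 K
  obtain ⟨CB, hCB⟩ := trunc_bound (hol_pd hH 1) ψ e1 K
  obtain ⟨CC, hCC⟩ := trunc_bound (hol_Cc hq hH) ψ e2 K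
  set w : ℂ → Fin 4 → ℂ := fun s i => (tr ψ K i).eval s with hw
  have hwt : Tendsto w (𝓝 0) (𝓝 0) := tendsto_tr ψ K
  -- the `x` coordinate along the truncated arc
  obtain ⟨c, hc, hxc⟩ : ∃ c : ℝ, 0 < c ∧ ∀ᶠ s in 𝓝 (0 : ℂ), c * ‖s‖ ^ m0 ≤ ‖w s 2‖ := by
    have h4 : Polynomial.X ^ m0 ∣ tr ψ K 2 := by
      rw [Polynomial.X_pow_dvd_iff]
      intro i hi
      rw [tr, PowerSeries.coeff_trunc, hm0'.2 i hi]
      simp
    obtain ⟨R, hR⟩ := h4
    have h5 : R.eval 0 ≠ 0 := by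
      rw [← Polynomial.coeff_zero_eq_eval_zero]
      have h6 : (tr ψ K 2).coeff m0 = R.coeff 0 := by
        rw [hR, Polynomial.coeff_X_pow_mul']
        simp
      rw [← h6, tr, PowerSeries.coeff_trunc, if_pos (by rw [hK]; nlinarith)]
      exact hm0'.1
    refine ⟨‖R.eval 0‖ / 2, by positivity, ?_⟩
    have h7 : ∀ᶠ s in 𝓝 (0 : ℂ), ‖R.eval 0‖ / 2 < ‖R.eval s‖ :=
      (R.continuous.continuousAt.norm).eventually (lt_mem_nhds (half_lt_self (by positivity)))
    filter_upwards [h7] with s hs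
    have h8 : w s 2 = s ^ m0 * R.eval s := by
      simp only [hw]
      rw [hR, Polynomial.eval_mul, Polynomial.eval_pow, Polynomial.eval_X]
    rw [h8, norm_mul, norm_pow, mul_comm]
    gcongr
  -- the size of the blown up point
  have hray : ∀ᶠ w' in 𝓝 (0 : Fin 4 → ℂ), ‖T (Pi.single 0 1)‖ / 2 * ‖w' 2‖ ≤ ‖bl v w'‖ := by
    have h4 : ContinuousAt (ray v) 0 := by
      have h := fun j => (analytic_v hv j).continuousAt
      have hc := fun i : Fin 4 => (analyticAt_coord i (0 : Fin 4 → ℂ)).continuousAt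
      exact ((h 0).add ((hc 0).smul (h 1))).add ((hc 1).smul (h 2))
    have h5 : ray v 0 = T (Pi.single 0 1) := by
      simp [ray, hT]
    have h6 : T (Pi.single 0 1) ≠ 0 := by
      intro h7
      have h8 : (Pi.single 0 1 : Fin 3 → ℂ) = 0 := T.injective (by rw [h7, map_zero])
      have := congrFun h8 0
      simp at this
    have h7 : ∀ᶠ w' in 𝓝 (0 : Fin 4 → ℂ), ‖T (Pi.single 0 1)‖ / 2 < ‖ray v w'‖ := by
      refine h4.norm.eventually (lt_mem_nhds ?_)
      change _ < ‖ray v 0‖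
      rw [h5]
      exact half_lt_self (norm_pos_iff.2 h6)
    filter_upwards [h7] with w' hw'
    rw [bl, norm_smul, mul_comm]
    gcongr
  have hTpos : 0 < ‖T (Pi.single 0 1)‖ := by
    rw [norm_pos_iff]
    intro h7
    have h8 : (Pi.single 0 1 : Fin 3 → ℂ) = 0 := T.injective (by rw [h7, map_zero])
    have := congrFun h8 0
    simp at this
  have hblt : Tendsto (fun w' : Fin 4 → ℂ => (bl v w', w' 3)) (𝓝 0) (𝓝 (0, 0)) := by
    have h4 : ContinuousAt (fun w' : Fin 4 → ℂ => (bl v w', w' 3)) 0 :=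
      ((analytic_bl hv).prod (analyticAt_coord 3 0)).continuousAt
    have h5 := h4.tendsto
    rw [bl_zero] at h5
    exact h5
  have hw3 : Tendsto (fun w' : Fin 4 → ℂ => w' 3) (𝓝 0) (𝓝 0) :=
    (continuous_apply (3 : Fin 4)).tendsto (0 : Fin 4 → ℂ)
  have hsmall : ∀ᶠ w' in 𝓝 (0 : Fin 4 → ℂ), ‖w'‖ ≤ 1 := by
    have h4 : ContinuousAt (fun w' : Fin 4 → ℂ => ‖w'‖) 0 := continuous_norm.continuousAt
    exact (h4.eventually_lt continuousAt_const (by simp : ‖(0 : Fin 4 → ℂ)‖ < 1)).mono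
      fun _ h => h.le
  -- the main estimate
  set c' : ℝ := (‖T (Pi.single 0 1)‖ / 2 * c) ^ mm with hc'
  have hc'0 : 0 < c' := by positivity
  set C' : ℝ := |C| * (K0 * (2 * |CA| + 2 * |CB| + |CC|)) with hC'
  have hC'0 : 0 ≤ C' := by positivity
  have hmain : ∀ᶠ s in 𝓝[≠] (0 : ℂ), c' ≤ C' * ‖s‖ := by
    have h4 : ∀ᶠ s in 𝓝 (0 : ℂ), ‖s‖ ≤ 1 := by
      have h5 : ContinuousAt (fun s : ℂ => ‖s‖) 0 := continuous_norm.continuousAt
      exact (h5.eventually_lt continuousAt_const (by simp : ‖(0 : ℂ)‖ < 1)).mono fun _ h => h.le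
    have hall : ∀ᶠ s in 𝓝 (0 : ℂ), s ≠ 0 → c' ≤ C' * ‖s‖ := by
      filter_upwards [hCA, hCB, hCC, hxc, hwt.eventually hray, hwt.eventually hsmall,
        hwt.eventually (relations hF0 hv hH hFH), hwt.eventually (hw3.eventually hfr),
        hwt.eventually (hblt.eventually hsc), h4] with s k1 k2 k3 k4 k5 k6 k7 k8 k9 k10 hs0
      have hs1 : 0 < ‖s‖ := norm_pos_iff.2 hs0
      have hK1 : ‖s‖ ^ K ≤ ‖s‖ ^ (m0 * mm + 1) :=
        pow_le_pow_of_le_one hs1.le k10 (by rw [hK]; omega)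
      have hx2 : w s 2 ≠ 0 := by
        rw [← norm_pos_iff]
        exact lt_of_lt_of_le (by positivity) k4
      have hx2' : ‖w s 2‖ ≤ 1 := (norm_le_pi_norm (w s) 2).trans k6
      have hx0' : ‖w s 0‖ ≤ 1 := (norm_le_pi_norm (w s) 0).trans k6
      have hx1' : ‖w s 1‖ ≤ 1 := (norm_le_pi_norm (w s) 1).trans k6
      have d1 : DD F v 1 (w s) = (w s 2) ^ 2 * pd 0 H (w s) := by
        apply mul_left_cancel₀ hx2
        rw [k7.1]
        ring
      have d2 : DD F v 2 (w s) = (w s 2) ^ 2 * pd 1 H (w s) := by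
        apply mul_left_cancel₀ hx2
        rw [k7.2.1]
        ring
      have d0 : DD F v 0 (w s) = w s 2 * Cc q H (w s) - w s 0 * DD F v 1 (w s) -
          w s 1 * DD F v 2 (w s) := by
        rw [← k7.2.2]
        ring
      have hb : ∀ (a b : ℂ), ‖a‖ ≤ 1 → ‖a * b‖ ≤ ‖b‖ := by
        intro a b hab
        rw [norm_mul]
        exact mul_le_of_le_one_left (norm_nonneg _) hab
      have f1 : ‖DD F v 1 (w s)‖ ≤ |CA| * ‖s‖ ^ (m0 * mm + 1) := by
        rw [d1]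
        refine (hb _ _ (by rw [norm_pow]; exact pow_le_one₀ (norm_nonneg _) hx2')).trans ?_
        refine k1.trans ?_
        exact mul_le_mul (le_abs_self _) hK1 (by positivity) (abs_nonneg _)
      have f2 : ‖DD F v 2 (w s)‖ ≤ |CB| * ‖s‖ ^ (m0 * mm + 1) := by
        rw [d2]
        refine (hb _ _ (by rw [norm_pow]; exact pow_le_one₀ (norm_nonneg _) hx2')).trans ?_
        refine k2.trans ?_
        exact mul_le_mul (le_abs_self _) hK1 (by positivity) (abs_nonneg _)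
      have f3 : ‖Cc q H (w s)‖ ≤ |CC| * ‖s‖ ^ (m0 * mm + 1) := by
        refine k3.trans ?_
        exact mul_le_mul (le_abs_self _) hK1 (by positivity) (abs_nonneg _)
      have f0 : ‖DD F v 0 (w s)‖ ≤ (|CA| + |CB| + |CC|) * ‖s‖ ^ (m0 * mm + 1) := by
        rw [d0]
        refine (norm_sub_le _ _).trans ?_
        have g1 := norm_sub_le (w s 2 * Cc q H (w s)) (w s 0 * DD F v 1 (w s))
        have g2 := (hb _ (Cc q H (w s)) hx2').trans f3
        have g3 := (hb _ (DD F v 1 (w s)) hx0').trans f1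
        have g4 := (hb _ (DD F v 2 (w s)) hx1').trans f2
        linarith
      have hsum : ∑ j, ‖DD F v j (w s)‖ ≤
          (2 * |CA| + 2 * |CB| + |CC|) * ‖s‖ ^ (m0 * mm + 1) := by
        rw [Fin.sum_univ_three]
        linarith
      have hpd : ∑ i, ‖pd i (fun x => F x (w s 3)) (bl v (w s))‖ ≤
          K0 * ((2 * |CA| + 2 * |CB| + |CC|) * ‖s‖ ^ (m0 * mm + 1)) := by
        refine (k8 (fderiv ℂ (fun x => F x (w s 3)) (bl v (w s)))).trans ?_
        exact mul_le_mul_of_nonneg_left hsum hK0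
      have hlow : c' * ‖s‖ ^ (m0 * mm) ≤ ‖bl v (w s)‖ ^ mm := by
        have g1 : ‖T (Pi.single 0 1)‖ / 2 * c * ‖s‖ ^ m0 ≤ ‖bl v (w s)‖ := by
          refine le_trans ?_ k5
          rw [mul_assoc]
          exact mul_le_mul_of_nonneg_left k4 (by positivity)
        calc c' * ‖s‖ ^ (m0 * mm) = (‖T (Pi.single 0 1)‖ / 2 * c * ‖s‖ ^ m0) ^ mm := by
              rw [mul_pow _ (‖s‖ ^ m0), ← pow_mul, hc']
          _ ≤ ‖bl v (w s)‖ ^ mm := pow_le_pow_left₀ (by positivity) g1 mm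
      have hup : ‖bl v (w s)‖ ^ mm ≤ C' * ‖s‖ ^ (m0 * mm + 1) := by
        refine k9.trans ?_
        have g1 : 0 ≤ ∑ i, ‖pd i (fun x => F x (w s 3)) (bl v (w s))‖ :=
          Finset.sum_nonneg fun _ _ => norm_nonneg _
        calc C * ∑ i, ‖pd i (fun x => F x (w s 3)) (bl v (w s))‖
            ≤ |C| * ∑ i, ‖pd i (fun x => F x (w s 3)) (bl v (w s))‖ :=
              mul_le_mul_of_nonneg_right (le_abs_self _) g1
          _ ≤ |C| * (K0 * ((2 * |CA| + 2 * |CB| + |CC|) * ‖s‖ ^ (m0 * mm + 1))) :=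
              mul_le_mul_of_nonneg_left hpd (abs_nonneg _)
          _ = C' * ‖s‖ ^ (m0 * mm + 1) := by rw [hC']; ring
      have hpos : 0 < ‖s‖ ^ (m0 * mm) := by positivity
      have := hlow.trans hup
      rw [pow_succ, ← mul_assoc, mul_right_comm] at this
      exact le_of_mul_le_mul_right this hpos
    filter_upwards [hall.filter_mono nhdsWithin_le_nhds, self_mem_nhdsWithin] with s hs1 hs2
    exact hs1 hs2
  have hlim : Tendsto (fun s : ℂ => C' * ‖s‖) (𝓝[≠] 0) (𝓝 0) := by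
    have h4 : ContinuousAt (fun s : ℂ => C' * ‖s‖) 0 := by fun_prop
    have h5 := h4.tendsto
    simp only [norm_zero, mul_zero] at h5
    exact h5.mono_left nhdsWithin_le_nhds
  exact absurd (ge_of_tendsto hlim hmain) (not_le.2 hc'0)

end Vale.Agent.P298.H790
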