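import Vale.Agent.P298.H790.Blow2

/-!
# P298, block LC (helper790): ternary cubic forms and a linear form
-/

namespace Vale.Agent.P298.H790

open Vale.Agent.P298 Vale.Agent.P298.H766

/-- coefficients of a ternary cubic form -/
structure Cu where
  (x3 x2y x2z xy2 xyz xz2 y3 y2z yz2 z3 : ℂ)

namespace Cu

/-- value of the cubic form -/
def ev (c : Cu) (X Y Z : ℂ) : ℂ :=
  c.x3 * X ^ 3 + c.x2y * (X ^ 2 * Y) + c.x2z * (X ^ 2 * Z) + c.xy2 * (X * Y ^ 2) +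
    c.xyz * (X * Y * Z) + c.xz2 * (X * Z ^ 2) + c.y3 * Y ^ 3 + c.y2z * (Y ^ 2 * Z) +
    c.yz2 * (Y * Z ^ 2) + c.z3 * Z ^ 3

/-- coefficients of the affine cubic at a critical point -/
def k (c : Cu) : Fin 7 → ℂ := ![c.xy2, c.xyz, c.xz2, c.y3, c.y2z, c.yz2, c.z3]

/-- linear changes of the coordinates `Y, Z`, which may use `X` -/
def Sub (c c' : Cu) : Prop := ∃ m0 m1 p q r s : ℂ, p * s - q * r ≠ 0 ∧
  ∀ X Y Z, c.ev X (X * m0 + p * Y + r * Z) (X * m1 + q * Y + s * Z) = c'.ev X Y Z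

theorem Sub.refl (c : Cu) : Sub c c :=
  ⟨0, 0, 1, 0, 0, 1, by norm_num, fun X Y Z => by
    congr 1 <;> ring⟩

theorem Sub.trans {c c' c'' : Cu} (h : Sub c c') (h' : Sub c' c'') : Sub c c'' := by
  obtain ⟨m0, m1, p, q, r, s, hd, h⟩ := h
  obtain ⟨m0', m1', p', q', r', s', hd', h'⟩ := h'
  refine ⟨m0 + p * m0' + r * m1', m1 + q * m0' + s * m1', p * p' + r * q', q * p' + s * q',
    p * r' + r * s', q * r' + s * s', ?_, fun X Y Z => ?_⟩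
  · have : (p * p' + r * q') * (q * r' + s * s') - (q * p' + s * q') * (p * r' + r * s') =
        (p * s - q * r) * (p' * s' - q' * r') := by ring
    rw [this]
    exact mul_ne_zero hd hd'
  · rw [← h', ← h]
    congr 1 <;> ring

/-- linear change of `Y, Z` -/
def actG (p q r s : ℂ) (c : Cu) : Cu where
  x3 := c.x3
  x2y := c.x2y * p + c.x2z * q
  x2z := c.x2y * r + c.x2z * s
  xy2 := c.xy2 * p ^ 2 + c.xyz * (p * q) + c.xz2 * q ^ 2
  xyz := 2 * c.xy2 * (p * r) + c.xyz * (p * s + q * r) + 2 * c.xz2 * (q * s)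
  xz2 := c.xy2 * r ^ 2 + c.xyz * (r * s) + c.xz2 * s ^ 2
  y3 := c.y3 * p ^ 3 + c.y2z * (p ^ 2 * q) + c.yz2 * (p * q ^ 2) + c.z3 * q ^ 3
  y2z := 3 * c.y3 * (p ^ 2 * r) + c.y2z * (p ^ 2 * s + 2 * p * q * r) +
    c.yz2 * (q ^ 2 * r + 2 * p * q * s) + 3 * c.z3 * (q ^ 2 * s)
  yz2 := 3 * c.y3 * (p * r ^ 2) + c.y2z * (q * r ^ 2 + 2 * p * r * s) +
    c.yz2 * (p * s ^ 2 + 2 * q * r * s) + 3 * c.z3 * (q * s ^ 2)
  z3 := c.y3 * r ^ 3 + c.y2z * (r ^ 2 * s) + c.yz2 * (r * s ^ 2) + c.z3 * s ^ 3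

theorem sub_actG (c : Cu) {p q r s : ℂ} (h : p * s - q * r ≠ 0) : Sub c (actG p q r s c) := by
  refine ⟨0, 0, p, q, r, s, h, fun X Y Z => ?_⟩
  simp only [ev, actG]
  ring

/-- translation of `Y, Z` -/
def actT (a b : ℂ) (c : Cu) : Cu where
  x3 := c.ev 1 a b
  x2y := c.x2y + 2 * c.xy2 * a + c.xyz * b + 3 * c.y3 * a ^ 2 + 2 * c.y2z * (a * b) +
    c.yz2 * b ^ 2
  x2z := c.x2z + c.xyz * a + 2 * c.xz2 * b + c.y2z * a ^ 2 + 2 * c.yz2 * (a * b) +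
    3 * c.z3 * b ^ 2
  xy2 := c.xy2 + 3 * c.y3 * a + c.y2z * b
  xyz := c.xyz + 2 * c.y2z * a + 2 * c.yz2 * b
  xz2 := c.xz2 + c.yz2 * a + 3 * c.z3 * b
  y3 := c.y3
  y2z := c.y2z
  yz2 := c.yz2
  z3 := c.z3

theorem sub_actT (c : Cu) (a b : ℂ) : Sub c (actT a b c) := by
  refine ⟨a, b, 1, 0, 0, 1, by norm_num, fun X Y Z => ?_⟩
  simp only [ev, actT]
  ring

/-- existence of roots -/
theorem exists_root {p : Polynomial ℂ} {n : ℕ} (hn : 0 < n) (h : p.coeff n ≠ 0) :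
    ∃ y, p.eval y = 0 := by
  have h1 : p.degree ≠ 0 := by
    intro h2
    have h3 := Polynomial.le_degree_of_ne_zero h
    rw [h2] at h3
    have h4 : (n : WithBot ℕ) ≤ ((0 : ℕ) : WithBot ℕ) := h3
    rw [Nat.cast_le] at h4
    omega
  obtain ⟨y, hy⟩ := IsAlgClosed.exists_root p h1
  exact ⟨y, hy⟩

/-- existence of points where a polynomial does not vanish -/
theorem exists_not_root {p : Polynomial ℂ} {n : ℕ} (h : p.coeff n ≠ 0) : ∃ y, p.eval y ≠ 0 := by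
  by_contra h1
  push Not at h1
  have h2 : p = 0 := Polynomial.funext fun y => by rw [h1, Polynomial.eval_zero]
  rw [h2] at h
  exact h (Polynomial.coeff_zero n)

open Polynomial in
theorem root_cubic {a b c d : ℂ} (ha : a ≠ 0) : ∃ y, a * y ^ 3 + b * y ^ 2 + c * y + d = 0 := by
  obtain ⟨y, hy⟩ := exists_root (p := C a * X ^ 3 + C b * X ^ 2 + C c * X + C d) (n := 3)
    (by norm_num) (by simpa [coeff_X, coeff_C] using ha)
  refine ⟨y, ?_⟩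
  simpa using hy

open Polynomial in
theorem root_quadratic {a b c : ℂ} (ha : a ≠ 0) : ∃ y, a * y ^ 2 + b * y + c = 0 := by
  obtain ⟨y, hy⟩ := exists_root (p := C a * X ^ 2 + C b * X + C c) (n := 2)
    (by norm_num) (by simpa [coeff_X, coeff_C] using ha)
  refine ⟨y, ?_⟩
  simpa using hy

open Polynomial in
theorem root_quartic {a b c d e : ℂ} (ha : a ≠ 0) :
    ∃ y, a * y ^ 4 + b * y ^ 3 + c * y ^ 2 + d * y + e = 0 := by
  obtain ⟨y, hy⟩ := exists_root (p := C a * X ^ 4 + C b * X ^ 3 + C c * X ^ 2 + C d * X + C e)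
    (n := 4) (by norm_num) (by simpa [coeff_X, coeff_C] using ha)
  refine ⟨y, ?_⟩
  simpa using hy

/-- the normal forms of the binary cubic `y3, y2z, yz2, z3` -/
def NF (c : Cu) : Prop :=
  (c.y3 ≠ 0 ∧ c.y2z = 0 ∧ c.yz2 = 0 ∧ c.z3 ≠ 0) ∨
  (c.y3 = 0 ∧ c.y2z ≠ 0 ∧ c.yz2 = 0 ∧ c.z3 = 0) ∨
  (c.y3 ≠ 0 ∧ c.y2z = 0 ∧ c.yz2 = 0 ∧ c.z3 = 0) ∨
  (c.y3 = 0 ∧ c.y2z = 0 ∧ c.yz2 = 0 ∧ c.z3 = 0)

/-- a primitive cube root of unity -/
theorem exists_omega : ∃ ω : ℂ, ω ^ 2 + ω + 1 = 0 := by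
  obtain ⟨y, hy⟩ := root_quadratic (a := 1) (b := 1) (c := 1) one_ne_zero
  exact ⟨y, by linear_combination hy⟩

theorem nf_double (c : Cu) (hc : c.y3 ≠ 0) {u v : ℂ} (huv : u ≠ v)
    (h3 : c.y2z = -c.y3 * (2 * u + v)) (h4 : c.yz2 = c.y3 * (u ^ 2 + 2 * u * v))
    (h5 : c.z3 = -c.y3 * (u ^ 2 * v)) : ∃ p q r s : ℂ, p * s - q * r ≠ 0 ∧
    NF (actG p q r s c) := by
  refine ⟨v, 1, -u, -1, ?_, Or.inr (Or.inl ⟨?_, ?_, ?_, ?_⟩)⟩
  · have : v * -1 - 1 * -u = u - v := by ring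
    rw [this]
    exact sub_ne_zero.2 huv
  · simp only [actG]
    rw [h3, h4, h5]
    ring
  · have h6 : (actG v 1 (-u) (-1) c).y2z = c.y3 * (v - u) ^ 3 := by
      simp only [actG]
      rw [h3, h4, h5]
      ring
    rw [h6]
    exact mul_ne_zero hc (pow_ne_zero _ (sub_ne_zero.2 huv.symm))
  · simp only [actG]
    rw [h3, h4, h5]
    ring
  · simp only [actG]
    rw [h3, h4, h5]
    ring

theorem nf_distinct (c : Cu) (hc : c.y3 ≠ 0) {r1 r2 r3 : ℂ} (h12 : r1 ≠ r2) (h13 : r1 ≠ r3)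
    (h23 : r2 ≠ r3) (h3 : c.y2z = -c.y3 * (r1 + r2 + r3))
    (h4 : c.yz2 = c.y3 * (r1 * r2 + r1 * r3 + r2 * r3))
    (h5 : c.z3 = -c.y3 * (r1 * r2 * r3)) : ∃ p q r s : ℂ, p * s - q * r ≠ 0 ∧
    NF (actG p q r s c) := by
  obtain ⟨ω, hω⟩ := exists_omega
  have hω0 : ω ≠ 0 := by
    rintro rfl
    norm_num at hω
  have hω1 : ω ≠ 1 := by
    rintro rfl
    norm_num at hω
  have hδ : r1 - r2 ≠ 0 := sub_ne_zero.2 h12
  have hM : r1 - r3 ≠ 0 := sub_ne_zero.2 h13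
  have hΛ : r3 - r2 ≠ 0 := sub_ne_zero.2 h23.symm
  have hy3 : (actG (r1 * (r3 - r2) - r2 * (r1 - r3) * ω ^ 2) ((r3 - r2) - (r1 - r3) * ω ^ 2)
      (r1 * (r3 - r2) - r2 * (r1 - r3) * ω) ((r3 - r2) - (r1 - r3) * ω) c).y3 =
      -c.y3 * ((r1 - r2) ^ 2 * (r1 - r3) ^ 2 * (r3 - r2) ^ 2) := by
    simp only [actG]
    rw [h3, h4, h5]
    linear_combination (c.y3 * ((r1 - r2) ^ 2 * (r1 - r3) ^ 2 * (r3 - r2) ^ 2) *
      (ω ^ 2 - ω + 1)) * hω
  have hz3 : (actG (r1 * (r3 - r2) - r2 * (r1 - r3) * ω ^ 2) ((r3 - r2) - (r1 - r3) * ω ^ 2)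
      (r1 * (r3 - r2) - r2 * (r1 - r3) * ω) ((r3 - r2) - (r1 - r3) * ω) c).z3 =
      -c.y3 * ((r1 - r2) ^ 2 * (r1 - r3) ^ 2 * (r3 - r2) ^ 2) := by
    simp only [actG]
    rw [h3, h4, h5]
    linear_combination (c.y3 * ((r1 - r2) ^ 2 * (r1 - r3) ^ 2 * (r3 - r2) ^ 2)) * hω
  have hne : -c.y3 * ((r1 - r2) ^ 2 * (r1 - r3) ^ 2 * (r3 - r2) ^ 2) ≠ 0 :=
    mul_ne_zero (neg_ne_zero.2 hc) (mul_ne_zero (mul_ne_zero (pow_ne_zero _ hδ)
      (pow_ne_zero _ hM)) (pow_ne_zero _ hΛ))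
  refine ⟨r1 * (r3 - r2) - r2 * (r1 - r3) * ω ^ 2, (r3 - r2) - (r1 - r3) * ω ^ 2,
    r1 * (r3 - r2) - r2 * (r1 - r3) * ω, (r3 - r2) - (r1 - r3) * ω, ?_,
    Or.inl ⟨?_, ?_, ?_, ?_⟩⟩
  · have : (r1 * (r3 - r2) - r2 * (r1 - r3) * ω ^ 2) * ((r3 - r2) - (r1 - r3) * ω) -
        ((r3 - r2) - (r1 - r3) * ω ^ 2) * (r1 * (r3 - r2) - r2 * (r1 - r3) * ω) =
        (r3 - r2) * (r1 - r3) * (r1 - r2) * (ω * (ω - 1)) := by ring
    rw [this]
    exact mul_ne_zero (mul_ne_zero (mul_ne_zero hΛ hM) hδ)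
      (mul_ne_zero hω0 (sub_ne_zero.2 hω1))
  · rw [hy3]
    exact hne
  · simp only [actG]
    rw [h3, h4, h5]
    linear_combination (c.y3 * ((r1 - r2) ^ 2 * (r1 - r3) ^ 2 * (r3 - r2) ^ 2) *
      (ω * (ω + 1))) * hω
  · simp only [actG]
    rw [h3, h4, h5]
    linear_combination (c.y3 * ((r1 - r2) ^ 2 * (r1 - r3) ^ 2 * (r3 - r2) ^ 2) *
      (2 * ω)) * hω
  · rw [hz3]
    exact hne

theorem exists_nf_of_ne (c : Cu) (hc : c.y3 ≠ 0) : ∃ p q r s : ℂ, p * s - q * r ≠ 0 ∧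
    NF (actG p q r s c) := by
  obtain ⟨r1, h1⟩ := root_cubic (b := c.y2z) (c := c.yz2) (d := c.z3) hc
  obtain ⟨r2, h2⟩ := root_quadratic (a := c.y3) (b := c.y2z + c.y3 * r1)
    (c := c.yz2 + (c.y2z + c.y3 * r1) * r1) hc
  obtain ⟨r3, h3⟩ : ∃ r3, c.y2z = -c.y3 * (r1 + r2 + r3) := by
    refine ⟨-c.y2z / c.y3 - r1 - r2, ?_⟩
    field_simp
    ring
  have h4 : c.yz2 = c.y3 * (r1 * r2 + r1 * r3 + r2 * r3) := by
    rw [h3] at h2
    linear_combination h2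
  have h5 : c.z3 = -c.y3 * (r1 * r2 * r3) := by
    rw [h3, h4] at h1
    linear_combination h1
  by_cases h12 : r1 = r2
  · by_cases h13 : r1 = r3
    · subst h12
      subst h13
      refine ⟨1, 0, r1, 1, by norm_num, Or.inr (Or.inr (Or.inl ⟨?_, ?_, ?_, ?_⟩))⟩
      · simp only [actG]
        simpa using hc
      · simp only [actG]
        rw [h3, h4, h5]
        ring
      · simp only [actG]
        rw [h3, h4, h5]
        ring
      · simp only [actG]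
        rw [h3, h4, h5]
        ring
    · subst h12
      exact nf_double c hc h13 (by rw [h3]; ring) (by rw [h4]; ring) (by rw [h5]; ring)
  · by_cases h13 : r1 = r3
    · subst h13
      exact nf_double c hc h12 (by rw [h3]; ring) (by rw [h4]; ring) (by rw [h5]; ring)
    · by_cases h23 : r2 = r3
      · subst h23
        exact nf_double c hc (Ne.symm h12) (by rw [h3]; ring) (by rw [h4]; ring)
          (by rw [h5]; ring)
      · exact nf_distinct c hc h12 h13 h23 h3 h4 h5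

/-- substitutions compose -/
theorem actG_y (p q r s p' q' r' s' : ℂ) (c : Cu) :
    actG p' q' r' s' (actG p q r s c) =
      actG (p * p' + r * q') (q * p' + s * q') (p * r' + r * s') (q * r' + s * s') c := by
  simp only [actG, Cu.mk.injEq]
  refine ⟨trivial, ?_, ?_, ?_, ?_, ?_, ?_, ?_, ?_, ?_⟩ <;> ring

theorem exists_nf (c : Cu) : ∃ p q r s : ℂ, p * s - q * r ≠ 0 ∧ NF (actG p q r s c) := by
  have key : ∀ p q r s : ℂ, p * s - q * r ≠ 0 → (actG p q r s c).y3 ≠ 0 →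
      ∃ p q r s : ℂ, p * s - q * r ≠ 0 ∧ NF (actG p q r s c) := by
    intro p q r s hd h
    obtain ⟨p', q', r', s', hd', h'⟩ := exists_nf_of_ne _ h
    rw [actG_y] at h'
    refine ⟨_, _, _, _, ?_, h'⟩
    have : (p * p' + r * q') * (q * r' + s * s') - (q * p' + s * q') * (p * r' + r * s') =
        (p * s - q * r) * (p' * s' - q' * r') := by ring
    rw [this]
    exact mul_ne_zero hd hd'
  by_cases h1 : (actG 1 0 0 1 c).y3 = 0
  swap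
  · exact key _ _ _ _ (by norm_num) h1
  by_cases h2 : (actG 0 1 1 0 c).y3 = 0
  swap
  · exact key _ _ _ _ (by norm_num) h2
  by_cases h3 : (actG 1 1 0 1 c).y3 = 0
  swap
  · exact key _ _ _ _ (by norm_num) h3
  by_cases h4 : (actG 1 (-1) 0 1 c).y3 = 0
  swap
  · exact key _ _ _ _ (by norm_num) h4
  refine ⟨1, 0, 0, 1, by norm_num, Or.inr (Or.inr (Or.inr ?_))⟩
  simp only [actG] at h1 h2 h3 h4 ⊢
  have e1 : c.y3 = 0 := by linear_combination h1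
  have e2 : c.z3 = 0 := by linear_combination h2
  have e3 : c.y2z = 0 := by
    rw [e1, e2] at h3 h4
    linear_combination (h3 - h4) / 2
  have e4 : c.yz2 = 0 := by
    rw [e1, e2, e3] at h3
    linear_combination h3
  rw [e1, e2, e3, e4]
  refine ⟨?_, ?_, ?_, ?_⟩ <;> ring

end Cu

end Vale.Agent.P298.H790
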