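import Vale.Agent.P298.H790.Cub

/-!
# P298, block LC (helper790): isolated critical points of affine cubics
-/

namespace Vale.Agent.P298.H790

open Vale.Agent.P298 Vale.Agent.P298.H766

open Polynomial in
/-- a quartic relation -/
theorem mem_of_quartic {n : ℕ} {I : Ideal (MvPowerSeries (Fin n) ℂ)} (hI : I.IsRadical)
    {y : MvPowerSeries (Fin n) ℂ} (hy : MvPowerSeries.constantCoeff y = 0) (a b c d : ℂ)
    (h : algebraMap ℂ _ a * y ^ 4 + algebraMap ℂ _ b * y ^ 3 + algebraMap ℂ _ c * y ^ 2 +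
      algebraMap ℂ _ d * y ∈ I) (hne : a ≠ 0 ∨ b ≠ 0 ∨ c ≠ 0 ∨ d ≠ 0) : y ∈ I := by
  refine mem_of_poly hI hy (p := C a * X ^ 4 + C b * X ^ 3 + C c * X ^ 2 + C d * X) ?_ ?_
  · intro h0
    have h1 := congrArg (fun p => coeff p 4) h0
    have h2 := congrArg (fun p => coeff p 3) h0
    have h3 := congrArg (fun p => coeff p 2) h0
    have h4 := congrArg (fun p => coeff p 1) h0
    simp at h1 h2 h3 h4
    tauto
  · simpa using h

theorem mem_of_linear {n : ℕ} {I : Ideal (MvPowerSeries (Fin n) ℂ)}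
    {y : MvPowerSeries (Fin n) ℂ} {d : ℂ} (hd : d ≠ 0) (h : algebraMap ℂ _ d * y ∈ I) : y ∈ I := by
  have h1 := I.mul_mem_left (algebraMap ℂ _ d⁻¹) h
  rwa [← mul_assoc, ← map_mul, inv_mul_cancel₀ hd, map_one, one_mul] at h1

theorem iso_D {a b c α β : ℂ} (hα : α ≠ 0) (hβ : β ≠ 0) : Iso ![a, b, c, α, 0, 0, β] := by
  intro n I hI y z hy hz hY hZ
  simp only [PY, PZ, Matrix.cons_val, map_mul, map_ofNat, map_zero] at hY hZ
  have h1 : y ∈ I := by
    refine mem_of_quartic hI hy (27 * α ^ 2 * β) (36 * α * β * a)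
      (12 * β * a ^ 2 - 6 * α * b * c) (b ^ 3 - 4 * a * b * c) ?_
      (Or.inl (mul_ne_zero (mul_ne_zero (by norm_num) (pow_ne_zero _ hα)) hβ))
    have h2 := add_mem (I.mul_mem_left (algebraMap ℂ _ b ^ 2) hZ)
      (I.mul_mem_left (-2 * algebraMap ℂ _ c * algebraMap ℂ _ b + 3 * algebraMap ℂ _ β *
        (3 * algebraMap ℂ _ α * y ^ 2 + 2 * algebraMap ℂ _ a * y - algebraMap ℂ _ b * z)) hY)
    convert h2 using 1
    simp only [map_mul, map_sub, map_pow, map_ofNat]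
    ring
  refine ⟨h1, ?_⟩
  refine mem_of_quartic hI hz 0 0 (3 * β) (2 * c) ?_
    (Or.inr (Or.inr (Or.inl (mul_ne_zero (by norm_num) hβ))))
  have h2 := sub_mem hZ (I.mul_mem_left (algebraMap ℂ _ b) h1)
  convert h2 using 1
  simp only [map_mul, map_ofNat, map_zero]
  ring

theorem iso_E {a b c α : ℂ} (hα : α ≠ 0) (h : c ≠ 0 ∨ b ≠ 0) : Iso ![a, b, c, 0, α, 0, 0] := by
  intro n I hI y z hy hz hY hZ
  simp only [PY, PZ, Matrix.cons_val, map_mul, map_ofNat, map_zero] at hY hZ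
  by_cases hc : c = 0
  · have hb : b ≠ 0 := h.resolve_left (fun h => h hc)
    subst hc
    have h1 : y ∈ I := by
      refine mem_of_quartic hI hy 0 0 α b ?_ (Or.inr (Or.inr (Or.inl hα)))
      convert hZ using 1
      simp only [map_zero]
      ring
    refine ⟨h1, mem_of_linear hb ?_⟩
    have h2 := sub_mem hY (I.mul_mem_left (2 * algebraMap ℂ _ a + 2 * algebraMap ℂ _ α * z) h1)
    convert h2 using 1
    ring
  · have h1 : y ∈ I := by
      refine mem_of_quartic hI hy 0 (-2 * α ^ 2) (-3 * α * b) (4 * a * c - b ^ 2) ?_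
        (Or.inr (Or.inl (mul_ne_zero (by norm_num) (pow_ne_zero _ hα))))
      have h2 := sub_mem (I.mul_mem_left (2 * algebraMap ℂ _ c) hY)
        (I.mul_mem_left (algebraMap ℂ _ b + 2 * algebraMap ℂ _ α * y) hZ)
      convert h2 using 1
      simp only [map_mul, map_sub, map_pow, map_ofNat, map_neg, map_zero]
      ring
    refine ⟨h1, mem_of_linear (mul_ne_zero two_ne_zero hc) ?_⟩
    have h2 := sub_mem hZ (I.mul_mem_left (algebraMap ℂ _ b + algebraMap ℂ _ α * y) h1)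
    convert h2 using 1
    simp only [map_mul, map_ofNat]
    ring

theorem iso_T {a b c α : ℂ} (hα : α ≠ 0) (h : c ≠ 0 ∨ b ≠ 0) : Iso ![a, b, c, α, 0, 0, 0] := by
  intro n I hI y z hy hz hY hZ
  simp only [PY, PZ, Matrix.cons_val, map_mul, map_ofNat, map_zero] at hY hZ
  by_cases hc : c = 0
  · have hb : b ≠ 0 := h.resolve_left (fun h => h hc)
    subst hc
    have h1 : y ∈ I := by
      refine mem_of_linear hb ?_
      convert hZ using 1
      simp only [map_zero]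
      ring
    refine ⟨h1, mem_of_linear hb ?_⟩
    have h2 := sub_mem hY (I.mul_mem_left (2 * algebraMap ℂ _ a + 3 * algebraMap ℂ _ α * y) h1)
    convert h2 using 1
    ring
  · have h1 : y ∈ I := by
      refine mem_of_quartic hI hy 0 0 (6 * c * α) (4 * a * c - b ^ 2) ?_
        (Or.inr (Or.inr (Or.inl (mul_ne_zero (mul_ne_zero (by norm_num) hc) hα))))
      have h2 := sub_mem (I.mul_mem_left (2 * algebraMap ℂ _ c) hY)
        (I.mul_mem_left (algebraMap ℂ _ b) hZ)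
      convert h2 using 1
      simp only [map_mul, map_sub, map_pow, map_ofNat, map_zero]
      ring
    refine ⟨h1, mem_of_linear (mul_ne_zero two_ne_zero hc) ?_⟩
    have h2 := sub_mem hZ (I.mul_mem_left (algebraMap ℂ _ b) h1)
    convert h2 using 1
    simp only [map_mul, map_ofNat]
    ring

theorem iso_0 {a b c : ℂ} (h : 4 * a * c - b ^ 2 ≠ 0) : Iso ![a, b, c, 0, 0, 0, 0] := by
  intro n I hI y z hy hz hY hZ
  simp only [PY, PZ, Matrix.cons_val, map_mul, map_ofNat, map_zero] at hY hZ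
  refine ⟨mem_of_linear h ?_, mem_of_linear h ?_⟩
  · have h2 := sub_mem (I.mul_mem_left (2 * algebraMap ℂ _ c) hY)
      (I.mul_mem_left (algebraMap ℂ _ b) hZ)
    convert h2 using 1
    simp only [map_mul, map_sub, map_pow, map_ofNat]
    ring
  · have h2 := sub_mem (I.mul_mem_left (2 * algebraMap ℂ _ a) hZ)
      (I.mul_mem_left (algebraMap ℂ _ b) hY)
    convert h2 using 1
    simp only [map_mul, map_sub, map_pow, map_ofNat]
    ring

namespace Cu

/-- after a change of coordinates keeping `X`, the origin is an isolated critical point of the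
restriction to `X = 1` -/
def Good (c : Cu) : Prop := ∃ c', Sub c c' ∧ c'.x2y = 0 ∧ c'.x2z = 0 ∧ Iso c'.k

/-- the three exceptional shapes -/
def Shape (c : Cu) : Prop :=
  (c.x2z = 0 ∧ c.xy2 = 0 ∧ c.xyz = 0 ∧ c.xz2 = 0 ∧ c.y3 = 0 ∧ c.yz2 = 0 ∧ c.z3 = 0) ∨
  (c.xy2 = 0 ∧ c.xyz = 0 ∧ c.xz2 = 0 ∧ c.y2z = 0 ∧ c.yz2 = 0 ∧ c.z3 = 0) ∨
  (c.xyz = 0 ∧ c.xz2 = 0 ∧ c.y3 = 0 ∧ c.y2z = 0 ∧ c.yz2 = 0 ∧ c.z3 = 0)

/-- the form is exceptional with respect to the linear form `X` -/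
def Bad (c : Cu) : Prop := ∃ c', Sub c c' ∧ Shape c'

theorem Good.of_sub {c c' : Cu} (h : Sub c c') (h' : Good c') : Good c := by
  obtain ⟨c'', h1, h2⟩ := h'
  exact ⟨c'', h.trans h1, h2⟩

theorem Bad.of_sub {c c' : Cu} (h : Sub c c') (h' : Bad c') : Bad c := by
  obtain ⟨c'', h1, h2⟩ := h'
  exact ⟨c'', h.trans h1, h2⟩

theorem good_D (c : Cu) (h1 : c.y3 ≠ 0) (h2 : c.y2z = 0) (h3 : c.yz2 = 0) (h4 : c.z3 ≠ 0) :
    Good c := by
  obtain ⟨Y, Z, hY, hZ⟩ : ∃ Y Z : ℂ, c.x2y + 2 * c.xy2 * Y + c.xyz * Z + 3 * c.y3 * Y ^ 2 = 0 ∧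
      c.x2z + c.xyz * Y + 2 * c.xz2 * Z + 3 * c.z3 * Z ^ 2 = 0 := by
    by_cases hb : c.xyz = 0
    · obtain ⟨Y, hY⟩ := root_quadratic (a := 3 * c.y3) (b := 2 * c.xy2) (c := c.x2y)
        (mul_ne_zero (by norm_num) h1)
      obtain ⟨Z, hZ⟩ := root_quadratic (a := 3 * c.z3) (b := 2 * c.xz2) (c := c.x2z)
        (mul_ne_zero (by norm_num) h4)
      refine ⟨Y, Z, ?_, ?_⟩
      · rw [hb]
        linear_combination hY
      · rw [hb]
        linear_combination hZ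
    · obtain ⟨Y, hY⟩ := root_quartic (a := 27 * c.y3 ^ 2 * c.z3) (b := 36 * c.y3 * c.z3 * c.xy2)
        (c := 3 * c.z3 * (4 * c.xy2 ^ 2 + 6 * c.y3 * c.x2y) - 6 * c.y3 * c.xz2 * c.xyz)
        (d := 12 * c.z3 * c.xy2 * c.x2y - 4 * c.xz2 * c.xyz * c.xy2 + c.xyz ^ 3)
        (e := 3 * c.z3 * c.x2y ^ 2 - 2 * c.xz2 * c.xyz * c.x2y + c.xyz ^ 2 * c.x2z)
        (mul_ne_zero (mul_ne_zero (by norm_num) (pow_ne_zero _ h1)) h4)
      obtain ⟨Z, hZ⟩ : ∃ Z, c.xyz * Z = -(3 * c.y3 * Y ^ 2 + 2 * c.xy2 * Y + c.x2y) :=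
        ⟨-(3 * c.y3 * Y ^ 2 + 2 * c.xy2 * Y + c.x2y) / c.xyz, by field_simp⟩
      refine ⟨Y, Z, by linear_combination hZ, ?_⟩
      apply mul_left_cancel₀ (pow_ne_zero 2 hb)
      linear_combination hY + (2 * c.xz2 * c.xyz + 3 * c.z3 * (c.xyz * Z -
        (3 * c.y3 * Y ^ 2 + 2 * c.xy2 * Y + c.x2y))) * hZ
  refine ⟨actT Y Z c, sub_actT c Y Z, ?_, ?_, ?_⟩
  · simp only [actT]
    rw [h2, h3]
    linear_combination hY
  · simp only [actT]
    rw [h2, h3]
    linear_combination hZ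
  · have : (actT Y Z c).k = ![(actT Y Z c).xy2, (actT Y Z c).xyz, (actT Y Z c).xz2,
        c.y3, 0, 0, c.z3] := by
      simp only [k, actT, h2, h3]
    rw [this]
    exact iso_D h1 h4

theorem class_E (c : Cu) (h1 : c.y3 = 0) (h2 : c.y2z ≠ 0) (h3 : c.yz2 = 0) (h4 : c.z3 = 0)
    (h5 : c.xy2 = 0) (h6 : c.xyz = 0) : Good c ∨ Shape c := by
  have key : ∀ Y Z : ℂ, c.x2y + 2 * c.y2z * (Y * Z) = 0 →
      c.x2z + 2 * c.xz2 * Z + c.y2z * Y ^ 2 = 0 → (c.xz2 ≠ 0 ∨ Y ≠ 0) → Good c := by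
    intro Y Z hY hZ h
    refine ⟨actT Y Z c, sub_actT c Y Z, ?_, ?_, ?_⟩
    · simp only [actT]
      rw [h1, h3, h5, h6]
      linear_combination hY
    · simp only [actT]
      rw [h3, h4, h6]
      linear_combination hZ
    · have : (actT Y Z c).k = ![(actT Y Z c).xy2, (actT Y Z c).xyz, (actT Y Z c).xz2,
          0, c.y2z, 0, 0] := by
        simp only [k, actT, h1, h3, h4]
      rw [this]
      refine iso_E h2 ?_
      rcases h with h | h
      · left
        simp only [actT, h3, h4]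
        simpa using h
      · right
        simp only [actT, h3, h6]
        simpa using ⟨h2, h⟩
  by_cases hc : c.xz2 = 0
  · by_cases he : c.x2z = 0
    · right
      exact Or.inl ⟨he, h5, h6, hc, h1, h3, h4⟩
    · left
      obtain ⟨Y, hY⟩ := root_quadratic (a := c.y2z) (b := 0) (c := c.x2z) h2
      have hY0 : Y ≠ 0 := by
        rintro rfl
        apply he
        linear_combination hY
      obtain ⟨Z, hZ⟩ : ∃ Z, 2 * c.y2z * Y * Z = -c.x2y :=
        ⟨-c.x2y / (2 * c.y2z * Y), by field_simp⟩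
      refine key Y Z (by linear_combination hZ) ?_ (Or.inr hY0)
      rw [hc]
      linear_combination hY
  · left
    obtain ⟨Y, hY⟩ := root_cubic (a := -c.y2z ^ 2) (b := 0) (c := -c.y2z * c.x2z)
      (d := c.xz2 * c.x2y) (neg_ne_zero.2 (pow_ne_zero _ h2))
    obtain ⟨Z, hZ⟩ : ∃ Z, 2 * c.xz2 * Z = -(c.x2z + c.y2z * Y ^ 2) :=
      ⟨-(c.x2z + c.y2z * Y ^ 2) / (2 * c.xz2), by field_simp⟩
    refine key Y Z ?_ (by linear_combination hZ) (Or.inl hc)
    apply mul_left_cancel₀ hc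
    linear_combination hY + c.y2z * Y * hZ

theorem class_T (c : Cu) (h1 : c.y3 ≠ 0) (h2 : c.y2z = 0) (h3 : c.yz2 = 0) (h4 : c.z3 = 0)
    (h5 : c.xy2 = 0) : Good c ∨ Shape c := by
  have key : ∀ Y Z : ℂ, c.x2y + c.xyz * Z + 3 * c.y3 * Y ^ 2 = 0 →
      c.x2z + c.xyz * Y + 2 * c.xz2 * Z = 0 → (c.xz2 ≠ 0 ∨ c.xyz ≠ 0) → Good c := by
    intro Y Z hY hZ h
    refine ⟨actT Y Z c, sub_actT c Y Z, ?_, ?_, ?_⟩
    · simp only [actT]
      rw [h2, h3, h5]
      linear_combination hY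
    · simp only [actT]
      rw [h2, h3, h4]
      linear_combination hZ
    · have : (actT Y Z c).k = ![(actT Y Z c).xy2, (actT Y Z c).xyz, (actT Y Z c).xz2,
          c.y3, 0, 0, 0] := by
        simp only [k, actT, h2, h3, h4]
      rw [this]
      refine iso_T h1 ?_
      rcases h with h | h
      · left
        simp only [actT, h3, h4]
        simpa using h
      · right
        simp only [actT, h2, h3]
        simpa using h
  by_cases hc : c.xz2 = 0
  · by_cases hb : c.xyz = 0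
    · right
      exact Or.inr (Or.inl ⟨h5, hb, hc, h2, h3, h4⟩)
    · left
      obtain ⟨Y, hY⟩ : ∃ Y, c.xyz * Y = -c.x2z := ⟨-c.x2z / c.xyz, by field_simp⟩
      obtain ⟨Z, hZ⟩ : ∃ Z, c.xyz * Z = -(c.x2y + 3 * c.y3 * Y ^ 2) :=
        ⟨-(c.x2y + 3 * c.y3 * Y ^ 2) / c.xyz, by field_simp⟩
      refine key Y Z (by linear_combination hZ) ?_ (Or.inr hb)
      rw [hc]
      linear_combination hY
  · left
    obtain ⟨Y, hY⟩ := root_quadratic (a := 6 * c.xz2 * c.y3) (b := -c.xyz ^ 2)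
      (c := 2 * c.xz2 * c.x2y - c.xyz * c.x2z)
      (mul_ne_zero (mul_ne_zero (by norm_num) hc) h1)
    obtain ⟨Z, hZ⟩ : ∃ Z, 2 * c.xz2 * Z = -(c.x2z + c.xyz * Y) :=
      ⟨-(c.x2z + c.xyz * Y) / (2 * c.xz2), by field_simp⟩
    refine key Y Z ?_ (by linear_combination hZ) (Or.inl hc)
    apply mul_left_cancel₀ (mul_ne_zero two_ne_zero hc)
    linear_combination hY + c.xyz * hZ

theorem class_0 (c : Cu) (h1 : c.y3 = 0) (h2 : c.y2z = 0) (h3 : c.yz2 = 0) (h4 : c.z3 = 0) :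
    Good c ∨ Bad c := by
  by_cases hd : 4 * c.xy2 * c.xz2 - c.xyz ^ 2 = 0
  · right
    by_cases ha : c.xy2 = 0
    · have hb : c.xyz = 0 := by
        rw [ha] at hd
        have : c.xyz ^ 2 = 0 := by linear_combination -hd
        exact pow_eq_zero_iff (two_ne_zero) |>.1 this
      refine ⟨actG 0 1 1 0 c, sub_actG c (by norm_num), Or.inr (Or.inr ?_)⟩
      simp only [actG]
      rw [h1, h2, h3, h4, ha, hb]
      refine ⟨?_, ?_, ?_, ?_, ?_, ?_⟩ <;> ring
    · refine ⟨actG 1 0 (-c.xyz) (2 * c.xy2) c, sub_actG c (by simpa using ha),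
        Or.inr (Or.inr ?_)⟩
      simp only [actG]
      rw [h1, h2, h3, h4]
      refine ⟨?_, ?_, ?_, ?_, ?_, ?_⟩
      · ring
      · linear_combination c.xy2 * hd
      all_goals ring
  · left
    obtain ⟨Y, hY⟩ : ∃ Y, (4 * c.xy2 * c.xz2 - c.xyz ^ 2) * Y =
        c.xyz * c.x2z - 2 * c.xz2 * c.x2y :=
      ⟨(c.xyz * c.x2z - 2 * c.xz2 * c.x2y) / (4 * c.xy2 * c.xz2 - c.xyz ^ 2), by field_simp⟩
    obtain ⟨Z, hZ⟩ : ∃ Z, (4 * c.xy2 * c.xz2 - c.xyz ^ 2) * Z =
        c.xyz * c.x2y - 2 * c.xy2 * c.x2z :=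
      ⟨(c.xyz * c.x2y - 2 * c.xy2 * c.x2z) / (4 * c.xy2 * c.xz2 - c.xyz ^ 2), by field_simp⟩
    refine ⟨actT Y Z c, sub_actT c Y Z, ?_, ?_, ?_⟩
    · simp only [actT]
      rw [h1, h2, h3]
      apply mul_left_cancel₀ hd
      linear_combination 2 * c.xy2 * hY + c.xyz * hZ
    · simp only [actT]
      rw [h2, h3, h4]
      apply mul_left_cancel₀ hd
      linear_combination c.xyz * hY + 2 * c.xz2 * hZ
    · have : (actT Y Z c).k = ![c.xy2, c.xyz, c.xz2, 0, 0, 0, 0] := by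
        simp [k, actT, h1, h2, h3, h4]
      rw [this]
      exact iso_0 hd

/-- **Classification.** Either the restriction of the cubic form to `X = 1` has an isolated
critical point or the form is exceptional. -/
theorem good_or_bad (c : Cu) : Good c ∨ Bad c := by
  obtain ⟨p, q, r, s, hd, h⟩ := exists_nf c
  have hs := sub_actG c hd
  set c1 := actG p q r s c with hc1
  have wrap : Good c1 ∨ Bad c1 → Good c ∨ Bad c := fun h =>
    h.imp (Good.of_sub hs) (Bad.of_sub hs)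
  apply wrap
  rcases h with ⟨h1, h2, h3, h4⟩ | ⟨h1, h2, h3, h4⟩ | ⟨h1, h2, h3, h4⟩ | ⟨h1, h2, h3, h4⟩
  · exact Or.inl (good_D c1 h1 h2 h3 h4)
  · -- `Y²Z`
    obtain ⟨Z, hZ⟩ : ∃ Z, c1.y2z * Z = -c1.xy2 := ⟨-c1.xy2 / c1.y2z, by field_simp⟩
    obtain ⟨Y, hY⟩ : ∃ Y, 2 * c1.y2z * Y = -c1.xyz := ⟨-c1.xyz / (2 * c1.y2z), by field_simp⟩
    have hs2 := sub_actT c1 Y Z
    have h5 := class_E (actT Y Z c1) (by simpa [actT] using h1) (by simpa [actT] using h2)
      (by simpa [actT] using h3) (by simpa [actT] using h4)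
      (by simp only [actT]; rw [h1]; linear_combination hZ)
      (by simp only [actT]; rw [h3]; linear_combination hY)
    rcases h5 with h5 | h5
    · exact Or.inl (h5.of_sub hs2)
    · exact Or.inr ⟨_, hs2, h5⟩
  · obtain ⟨Y, hY⟩ : ∃ Y, 3 * c1.y3 * Y = -c1.xy2 := ⟨-c1.xy2 / (3 * c1.y3), by field_simp⟩
    have hs2 := sub_actT c1 Y 0
    have h5 := class_T (actT Y 0 c1) (by simpa [actT] using h1) (by simpa [actT] using h2)
      (by simpa [actT] using h3) (by simpa [actT] using h4)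
      (by simp only [actT]; linear_combination hY)
    rcases h5 with h5 | h5
    · exact Or.inl (h5.of_sub hs2)
    · exact Or.inr ⟨_, hs2, h5⟩
  · exact class_0 c1 h1 h2 h3 h4

end Cu

end Vale.Agent.P298.H790
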