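import Vale.Agent.P298.H790.Cub2

/-!
# P298, block LC (helper790): exceptional cubic forms, plane sections with distinct roots
-/

namespace Vale.Agent.P298.H790

open Vale.Agent.P298 Vale.Agent.P298.H766

namespace Cu

/-- weighted growth of the exceptional shapes -/
theorem shape_growth (c : Cu) (h : Shape c) : ∃ (w : Fin 3 → ℕ) (D : ℕ), 0 < D ∧
    w 0 + w 1 + w 2 < 4 * D ∧ (∀ i, D ≤ w i) ∧ ∃ C : ℝ, 0 ≤ C ∧ ∀ l : ℝ, 0 < l → l ≤ 1 →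
      ∀ y : Fin 3 → ℂ, ‖y‖ ≤ 1 →
      ‖c.ev ((l : ℂ) ^ (w 0) * y 0) ((l : ℂ) ^ (w 1) * y 1) ((l : ℂ) ^ (w 2) * y 2)‖ ≤
        C * l ^ (4 * D) := by
  -- a general bound
  have key : ∀ (w : Fin 3 → ℕ) (D : ℕ) (E : ℝ → (Fin 3 → ℂ) → ℂ) (C : ℝ), 0 ≤ C →
      (∀ l : ℝ, 0 < l → l ≤ 1 → ∀ y : Fin 3 → ℂ, ‖y‖ ≤ 1 →
        c.ev ((l : ℂ) ^ (w 0) * y 0) ((l : ℂ) ^ (w 1) * y 1) ((l : ℂ) ^ (w 2) * y 2) =
          (l : ℂ) ^ D * E l y) →
      (∀ l : ℝ, 0 < l → l ≤ 1 → ∀ y : Fin 3 → ℂ, ‖y‖ ≤ 1 → ‖E l y‖ ≤ C) →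
      ∃ C : ℝ, 0 ≤ C ∧ ∀ l : ℝ, 0 < l → l ≤ 1 → ∀ y : Fin 3 → ℂ, ‖y‖ ≤ 1 →
      ‖c.ev ((l : ℂ) ^ (w 0) * y 0) ((l : ℂ) ^ (w 1) * y 1) ((l : ℂ) ^ (w 2) * y 2)‖ ≤
        C * l ^ D := by
    intro w D E C hC h1 h2
    refine ⟨C, hC, fun l hl hl1 y hy => ?_⟩
    rw [h1 l hl hl1 y hy, norm_mul, norm_pow, Complex.norm_real, Real.norm_of_nonneg hl.le,
      mul_comm]
    exact mul_le_mul_of_nonneg_right (h2 l hl hl1 y hy) (by positivity)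
  have hn : ∀ (y : Fin 3 → ℂ), ‖y‖ ≤ 1 → ∀ i, ‖y i‖ ≤ 1 := fun y hy i =>
    (norm_le_pi_norm y i).trans hy
  have hm : ∀ (a : ℂ) (b : ℂ), ‖b‖ ≤ 1 → ‖a * b‖ ≤ ‖a‖ := by
    intro a b hb
    rw [norm_mul]
    exact mul_le_of_le_one_right (norm_nonneg _) hb
  have h1m : ∀ a b : ℂ, ‖a‖ ≤ 1 → ‖b‖ ≤ 1 → ‖a * b‖ ≤ 1 := by
    intro a b ha hb
    rw [norm_mul]
    exact mul_le_one₀ ha (norm_nonneg _) hb
  have h1p : ∀ (a : ℂ) (n : ℕ), ‖a‖ ≤ 1 → ‖a ^ n‖ ≤ 1 := by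
    intro a n ha
    rw [norm_pow]
    exact pow_le_one₀ (norm_nonneg _) ha
  have hl' : ∀ l : ℝ, 0 < l → l ≤ 1 → ‖(l : ℂ)‖ ≤ 1 := by
    intro l hl hl1
    rw [Complex.norm_real, Real.norm_of_nonneg hl.le]
    exact hl1
  rcases h with ⟨a1, a2, a3, a4, a5, a6, a7⟩ | ⟨a1, a2, a3, a4, a5, a6⟩ |
    ⟨a1, a2, a3, a4, a5, a6⟩
  · refine ⟨![8, 9, 6], 6, by norm_num, by decide, ?_, ?_⟩
    · intro i
      fin_cases i <;> norm_num
    · refine key _ _ (fun l y => c.y2z * (y 1 ^ 2 * y 2) + c.x2y * ((l : ℂ) * (y 0 ^ 2 * y 1)) +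
        c.x3 * y 0 ^ 3) (‖c.y2z‖ + ‖c.x2y‖ + ‖c.x3‖) (by positivity) ?_ ?_
      · intro l hl hl1 y hy
        simp only [ev, Matrix.cons_val, a1, a2, a3, a4, a5, a6, a7]
        ring
      · intro l hl hl1 y hy
        refine (norm_add_le _ _).trans (add_le_add ((norm_add_le _ _).trans
          (add_le_add ?_ ?_)) ?_)
        · exact hm _ _ (h1m _ _ (h1p _ _ (hn y hy 1)) (hn y hy 2))
        · exact hm _ _ (h1m _ _ (hl' l hl hl1) (h1m _ _ (h1p _ _ (hn y hy 0)) (hn y hy 1)))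
        · exact hm _ _ (h1p _ _ (hn y hy 0))
  · refine ⟨![9, 8, 6], 6, by norm_num, by decide, ?_, ?_⟩
    · intro i
      fin_cases i <;> norm_num
    · refine key _ _ (fun l y => c.y3 * y 1 ^ 3 + c.x2y * ((l : ℂ) ^ 2 * (y 0 ^ 2 * y 1)) +
        c.x2z * (y 0 ^ 2 * y 2) + c.x3 * ((l : ℂ) ^ 3 * y 0 ^ 3))
        (‖c.y3‖ + ‖c.x2y‖ + ‖c.x2z‖ + ‖c.x3‖) (by positivity) ?_ ?_
      · intro l hl hl1 y hy
        simp only [ev, Matrix.cons_val, a1, a2, a3, a4, a5, a6]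
        ring
      · intro l hl hl1 y hy
        refine (norm_add_le _ _).trans (add_le_add ((norm_add_le _ _).trans
          (add_le_add ((norm_add_le _ _).trans (add_le_add ?_ ?_)) ?_)) ?_)
        · exact hm _ _ (h1p _ _ (hn y hy 1))
        · exact hm _ _ (h1m _ _ (h1p _ _ (hl' l hl hl1))
            (h1m _ _ (h1p _ _ (hn y hy 0)) (hn y hy 1)))
        · exact hm _ _ (h1m _ _ (h1p _ _ (hn y hy 0)) (hn y hy 2))
        · exact hm _ _ (h1m _ _ (h1p _ _ (hl' l hl hl1)) (h1p _ _ (hn y hy 0)))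
  · refine ⟨![6, 5, 4], 4, by norm_num, by decide, ?_, ?_⟩
    · intro i
      fin_cases i <;> norm_num
    · refine key _ _ (fun l y => c.xy2 * (y 0 * y 1 ^ 2) + c.x2y * ((l : ℂ) * (y 0 ^ 2 * y 1)) +
        c.x2z * (y 0 ^ 2 * y 2) + c.x3 * ((l : ℂ) ^ 2 * y 0 ^ 3))
        (‖c.xy2‖ + ‖c.x2y‖ + ‖c.x2z‖ + ‖c.x3‖) (by positivity) ?_ ?_
      · intro l hl hl1 y hy
        simp only [ev, Matrix.cons_val, a1, a2, a3, a4, a5, a6]
        ring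
      · intro l hl hl1 y hy
        refine (norm_add_le _ _).trans (add_le_add ((norm_add_le _ _).trans
          (add_le_add ((norm_add_le _ _).trans (add_le_add ?_ ?_)) ?_)) ?_)
        · exact hm _ _ (h1m _ _ (hn y hy 0) (h1p _ _ (hn y hy 1)))
        · exact hm _ _ (h1m _ _ (hl' l hl hl1)
            (h1m _ _ (h1p _ _ (hn y hy 0)) (hn y hy 1)))
        · exact hm _ _ (h1m _ _ (h1p _ _ (hn y hy 0)) (hn y hy 2))
        · exact hm _ _ (h1m _ _ (h1p _ _ (hl' l hl hl1)) (h1p _ _ (hn y hy 0)))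

/-- the discriminant of the binary cubic `y3, y2z, yz2, z3` -/
def disc (c : Cu) : ℂ :=
  c.y2z ^ 2 * c.yz2 ^ 2 - 4 * c.y3 * c.yz2 ^ 3 - 4 * c.y2z ^ 3 * c.z3 -
    27 * c.y3 ^ 2 * c.z3 ^ 2 + 18 * c.y3 * c.y2z * c.yz2 * c.z3

theorem disc_actG (p q r s : ℂ) (c : Cu) :
    (actG p q r s c).disc = (p * s - q * r) ^ 6 * c.disc := by
  simp only [disc, actG]
  ring

/-- binary cubics with distinct roots are sums of two cubes -/
theorem exists_diag (c : Cu) (h : c.disc ≠ 0) : ∃ p q r s : ℂ, p * s - q * r ≠ 0 ∧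
    (actG p q r s c).y3 ≠ 0 ∧ (actG p q r s c).y2z = 0 ∧ (actG p q r s c).yz2 = 0 ∧
      (actG p q r s c).z3 ≠ 0 := by
  obtain ⟨p, q, r, s, hd, h1⟩ := exists_nf c
  have h2 : (actG p q r s c).disc ≠ 0 := by
    rw [disc_actG]
    exact mul_ne_zero (pow_ne_zero _ hd) h
  refine ⟨p, q, r, s, hd, ?_⟩
  rcases h1 with h1 | ⟨h1, h3, h4, h5⟩ | ⟨h1, h3, h4, h5⟩ | ⟨h1, h3, h4, h5⟩
  · exact h1
  all_goals
    exfalso
    apply h2
    simp only [disc, h1, h3, h4, h5]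
    ring

/-- linear combination of plane sections: restriction of the form to the plane `X = t Z` -/
def cut (t : ℂ) (c : Cu) : Cu where
  x3 := c.x3
  x2y := c.x2y
  x2z := c.x2z + 3 * c.x3 * t
  xy2 := c.xy2
  xyz := c.xyz + 2 * c.x2y * t
  xz2 := c.xz2 + 2 * c.x2z * t + 3 * c.x3 * t ^ 2
  y3 := c.y3
  y2z := c.y2z + c.xy2 * t
  yz2 := c.yz2 + c.xyz * t + c.x2y * t ^ 2
  z3 := c.z3 + c.xz2 * t + c.x2z * t ^ 2 + c.x3 * t ^ 3

theorem ev_cut (t : ℂ) (c : Cu) (X Y Z : ℂ) : (cut t c).ev X Y Z = c.ev (X + t * Z) Y Z := by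
  simp only [ev, cut]
  ring

/-- linear changes of coordinates -/
def Lin (c c' : Cu) : Prop := ∃ M : (Fin 3 → ℂ) ≃L[ℂ] (Fin 3 → ℂ), ∀ x : Fin 3 → ℂ,
  c.ev (M x 0) (M x 1) (M x 2) = c'.ev (x 0) (x 1) (x 2)

theorem exists_equiv_of_det (M : Matrix (Fin 3) (Fin 3) ℂ) (h : M.det ≠ 0) :
    ∃ T : (Fin 3 → ℂ) ≃L[ℂ] (Fin 3 → ℂ), ∀ x, T x = M.mulVec x :=
  ⟨(Matrix.toLinearEquiv' M
    (M.invertibleOfIsUnitDet (isUnit_iff_ne_zero.2 h))).toContinuousLinearEquiv, fun _ => rfl⟩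

theorem Lin.trans {c c' c'' : Cu} (h : Lin c c') (h' : Lin c' c'') : Lin c c'' := by
  obtain ⟨M, h⟩ := h
  obtain ⟨M', h'⟩ := h'
  exact ⟨M'.trans M, fun x => by rw [← h', ← h]; rfl⟩

/-- the coordinates realizing `Sub` -/
theorem Sub.exists_equiv {c c' : Cu} (h : Sub c c') : ∃ M : (Fin 3 → ℂ) ≃L[ℂ] (Fin 3 → ℂ),
    (∀ x, M x 0 = x 0) ∧
    ∀ x : Fin 3 → ℂ, c.ev (M x 0) (M x 1) (M x 2) = c'.ev (x 0) (x 1) (x 2) := by
  obtain ⟨m0, m1, p, q, r, s, hd, h⟩ := h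
  obtain ⟨T, hT⟩ := exists_equiv_of_det !![1, 0, 0; m0, p, r; m1, q, s] (by
    rw [Matrix.det_fin_three]
    simp only [Matrix.of_apply, Matrix.cons_val', Matrix.cons_val]
    intro h1
    apply hd
    linear_combination h1)
  have h0 : ∀ x, T x 0 = x 0 := by
    intro x
    rw [hT]
    simp [Matrix.mulVec, dotProduct, Fin.sum_univ_three]
  refine ⟨T, h0, fun x => ?_⟩
  have h1 : T x 1 = x 0 * m0 + p * x 1 + r * x 2 := by
    rw [hT]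
    simp [Matrix.mulVec, dotProduct, Fin.sum_univ_three]
    ring
  have h2 : T x 2 = x 0 * m1 + q * x 1 + s * x 2 := by
    rw [hT]
    simp [Matrix.mulVec, dotProduct, Fin.sum_univ_three]
    ring
  rw [h0, h1, h2, h]

theorem Sub.lin {c c' : Cu} (h : Sub c c') : Lin c c' := by
  obtain ⟨M, -, h⟩ := h.exists_equiv
  exact ⟨M, h⟩

theorem lin_cut (t : ℂ) (c : Cu) : Lin c (cut t c) := by
  obtain ⟨T, hT⟩ := exists_equiv_of_det !![1, 0, t; 0, 1, 0; 0, 0, 1] (by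
    rw [Matrix.det_fin_three]
    simp)
  refine ⟨T, fun x => ?_⟩
  have h0 : T x 0 = x 0 + t * x 2 := by
    rw [hT]
    simp [Matrix.mulVec, dotProduct, Fin.sum_univ_three]
  have h1 : T x 1 = x 1 := by
    rw [hT]
    simp [Matrix.mulVec, dotProduct, Fin.sum_univ_three]
  have h2 : T x 2 = x 2 := by
    rw [hT]
    simp [Matrix.mulVec, dotProduct, Fin.sum_univ_three]
  rw [ev_cut, h0, h1, h2]

/-- the plane section is a sum of two cubes -/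
def Diag (c : Cu) : Prop := ∃ c', Lin c c' ∧ c'.y3 ≠ 0 ∧ c'.y2z = 0 ∧ c'.yz2 = 0 ∧ c'.z3 ≠ 0

theorem Diag.of_lin {c c' : Cu} (h : Lin c c') (h' : Diag c') : Diag c := by
  obtain ⟨c'', h1, h2⟩ := h'
  exact ⟨c'', h.trans h1, h2⟩

theorem diag_of_disc (c : Cu) (h : c.disc ≠ 0) : Diag c := by
  obtain ⟨p, q, r, s, hd, h1⟩ := exists_diag c h
  exact ⟨_, (sub_actG c hd).lin, h1⟩

open Polynomial in
theorem exists_sextic_ne {a b c d e f : ℂ}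
    (h : a ≠ 0 ∨ b ≠ 0 ∨ c ≠ 0 ∨ d ≠ 0 ∨ e ≠ 0 ∨ f ≠ 0) :
    ∃ t, a * t ^ 6 + b * t ^ 5 + c * t ^ 4 + d * t ^ 3 + e * t ^ 2 + f * t ≠ 0 := by
  by_contra h1
  push Not at h1
  have h0 : (C a * X ^ 6 + C b * X ^ 5 + C c * X ^ 4 + C d * X ^ 3 + C e * X ^ 2 + C f * X :
      ℂ[X]) = 0 := Polynomial.funext fun t => by simpa using h1 t
  have k6 := congrArg (fun p => coeff p 6) h0
  have k5 := congrArg (fun p => coeff p 5) h0
  have k4 := congrArg (fun p => coeff p 4) h0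
  have k3 := congrArg (fun p => coeff p 3) h0
  have k2 := congrArg (fun p => coeff p 2) h0
  have k1 := congrArg (fun p => coeff p 1) h0
  simp at k1 k2 k3 k4 k5 k6
  tauto

theorem diag_E (c : Cu) (h1 : c.y3 = 0) (h2 : c.y2z ≠ 0) (h3 : c.yz2 = 0) (h4 : c.z3 = 0)
    (h5 : c.xy2 = 0) (h6 : c.xyz = 0) : Diag c ∨ Shape c := by
  by_cases h7 : c.xz2 = 0 ∧ c.x2z = 0
  · exact Or.inr (Or.inl ⟨h7.2, h5, h6, h7.1, h1, h3, h4⟩)
  left
  obtain ⟨t, ht⟩ := exists_sextic_ne (a := 0) (b := 0) (c := c.x2y ^ 2)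
    (d := -4 * c.y2z * c.x3) (e := -4 * c.y2z * c.x2z) (f := -4 * c.y2z * c.xz2) (by
      by_cases h8 : c.xz2 = 0
      · have h9 : c.x2z ≠ 0 := fun h => h7 ⟨h8, h⟩
        exact Or.inr (Or.inr (Or.inr (Or.inr (Or.inl
          (mul_ne_zero (mul_ne_zero (by norm_num) h2) h9)))))
      · exact Or.inr (Or.inr (Or.inr (Or.inr (Or.inr
          (mul_ne_zero (mul_ne_zero (by norm_num) h2) h8))))))
  refine (diag_of_disc (cut t c) ?_).of_lin (lin_cut t c)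
  have h8 : (cut t c).disc = c.y2z ^ 2 * (0 * t ^ 6 + 0 * t ^ 5 + c.x2y ^ 2 * t ^ 4 +
      -4 * c.y2z * c.x3 * t ^ 3 + -4 * c.y2z * c.x2z * t ^ 2 + -4 * c.y2z * c.xz2 * t) := by
    simp only [disc, cut, h1, h3, h4, h5, h6]
    ring
  rw [h8]
  exact mul_ne_zero (pow_ne_zero _ h2) ht

theorem diag_T (c : Cu) (h1 : c.y3 ≠ 0) (h2 : c.y2z = 0) (h3 : c.yz2 = 0) (h4 : c.z3 = 0)
    (h5 : c.xy2 = 0) : Diag c ∨ Shape c := by
  by_cases h7 : c.xyz = 0 ∧ c.xz2 = 0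
  · exact Or.inr (Or.inr (Or.inl ⟨h5, h7.1, h7.2, h2, h3, h4⟩))
  left
  obtain ⟨t, ht⟩ := exists_sextic_ne (a := -4 * c.y3 * c.x2y ^ 3 - 27 * c.y3 ^ 2 * c.x3 ^ 2)
    (b := -12 * c.y3 * c.xyz * c.x2y ^ 2 - 54 * c.y3 ^ 2 * c.x2z * c.x3)
    (c := -12 * c.y3 * c.xyz ^ 2 * c.x2y - 27 * c.y3 ^ 2 * (c.x2z ^ 2 + 2 * c.xz2 * c.x3))
    (d := -4 * c.y3 * c.xyz ^ 3 - 54 * c.y3 ^ 2 * c.xz2 * c.x2z)
    (e := -27 * c.y3 ^ 2 * c.xz2 ^ 2) (f := 0) (by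
      by_cases h8 : c.xz2 = 0
      · have h9 : c.xyz ≠ 0 := fun h => h7 ⟨h, h8⟩
        refine Or.inr (Or.inr (Or.inr (Or.inl ?_)))
        rw [h8]
        have : -4 * c.y3 * c.xyz ^ 3 - 54 * c.y3 ^ 2 * 0 * c.x2z =
          -4 * c.y3 * c.xyz ^ 3 := by ring
        rw [this]
        exact mul_ne_zero (mul_ne_zero (by norm_num) h1) (pow_ne_zero _ h9)
      · exact Or.inr (Or.inr (Or.inr (Or.inr (Or.inl
          (mul_ne_zero (mul_ne_zero (by norm_num) (pow_ne_zero _ h1)) (pow_ne_zero _ h8)))))))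
  refine (diag_of_disc (cut t c) ?_).of_lin (lin_cut t c)
  convert ht using 1
  simp only [disc, cut, h2, h3, h4, h5]
  ring

/-- **Plane sections.** A cubic form is exceptional or some plane section is a sum of two cubes. -/
theorem diag_or_bad (c : Cu) (hc : c.y3 ≠ 0) : Diag c ∨ Bad c := by
  obtain ⟨p, q, r, s, hd, h⟩ := exists_nf c
  have hs := sub_actG c hd
  set c1 := actG p q r s c with hc1
  have wrap : Diag c1 ∨ Bad c1 → Diag c ∨ Bad c := fun h =>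
    h.imp (Diag.of_lin hs.lin) (Bad.of_sub hs)
  apply wrap
  rcases h with ⟨h1, h2, h3, h4⟩ | ⟨h1, h2, h3, h4⟩ | ⟨h1, h2, h3, h4⟩ | ⟨h1, h2, h3, h4⟩
  · exact Or.inl ⟨c1, (Sub.refl c1).lin, h1, h2, h3, h4⟩
  · obtain ⟨Z, hZ⟩ : ∃ Z, c1.y2z * Z = -c1.xy2 := ⟨-c1.xy2 / c1.y2z, by field_simp⟩
    obtain ⟨Y, hY⟩ : ∃ Y, 2 * c1.y2z * Y = -c1.xyz := ⟨-c1.xyz / (2 * c1.y2z), by field_simp⟩
    have hs2 := sub_actT c1 Y Z
    have h5 := diag_E (actT Y Z c1) (by simpa [actT] using h1) (by simpa [actT] using h2)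
      (by simpa [actT] using h3) (by simpa [actT] using h4)
      (by simp only [actT]; rw [h1]; linear_combination hZ)
      (by simp only [actT]; rw [h3]; linear_combination hY)
    rcases h5 with h5 | h5
    · exact Or.inl (h5.of_lin hs2.lin)
    · exact Or.inr ⟨_, hs2, h5⟩
  · obtain ⟨Y, hY⟩ : ∃ Y, 3 * c1.y3 * Y = -c1.xy2 := ⟨-c1.xy2 / (3 * c1.y3), by field_simp⟩
    have hs2 := sub_actT c1 Y 0
    have h5 := diag_T (actT Y 0 c1) (by simpa [actT] using h1) (by simpa [actT] using h2)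
      (by simpa [actT] using h3) (by simpa [actT] using h4)
      (by simp only [actT]; linear_combination hY)
    rcases h5 with h5 | h5
    · exact Or.inl (h5.of_lin hs2.lin)
    · exact Or.inr ⟨_, hs2, h5⟩
  · exfalso
    apply hc
    have h5 : (actG s (-q) (-r) p c1).y3 = (p * s - q * r) ^ 3 * c.y3 := by
      rw [hc1]
      simp only [actG]
      ring
    have h6 : (actG s (-q) (-r) p c1).y3 = 0 := by
      simp only [actG, h1, h2, h3, h4]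
      ring
    rw [h6] at h5
    exact (mul_eq_zero.1 h5.symm).resolve_left (pow_ne_zero _ hd)

end Cu

end Vale.Agent.P298.H790
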