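import Vale.Agent.P298.H790.Blow3

/-!
# P298, block LC (helper790): the 2-jet of a family, quadratic forms of rank one
-/

namespace Vale.Agent.P298.H790

open Filter Topology Metric Vale.Agent.P298 Vale.Agent.P298.H766 Module

/-- partial derivatives of `∑ xᵢ gᵢ` -/
theorem pd_sum_coord {n : ℕ} {g : Fin n → (Fin n → ℂ) → ℂ} (hg : ∀ i, Hol (g i))
    {f : (Fin n → ℂ) → ℂ} (hf : ∀ᶠ x in 𝓝 (0 : Fin n → ℂ), f x = ∑ i, x i * g i x) (b : Fin n) :
    ∀ᶠ x in 𝓝 (0 : Fin n → ℂ), pd b f x = g b x + ∑ i, x i * pd b (g i) x := by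
  have hga : ∀ᶠ x in 𝓝 (0 : Fin n → ℂ), ∀ i, AnalyticAt ℂ (g i) x :=
    eventually_all.2 fun i => AnalyticAt.eventually_analyticAt (hg i)
  filter_upwards [hga, hf.eventually_nhds] with x hx hfx
  have h1 : fderiv ℂ f x = fderiv ℂ (fun x => ∑ i, x i * g i x) x :=
    Filter.EventuallyEq.fderiv_eq hfx
  have h2 : ∀ i, HasFDerivAt (fun y : Fin n → ℂ => y i * g i y)
      (x i • fderiv ℂ (g i) x +
        g i x • (ContinuousLinearMap.proj (R := ℂ) (φ := fun _ : Fin n => ℂ) i)) x := by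
    intro i
    exact (ContinuousLinearMap.proj (R := ℂ) (φ := fun _ : Fin n => ℂ) i).hasFDerivAt.mul
      (hx i).differentiableAt.hasFDerivAt
  have h3 : HasFDerivAt (fun y : Fin n → ℂ => ∑ i, y i * g i y)
      (∑ i, (x i • fderiv ℂ (g i) x +
        g i x • (ContinuousLinearMap.proj (R := ℂ) (φ := fun _ : Fin n => ℂ) i))) x :=
    HasFDerivAt.fun_sum fun i _ => h2 i
  unfold pd
  rw [h1, h3.fderiv]
  simp only [_root_.sum_apply, _root_.add_apply, _root_.smul_apply,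
    ContinuousLinearMap.proj_apply, smul_eq_mul, Finset.sum_add_distrib]
  rw [add_comm]
  congr 1
  rw [Finset.sum_eq_single b]
  · simp
  · intro i _ hi
    rw [Pi.single_eq_of_ne hi, mul_zero]
  · intro h
    exact absurd (Finset.mem_univ b) h

theorem pd_sum_coord_zero {n : ℕ} {g : Fin n → (Fin n → ℂ) → ℂ} (hg : ∀ i, Hol (g i))
    {f : (Fin n → ℂ) → ℂ} (hf : ∀ᶠ x in 𝓝 (0 : Fin n → ℂ), f x = ∑ i, x i * g i x) (b : Fin n) :
    pd b f 0 = g b 0 := by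
  have := (pd_sum_coord hg hf b).self_of_nhds
  simpa using this

/-- second derivatives at the origin -/
theorem pd_pd_zero {n : ℕ} {g : Fin n → (Fin n → ℂ) → ℂ} (hg : ∀ i, Hol (g i))
    {h : Fin n → Fin n → (Fin n → ℂ) → ℂ} (hh : ∀ i j, Hol (h i j))
    {f : (Fin n → ℂ) → ℂ} (hf : ∀ᶠ x in 𝓝 (0 : Fin n → ℂ), f x = ∑ i, x i * g i x)
    (hgh : ∀ i, ∀ᶠ x in 𝓝 (0 : Fin n → ℂ), g i x = ∑ j, x j * h i j x) (a b : Fin n) :
    pd a (pd b f) 0 = h b a 0 + h a b 0 := by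
  have h1 := pd_sum_coord hg hf b
  have h2 : pd a (pd b f) 0 =
      pd a (fun x => g b x + ∑ i, x i * pd b (g i) x) 0 := by
    unfold pd
    rw [Filter.EventuallyEq.fderiv_eq (f₁ := fun x => fderiv ℂ f x (Pi.single b 1)) h1]
    rfl
  have hpd : ∀ i, Hol (pd b (g i)) := fun i => hol_pd (hg i) b
  have h3 : pd a (fun x => g b x + ∑ i, x i * pd b (g i) x) 0 =
      pd a (g b) 0 + pd a (fun x => ∑ i, x i * pd b (g i) x) 0 := by
    change fderiv ℂ (fun x => g b x + ∑ i, x i * pd b (g i) x) 0 (Pi.single a 1) =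
      fderiv ℂ (g b) 0 (Pi.single a 1) +
        fderiv ℂ (fun x => ∑ i, x i * pd b (g i) x) 0 (Pi.single a 1)
    have hd2 : DifferentiableAt ℂ (fun x : Fin n → ℂ => ∑ i, x i * pd b (g i) x) 0 := by
      have : AnalyticAt ℂ (fun x : Fin n → ℂ => ∑ i, x i * pd b (g i) x) 0 :=
        Finset.analyticAt_fun_sum _ fun i _ => (analyticAt_coord i 0).mul (hpd i)
      exact this.differentiableAt
    rw [fderiv_fun_add (hg b).differentiableAt hd2]
    rfl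
  rw [h2, h3, pd_sum_coord_zero (hh b) (hgh b) a,
    pd_sum_coord_zero hpd (Filter.Eventually.of_forall fun x => rfl) a,
    pd_sum_coord_zero (hh a) (hgh a) b]

/-- slices of analytic functions -/
theorem slice_hol {n : ℕ} {φ : (Fin n → ℂ) × ℂ → ℂ} {t : ℂ} (h : AnalyticAt ℂ φ (0, t)) :
    Hol (fun x => φ (x, t)) := by
  have h3 : AnalyticAt ℂ (fun x : Fin n → ℂ => (x, t)) 0 :=
    analyticAt_id.prod analyticAt_const
  exact AnalyticAt.fun_comp (g := φ) (f := fun x : Fin n → ℂ => (x, t)) h h3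

theorem slice_ev {n : ℕ} {p : (Fin n → ℂ) × ℂ → Prop}
    (h : ∀ᶠ q in 𝓝 ((0 : Fin n → ℂ), (0 : ℂ)), p q) :
    ∀ᶠ t in 𝓝 (0 : ℂ), ∀ᶠ x in 𝓝 (0 : Fin n → ℂ), p (x, t) := by
  have h1 : Tendsto (fun t : ℂ => ((0 : Fin n → ℂ), t)) (𝓝 0) (𝓝 (0, 0)) :=
    Continuous.tendsto (by fun_prop) 0
  filter_upwards [h1.eventually h.eventually_nhds] with t ht
  have h2 : Tendsto (fun x : Fin n → ℂ => (x, t)) (𝓝 0) (𝓝 (0, t)) :=
    Continuous.tendsto (by fun_prop) 0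
  exact h2.eventually ht

variable {F : (Fin 3 → ℂ) → ℂ → ℂ}

/-- Taylor expansion of a family with zero 1-jets. -/
theorem taylor3 (hF : AnalyticAt ℂ (fun p : (Fin 3 → ℂ) × ℂ => F p.1 p.2) (0, 0))
    (h0 : ∀ᶠ t in 𝓝 (0 : ℂ), F 0 t = 0)
    (h1 : ∀ᶠ t in 𝓝 (0 : ℂ), ∀ i, pd i (fun x => F x t) 0 = 0) :
    ∃ ψ : Fin 3 → Fin 3 → Fin 3 → ((Fin 3 → ℂ) × ℂ → ℂ),
      (∀ i j k, AnalyticAt ℂ (ψ i j k) (0, 0)) ∧
      (∀ᶠ t in 𝓝 (0 : ℂ), ∀ i j, pd i (pd j fun x => F x t) 0 = pd j (pd i fun x => F x t) 0) ∧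
      ∀ᶠ p in 𝓝 ((0 : Fin 3 → ℂ), (0 : ℂ)), F p.1 p.2 =
        ∑ i, ∑ j, p.1 i * p.1 j * (1 / 2 * pd i (pd j fun x => F x p.2) 0) +
        ∑ i, ∑ j, ∑ k, p.1 i * p.1 j * p.1 k * ψ i j k p := by
  obtain ⟨φ, hφ, e1⟩ := exists_hadamard (0 : ℂ) hF
  choose χ hχ e2 using fun i => exists_hadamard (0 : ℂ) (hφ i)
  choose ψ hψ e3 using fun i j => exists_hadamard (0 : ℂ) (hχ i j)
  -- the coefficients
  have hφa : ∀ᶠ t in 𝓝 (0 : ℂ), ∀ i, AnalyticAt ℂ (φ i) ((0 : Fin 3 → ℂ), t) := by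
    rw [eventually_all]
    intro i
    have h2 : Tendsto (fun t : ℂ => ((0 : Fin 3 → ℂ), t)) (𝓝 0) (𝓝 (0, 0)) :=
      Continuous.tendsto (by fun_prop) 0
    exact h2.eventually (hφ i).eventually_analyticAt
  have hχa : ∀ᶠ t in 𝓝 (0 : ℂ), ∀ i j, AnalyticAt ℂ (χ i j) ((0 : Fin 3 → ℂ), t) := by
    rw [eventually_all]
    intro i
    rw [eventually_all]
    intro j
    have h2 : Tendsto (fun t : ℂ => ((0 : Fin 3 → ℂ), t)) (𝓝 0) (𝓝 (0, 0)) :=
      Continuous.tendsto (by fun_prop) 0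
    exact h2.eventually (hχ i j).eventually_analyticAt
  have c1 : ∀ᶠ t in 𝓝 (0 : ℂ), ∀ i, φ i (0, t) = 0 := by
    filter_upwards [hφa, slice_ev e1, h0, h1] with t k1 k2 k3 k4 i
    have := pd_sum_coord_zero (g := fun i x => φ i (x, t)) (f := fun x => F x t)
      (fun i => slice_hol (k1 i)) (by
        filter_upwards [k2] with x hx
        rw [hx, k3, zero_add]) i
    rw [← this, k4]
  have c2 : ∀ᶠ t in 𝓝 (0 : ℂ), ∀ i j, pd i (pd j fun x => F x t) 0 =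
      χ j i (0, t) + χ i j (0, t) := by
    filter_upwards [hφa, hχa, slice_ev e1, h0, c1, slice_ev (eventually_all.2 e2)]
      with t k1 k2 k3 k4 k5 k6 i j
    refine pd_pd_zero (g := fun i x => φ i (x, t)) (h := fun i j x => χ i j (x, t))
      (fun i => slice_hol (k1 i)) (fun i j => slice_hol (k2 i j)) ?_ (fun i => ?_) i j
    · filter_upwards [k3] with x hx
      rw [hx, k4, zero_add]
    · filter_upwards [k6] with x hx
      rw [hx i, k5 i, zero_add]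
  refine ⟨ψ, hψ, ?_, ?_⟩
  · filter_upwards [c2] with t ht i j
    rw [ht, ht, add_comm]
  have hsnd : Tendsto (fun p : (Fin 3 → ℂ) × ℂ => p.2) (𝓝 (0, 0)) (𝓝 0) :=
    continuous_snd.tendsto ((0 : Fin 3 → ℂ), (0 : ℂ))
  filter_upwards [e1, eventually_all.2 e2, eventually_all.2 fun i => eventually_all.2 (e3 i),
    hsnd.eventually h0, hsnd.eventually c1, hsnd.eventually c2] with p k1 k2 k3 k4 k5 k6
  have h4 : ∀ i, φ i p = ∑ j, p.1 j * (χ i j (0, p.2) + ∑ k, p.1 k * ψ i j k p) := by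
    intro i
    rw [k2 i, k5 i, zero_add]
    refine Finset.sum_congr rfl fun j _ => ?_
    rw [k3 i j]
  have h5 : F p.1 p.2 = ∑ i, p.1 i * ∑ j, p.1 j * (χ i j (0, p.2) + ∑ k, p.1 k * ψ i j k p) := by
    rw [k1, k4, zero_add]
    refine Finset.sum_congr rfl fun i _ => ?_
    rw [h4 i]
  rw [h5]
  simp only [k6, Fin.sum_univ_three]
  ring

end Vale.Agent.P298.H790
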