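import Vale.Agent.P298.H790.Jet1
import Vale.Agent.P298.H790.Cub3

/-!
# P298, block LC (helper790): families of quadratic forms of rank one, cubic forms
-/

namespace Vale.Agent.P298.H790

open Filter Topology Metric Vale.Agent.P298 Vale.Agent.P298.H766 Module

/-- An analytic family of symmetric matrices of rank at most one is `m(t) c(t) c(t)ᵀ`. -/
theorem rank_one {M : Fin 3 → Fin 3 → ℂ → ℂ} (hM : ∀ i j, AnalyticAt ℂ (M i j) 0)
    (hsym : ∀ᶠ t in 𝓝 (0 : ℂ), ∀ i j, M i j t = M j i t) (h0 : ∀ i j, M i j 0 = 0)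
    (hr : ∀ᶠ t in 𝓝 (0 : ℂ), ∀ i j k l, M i j t * M k l t = M i l t * M k j t)
    (hne : ¬ ∀ᶠ t in 𝓝 (0 : ℂ), ∀ i j, M i j t = 0) :
    ∃ (a : Fin 3) (c : Fin 3 → ℂ → ℂ), (∀ i, AnalyticAt ℂ (c i) 0) ∧ (∀ t, c a t = 1) ∧
      (¬ ∀ᶠ t in 𝓝 (0 : ℂ), M a a t = 0) ∧
      ∀ᶠ t in 𝓝 (0 : ℂ), ∀ i j, M i j t = M a a t * c i t * c j t := by
  obtain ⟨a, -, ha⟩ := Finset.exists_min_image (Finset.univ : Finset (Fin 3))
    (fun j => analyticOrderAt (M j j) 0) Finset.univ_nonempty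
  have hmin : ∀ j, analyticOrderAt (M a a) 0 ≤ analyticOrderAt (M j j) 0 := fun j =>
    ha j (Finset.mem_univ j)
  have hne' : ¬ ∀ᶠ t in 𝓝 (0 : ℂ), M a a t = 0 := by
    intro h
    apply hne
    rw [← analyticOrderAt_eq_top] at h
    have h1 : ∀ j, ∀ᶠ t in 𝓝 (0 : ℂ), M j j t = 0 := by
      intro j
      rw [← analyticOrderAt_eq_top]
      exact top_le_iff.1 (h ▸ hmin j)
    filter_upwards [eventually_all.2 h1, hsym, hr] with t k1 k2 k3 i j
    have h2 : M i j t * M i j t = 0 := by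
      have := k3 i j j i
      rw [k1 i, zero_mul, ← k2 i j] at this
      exact this
    exact mul_self_eq_zero.1 h2
  have htop : analyticOrderAt (M a a) 0 ≠ ⊤ := by
    rwa [Ne, analyticOrderAt_eq_top]
  obtain ⟨n, hn⟩ := ENat.ne_top_iff_exists.1 htop
  obtain ⟨u, hu, hu0, hau⟩ := ((hM a a).analyticOrderAt_eq_natCast).1 hn.symm
  have hle : ∀ j, (n : ℕ∞) ≤ analyticOrderAt (M a j) 0 := by
    intro j
    have h1 : analyticOrderAt (M a j * M a j) 0 = analyticOrderAt (M a a * M j j) 0 := by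
      refine analyticOrderAt_congr ?_
      filter_upwards [hsym, hr] with t k1 k2
      rw [Pi.mul_apply, Pi.mul_apply]
      have := k2 a j j a
      rw [← k1 a j] at this
      exact this
    rw [analyticOrderAt_mul (hM a j) (hM a j), analyticOrderAt_mul (hM a a) (hM j j)] at h1
    by_contra hlt
    push Not at hlt
    have h2 : analyticOrderAt (M a j) 0 + analyticOrderAt (M a j) 0 < n + n := by
      have h3 : analyticOrderAt (M a j) 0 ≠ ⊤ := ne_top_of_lt hlt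
      obtain ⟨m, hm⟩ := ENat.ne_top_iff_exists.1 h3
      rw [← hm] at hlt ⊢
      have h4 : m < n := by exact_mod_cast hlt
      exact_mod_cast (by omega : m + m < n + n)
    rw [h1] at h2
    have h5 : (n : ℕ∞) + n ≤ analyticOrderAt (M a a) 0 + analyticOrderAt (M j j) 0 :=
      add_le_add hn.le (hn.le.trans (hmin j))
    exact absurd h2 (not_lt.2 h5)
  choose g hg hgx using fun j => (natCast_le_analyticOrderAt (hM a j)).1 (hle j)
  have hu1 : ∀ᶠ t in 𝓝 (0 : ℂ), u t ≠ 0 := hu.continuousAt.eventually_ne hu0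
  refine ⟨a, fun j t => if j = a then 1 else g j t / u t, fun j => ?_, fun t => by simp, hne', ?_⟩
  · by_cases hj : j = a
    · simp only [hj, if_true]
      exact analyticAt_const
    · simp only [hj, if_false]
      exact (hg j).div hu hu0
  · have hrow : ∀ᶠ t in 𝓝 (0 : ℂ), ∀ j, M a j t = M a a t * if j = a then 1 else g j t / u t := by
      filter_upwards [hu1, hau, eventually_all.2 hgx] with t k1 k2 k3 j
      by_cases hj : j = a
      · simp [hj]
      · rw [if_neg hj, k2, k3 j, smul_eq_mul, smul_eq_mul]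
        field_simp
    filter_upwards [hrow, hr, hsym, hau, hu1] with t k1 k2 k3 k4 k5 i j
    by_cases ht : t = 0
    · subst ht
      rw [h0 i j, h0 a a]
      ring
    · have hMaa : M a a t ≠ 0 := by
        rw [k4, sub_zero, smul_eq_mul]
        exact mul_ne_zero (pow_ne_zero _ ht) k5
      apply mul_right_cancel₀ hMaa
      have h1 := k2 i j a a
      rw [h1, k3 i a, k1 i, k1 j]
      ring

/-! ### Cubic forms -/

/-- functions given by cubic forms -/
def IsCu (G : (Fin 3 → ℂ) → ℂ) : Prop := ∃ c : Cu, ∀ x, G x = c.ev (x 0) (x 1) (x 2)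

theorem IsCu.add {G G' : (Fin 3 → ℂ) → ℂ} (h : IsCu G) (h' : IsCu G') :
    IsCu (fun x => G x + G' x) := by
  obtain ⟨c, h⟩ := h
  obtain ⟨c', h'⟩ := h'
  refine ⟨⟨c.x3 + c'.x3, c.x2y + c'.x2y, c.x2z + c'.x2z, c.xy2 + c'.xy2, c.xyz + c'.xyz,
    c.xz2 + c'.xz2, c.y3 + c'.y3, c.y2z + c'.y2z, c.yz2 + c'.yz2, c.z3 + c'.z3⟩, fun x => ?_⟩
  change G x + G' x = _
  rw [h, h']
  simp only [Cu.ev]
  ring

theorem IsCu.zero : IsCu (fun _ => 0) :=
  ⟨⟨0, 0, 0, 0, 0, 0, 0, 0, 0, 0⟩, fun x => by simp only [Cu.ev]; ring⟩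

theorem IsCu.sum {ι : Type*} (s : Finset ι) {G : ι → (Fin 3 → ℂ) → ℂ} (h : ∀ i, IsCu (G i)) :
    IsCu (fun x => ∑ i ∈ s, G i x) := by
  classical
  induction s using Finset.induction_on with
  | empty => simpa using IsCu.zero
  | insert a s ha ih =>
    simp only [Finset.sum_insert ha]
    exact (h a).add ih

theorem IsCu.prod (a b c : Fin 3 → ℂ) (k : ℂ) : IsCu (fun x =>
    (∑ i, a i * x i) * (∑ i, b i * x i) * (∑ i, c i * x i) * k) := by
  refine ⟨⟨a 0 * b 0 * c 0 * k,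
    (a 0 * b 0 * c 1 + a 0 * b 1 * c 0 + a 1 * b 0 * c 0) * k,
    (a 0 * b 0 * c 2 + a 0 * b 2 * c 0 + a 2 * b 0 * c 0) * k,
    (a 0 * b 1 * c 1 + a 1 * b 0 * c 1 + a 1 * b 1 * c 0) * k,
    (a 0 * b 1 * c 2 + a 0 * b 2 * c 1 + a 1 * b 0 * c 2 + a 1 * b 2 * c 0 + a 2 * b 0 * c 1 +
      a 2 * b 1 * c 0) * k,
    (a 0 * b 2 * c 2 + a 2 * b 0 * c 2 + a 2 * b 2 * c 0) * k,
    a 1 * b 1 * c 1 * k,
    (a 1 * b 1 * c 2 + a 1 * b 2 * c 1 + a 2 * b 1 * c 1) * k,
    (a 1 * b 2 * c 2 + a 2 * b 1 * c 2 + a 2 * b 2 * c 1) * k,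
    a 2 * b 2 * c 2 * k⟩, fun x => ?_⟩
  simp only [Cu.ev, Fin.sum_univ_three]
  ring

/-- the cubic form of a tensor -/
def P3 (τ : Fin 3 → Fin 3 → Fin 3 → ℂ) (x : Fin 3 → ℂ) : ℂ :=
  ∑ i, ∑ j, ∑ k, x i * x j * x k * τ i j k

theorem isCu_comp (τ : Fin 3 → Fin 3 → Fin 3 → ℂ) (T : (Fin 3 → ℂ) →L[ℂ] (Fin 3 → ℂ)) :
    IsCu (fun x => P3 τ (T x)) := by
  have h : ∀ x i, T x i = ∑ j, T (Pi.single j 1) i * x j := by
    intro x i
    conv_lhs => rw [sum_single x]
    rw [map_sum, Finset.sum_apply]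
    refine Finset.sum_congr rfl fun j _ => ?_
    rw [map_smul, Pi.smul_apply, smul_eq_mul, mul_comm]
  unfold P3
  refine IsCu.sum _ fun i => IsCu.sum _ fun j => IsCu.sum _ fun k => ?_
  have := IsCu.prod (fun l => T (Pi.single l 1) i) (fun l => T (Pi.single l 1) j)
    (fun l => T (Pi.single l 1) k) (τ i j k)
  obtain ⟨c, hc⟩ := this
  refine ⟨c, fun x => ?_⟩
  rw [← hc]
  change T x i * T x j * T x k * τ i j k = _
  rw [h x i, h x j, h x k]

/-- coordinates in which a given linear form is the first coordinate -/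
theorem exists_adapted (ℓ : Fin 3 → ℂ) {a : Fin 3} (ha : ℓ a = 1) :
    ∃ T : (Fin 3 → ℂ) ≃L[ℂ] (Fin 3 → ℂ), ∀ x, ∑ i, ℓ i * T x i = x 0 := by
  let S : (Fin 3 → ℂ) →ₗ[ℂ] (Fin 3 → ℂ) := LinearMap.pi fun i =>
    if i = 0 then ∑ j, ℓ j • LinearMap.proj j else LinearMap.proj (Equiv.swap 0 a i)
  have hS0 : ∀ x, S x 0 = ∑ i, ℓ i * x i := by
    intro x
    simp [S]
  have hSi : ∀ x i, i ≠ 0 → S x i = x (Equiv.swap 0 a i) := by
    intro x i hi
    simp [S, hi]
  have hinj : Function.Injective S := by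
    rw [← LinearMap.ker_eq_bot, LinearMap.ker_eq_bot']
    intro x hx
    have h1 : ∀ j, j ≠ a → x j = 0 := by
      intro j hj
      have h2 : Equiv.swap 0 a j ≠ 0 := by
        intro h3
        apply hj
        have h4 := congrArg (Equiv.swap 0 a) h3
        rwa [Equiv.swap_apply_self, Equiv.swap_apply_left] at h4
      have h3 := hSi x _ h2
      rw [Equiv.swap_apply_self, hx] at h3
      exact h3.symm
    have h2 : x a = 0 := by
      have h3 := hS0 x
      rw [hx, Finset.sum_eq_single a (fun i _ hi => by rw [h1 i hi, mul_zero])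
        (fun h => absurd (Finset.mem_univ a) h), ha, one_mul] at h3
      exact h3.symm
    funext j
    by_cases hj : j = a
    · rw [hj, h2]
      rfl
    · rw [h1 j hj]
      rfl
  let e := LinearEquiv.ofInjectiveEndo S hinj
  refine ⟨e.symm.toContinuousLinearEquiv, fun x => ?_⟩
  have h1 : S (e.symm x) = x := e.apply_symm_apply x
  have h2 := hS0 (e.symm x)
  rw [h1] at h2
  exact h2.symm

end Vale.Agent.P298.H790
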