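import Vale.Agent.P298.H790.Step5
import Vale.Agent.P298.H740.End
import Vale.Agent.P298.H995.W6
import Vale.Agent.P298.H365.LcAn7

/-!
# P298, block LC (helper790): the output `LCStmt`

Log canonical germs of corank three: the family is trivial.
-/

namespace Vale.Agent.P298.H790

open Filter Topology Metric Set Vale.Agent.P298 Vale.Agent.P298.H766 Vale.Agent.P298.H967 Module
open Vale.Agent.P298.H379 (Q ev PFam InI KK pt)
open Vale.Agent.P298.H752 (GoodFam)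

/-- cubic growth of a germ whose 2-jet is zero -/
theorem growth3 {f : (Fin 3 → ℂ) → ℂ} (hf : Hol f) (f0 : f 0 = 0) (h1 : ∀ i, pd i f 0 = 0)
    (h2 : ∀ i j, pd i (pd j f) 0 = 0) :
    ∃ C : ℝ, ∀ᶠ l : ℝ in 𝓝[>] 0, ∀ y : Fin 3 → ℂ, ‖y‖ ≤ 1 →
      ‖f (ContinuousLinearEquiv.refl ℂ (Fin 3 → ℂ) fun i => (l : ℂ) ^ (1 : ℕ) * y i)‖ ≤
        C * l ^ 3 := by
  have hF : AnalyticAt ℂ (fun p : (Fin 3 → ℂ) × ℂ => (fun x (_ : ℂ) => f x) p.1 p.2) (0, 0) := by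
    have h3 : AnalyticAt ℂ f ((0 : Fin 3 → ℂ), (0 : ℂ)).1 := hf
    exact h3.comp analyticAt_fst
  obtain ⟨ψ, hψ, -, hT⟩ := taylor3 (F := fun x (_ : ℂ) => f x) hF
    (Eventually.of_forall fun _ => f0) (Eventually.of_forall fun _ => h1)
  have hc : Tendsto (fun x : Fin 3 → ℂ => (x, (0 : ℂ))) (𝓝 0) (𝓝 (0, 0)) :=
    Continuous.tendsto (by fun_prop) 0
  have hb : ∀ i j k, ∀ᶠ x in 𝓝 (0 : Fin 3 → ℂ), ‖ψ i j k (x, 0)‖ ≤ ‖ψ i j k (0, 0)‖ + 1 := by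
    intro i j k
    have h4 : Tendsto (fun x : Fin 3 → ℂ => ‖ψ i j k (x, 0)‖) (𝓝 0) (𝓝 ‖ψ i j k (0, 0)‖) :=
      ((hψ i j k).continuousAt.tendsto.comp hc).norm
    filter_upwards [h4.eventually_le_const (lt_add_one _)] with x hx using hx
  have hall : ∀ᶠ x in 𝓝 (0 : Fin 3 → ℂ),
      ‖f x‖ ≤ (∑ i, ∑ j, ∑ k, (‖ψ i j k (0, 0)‖ + 1)) * ‖x‖ ^ 3 := by
    filter_upwards [hc.eventually hT, eventually_all.2 fun i => eventually_all.2 fun j =>
      eventually_all.2 fun k => hb i j k] with x hx hbx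
    have e1 : f x = ∑ i, ∑ j, ∑ k, x i * x j * x k * ψ i j k (x, 0) := by
      have := hx
      simp only [h2, mul_zero, Finset.sum_const_zero, zero_add] at this
      exact this
    rw [e1]
    simp only [Finset.sum_mul]
    refine (norm_sum_le _ _).trans (Finset.sum_le_sum fun i _ => ?_)
    refine (norm_sum_le _ _).trans (Finset.sum_le_sum fun j _ => ?_)
    refine (norm_sum_le _ _).trans (Finset.sum_le_sum fun k _ => ?_)
    rw [norm_mul, norm_mul, norm_mul]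
    have n1 := norm_le_pi_norm x i
    have n2 := norm_le_pi_norm x j
    have n3 := norm_le_pi_norm x k
    have n4 := hbx i j k
    calc ‖x i‖ * ‖x j‖ * ‖x k‖ * ‖ψ i j k (x, 0)‖
        ≤ ‖x‖ * ‖x‖ * ‖x‖ * (‖ψ i j k (0, 0)‖ + 1) := by gcongr
      _ = (‖ψ i j k (0, 0)‖ + 1) * ‖x‖ ^ 3 := by ring
  obtain ⟨δ, hδ, hδ'⟩ := Metric.eventually_nhds_iff_ball.1 hall
  refine ⟨∑ i, ∑ j, ∑ k, (‖ψ i j k (0, 0)‖ + 1), ?_⟩
  filter_upwards [Ioo_mem_nhdsGT hδ] with l hl y hy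
  set v : Fin 3 → ℂ := fun i => (l : ℂ) ^ (1 : ℕ) * y i with hv
  have hvn : ‖v‖ ≤ l := by
    rw [pi_norm_le_iff_of_nonneg hl.1.le]
    intro i
    simp only [hv]
    rw [norm_mul, norm_pow, Complex.norm_real, Real.norm_of_nonneg hl.1.le, pow_one]
    calc l * ‖y i‖ ≤ l * 1 := by
          have := hl.1
          gcongr
          exact (norm_le_pi_norm y i).trans hy
      _ = l := mul_one _
  have h5 := hδ' v (by rw [mem_ball_zero_iff]; exact hvn.trans_lt hl.2)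
  change ‖f v‖ ≤ _
  refine h5.trans ?_
  gcongr

/-- a log canonical germ: the colengths are at most one -/
theorem finite_of_lc {f : (Fin 3 → ℂ) → ℂ} (h : Main.LC f) {N : ℝ} (hN : 0 < N) :
    Module.Finite ℂ (AnFun 3 ⧸ IK f N) := by
  refine ⟨⟨{1}, eq_top_iff.2 fun x _ => ?_⟩⟩
  obtain ⟨g, rfl⟩ := Ideal.Quotient.mk_surjective x
  obtain ⟨c, ψ, hc⟩ := hadamardA g
  have h1 : g - algebraMap ℂ (AnFun 3) c ∈ IK f N := by
    have h2 := nul_le_IK (f := f) hN hc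
    have h3 : ∑ i, coordF 3 i * ψ i ∈ IK f N := by
      refine sum_mem fun i _ => (IK f N).mul_mem_right _ ?_
      exact inI_mem_IK (h _ (coordF 3 i).2 rfl N hN)
    have := add_mem h2 h3
    have e : g - (algebraMap ℂ (AnFun 3) c + ∑ i, coordF 3 i * ψ i) +
        ∑ i, coordF 3 i * ψ i = g - algebraMap ℂ (AnFun 3) c := by ring
    rwa [e] at this
  rw [Finset.coe_singleton, Submodule.mem_span_singleton]
  refine ⟨c, ?_⟩
  have h4 : (Ideal.Quotient.mk (IK f N)) g = (Ideal.Quotient.mk (IK f N))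
      (algebraMap ℂ (AnFun 3) c) := (Ideal.Quotient.eq).2 h1
  rw [h4, Ideal.Quotient.mk_algebraMap, Algebra.algebraMap_eq_smul_one]

/-- **Block LC.** -/
theorem lcStmt (hRV : H740.RVNat) : Main.LCStmt := by
  intro μ L
  obtain ⟨d₁, h1⟩ := hRV μ L
  refine ⟨d₁, fun d hd ε P hG hc3 hLC => ⟨ε, ?_⟩⟩
  obtain ⟨ε₁, hε₁, hrv⟩ := h1 d hd ε P hG
  have h0ε : (0 : ℂ) ∈ ball (0 : ℂ) ε := mem_ball_self hG.pos
  by_cases hcrit : ∀ i, pd i (P.f 0) 0 = 0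
  swap
  · push Not at hcrit
    obtain ⟨i, hi⟩ := hcrit
    exact H845.cr1 hG.pos hG.hol i hi
  have hM : ∀ t ∈ ball (0 : ℂ) ε, Milnor (P.f t) μ := hG.milnor
  have hμ0 : μ ≠ 0 := H845.milnor_ne_zero (hM 0 h0ε) hcrit
  have hf : Hol (P.f 0) := H137.hol_slice (F := fun x t => P.f t x) (hG.hol 0 h0ε).1
  have f0 : P.f 0 0 = 0 := (hG.hol 0 h0ε).2
  have hreg : ¬ ∀ᶠ z in 𝓝 (0 : ℂ), P.f 0 (pt 0 z) = 0 := by
    have h2 := H740.frequently_z P
    intro h3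
    refine h2 ?_
    filter_upwards [h3] with z hz
    exact fun h4 => h4 hz
  -- the germ has no weighted growth
  have hbad : ¬ WBad (P.f 0) := by
    rintro ⟨T, w, D, hw, hD, hgr⟩
    obtain ⟨h, hh, hh0, K, hK, hn⟩ := H995.exists_not_inI hf f0 (hM 0 h0ε) hreg T hw hgr hD
    exact hn K le_rfl (hLC h hh hh0 K hK)
  -- the ranks of the Hessians are at most one
  refine lc hG.pos hG.hol hM hμ0 hc3 ?_ hbad
  have hn1 : ∀ᶠ t in 𝓝 (0 : ℂ), t ∈ ball (0 : ℂ) ε := isOpen_ball.mem_nhds h0ε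
  have hn2 : ∀ᶠ t in 𝓝 (0 : ℂ), t ∈ ball (0 : ℂ) ε₁ := isOpen_ball.mem_nhds (mem_ball_self hε₁)
  filter_upwards [hn1, hn2] with t ht ht1 i j k l
  by_contra hne
  have hft : Hol (P.f t) := H137.hol_slice (F := fun x t => P.f t x) (hG.hol t ht).1
  have hct : ∀ i, pd i (P.f t) 0 = 0 := fun i =>
    H137.pd_zero_of_milnor hft (hM t ht) hμ0 i
  have hI : ∀ κ : ℝ, 0 < κ → IK (P.f t) κ = ⊤ := by
    intro κ hκ
    have h2 : pd i (pd j (P.f t)) 0 * pd k (pd l (P.f t)) 0 -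
        pd i (pd l (P.f t)) 0 * pd k (pd j (P.f t)) 0 ≠ 0 := sub_ne_zero.2 hne
    exact (IK_ne_top_iff H373.areaI hft hκ).2 (H365.LcAn.inI_one hft hct (hM t ht) h2 κ)
  have hfin : ∀ N : ℝ, 0 < N → Module.Finite ℂ (AnFun 3 ⧸ IK (P.f t) N) := by
    intro N hN
    rw [hI N hN]
    have : Subsingleton (AnFun 3 ⧸ (⊤ : Ideal (AnFun 3))) :=
      Ideal.Quotient.subsingleton_iff.2 rfl
    refine ⟨⟨∅, eq_top_iff.2 fun x _ => ?_⟩⟩
    rw [Subsingleton.elim x 0]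
    exact zero_mem _
  have h3 := hrv t ht1 (fun N hN => finite_of_lc hLC hN) hfin 1 le_rfl
  rw [H137.finrank_top_zero (hI _ (by norm_num))] at h3
  have h4 : IK (P.f 0) ((1 : ℕ) : ℝ) = ⊤ := by
    have := finite_of_lc hLC (N := ((1 : ℕ) : ℝ)) (by norm_num)
    have h5 := finrank_zero_iff.1 (Nat.le_zero.1 h3)
    exact Ideal.Quotient.subsingleton_iff.1 h5
  rw [IK_ne_top_iff H373.areaI hf (by norm_num)] at h4
  exact H995.not_inI_one_of_milnor (w := fun _ => 1) hf f0 (hM 0 h0ε) hreg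
    (ContinuousLinearEquiv.refl ℂ _) (fun _ => one_pos) (growth3 hf f0 hcrit hc3) le_rfl _ h4

end Vale.Agent.P298.H790
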