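import Vale.Agent.P298.H790.Blow3
import Vale.Agent.P298.H766.Unc

/-!
# P298, block LC (helper790): plane curves with an ordinary triple point
-/

namespace Vale.Agent.P298.H790

open Filter Topology Metric Vale.Agent.P298 Vale.Agent.P298.H766 Module

/-- arcs and powers of the maximal ideal -/
theorem pow_dvd_arc {n : ℕ} (φ : MvPowerSeries (Fin n) ℂ →ₐ[ℂ] PowerSeries ℂ) {ν : ℕ}
    (h : ∀ i, (PowerSeries.X : PowerSeries ℂ) ^ ν ∣ φ (MvPowerSeries.X i)) (K : ℕ)
    {g : MvPowerSeries (Fin n) ℂ} (hg : g ∈ mR n ^ K) :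
    (PowerSeries.X : PowerSeries ℂ) ^ (ν * K) ∣ φ g := by
  have h1 : (mR n).map φ ≤ Ideal.span {PowerSeries.X ^ ν} := by
    rw [mR, Ideal.map_span, Ideal.span_le]
    rintro _ ⟨_, ⟨i, rfl⟩, rfl⟩
    rw [SetLike.mem_coe, Ideal.mem_span_singleton]
    exact h i
  have h2 : φ g ∈ (Ideal.span {PowerSeries.X ^ ν} : Ideal (PowerSeries ℂ)) ^ K := by
    refine Ideal.pow_right_mono h1 K ?_
    rw [← Ideal.map_pow]
    exact Ideal.mem_map_of_mem _ hg
  rwa [Ideal.span_singleton_pow, Ideal.mem_span_singleton, ← pow_mul] at h2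

/-- derivations lower the order by at most one -/
theorem pderiv_mem {n : ℕ} (i : Fin n) (K : ℕ) {g : MvPowerSeries (Fin n) ℂ}
    (hg : g ∈ mR n ^ (K + 1)) : MvPowerSeries.pderiv ℂ i g ∈ mR n ^ K := by
  induction K generalizing g with
  | zero => simp
  | succ K ih =>
    rw [pow_succ] at hg
    refine Submodule.mul_induction_on hg ?_ ?_
    · intro a ha b hb
      rw [Derivation.leibniz, smul_eq_mul, smul_eq_mul]
      refine add_mem (Ideal.mul_mem_right _ _ ha) ?_
      rw [pow_succ, mul_comm b]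
      exact Ideal.mul_mem_mul (ih ha) hb
    · intro x y hx hy
      rw [map_add]
      exact add_mem hx hy

/-- modulo the first coordinate -/
theorem exists_mod_X0 (K : ℕ) {g : MvPowerSeries (Fin 2) ℂ} (hg : g ∈ mR 2 ^ K) :
    ∃ a b : MvPowerSeries (Fin 2) ℂ, g = MvPowerSeries.X 0 * a + MvPowerSeries.X 1 ^ K * b := by
  induction K generalizing g with
  | zero => exact ⟨0, g, by ring⟩
  | succ K ih =>
    rw [pow_succ] at hg
    refine Submodule.mul_induction_on hg ?_ ?_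
    · intro g1 hg1 g2 hg2
      obtain ⟨a, b, rfl⟩ := ih hg1
      rw [mR, Ideal.mem_span_range_iff_exists_fun] at hg2
      obtain ⟨c, rfl⟩ := hg2
      rw [Fin.sum_univ_two]
      refine ⟨a * (c 0 * MvPowerSeries.X 0 + c 1 * MvPowerSeries.X 1) +
        MvPowerSeries.X 1 ^ K * b * c 0, b * c 1, ?_⟩
      ring
    · rintro x y ⟨a, b, rfl⟩ ⟨a', b', rfl⟩
      exact ⟨a + a', b + b', by ring⟩

/-- the cubic part of a plane curve -/
noncomputable def cf (a0 a1 a2 a3 : ℂ) : MvPowerSeries (Fin 2) ℂ :=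
  MvPowerSeries.C a0 * MvPowerSeries.X 0 ^ 3 +
    MvPowerSeries.C a1 * (MvPowerSeries.X 0 ^ 2 * MvPowerSeries.X 1) +
    MvPowerSeries.C a2 * (MvPowerSeries.X 0 * MvPowerSeries.X 1 ^ 2) +
    MvPowerSeries.C a3 * MvPowerSeries.X 1 ^ 3

theorem pderiv_cf (a0 a1 a2 a3 : ℂ) : MvPowerSeries.pderiv ℂ 1 (cf a0 a1 a2 a3) =
    MvPowerSeries.C a1 * MvPowerSeries.X 0 ^ 2 +
      MvPowerSeries.C (2 * a2) * (MvPowerSeries.X 0 * MvPowerSeries.X 1) +
      MvPowerSeries.C (3 * a3) * MvPowerSeries.X 1 ^ 2 := by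
  have h0 : MvPowerSeries.pderiv ℂ 1 (MvPowerSeries.X 0 : MvPowerSeries (Fin 2) ℂ) = 0 :=
    MvPowerSeries.pderiv_X_of_ne (by decide)
  have h1 : MvPowerSeries.pderiv ℂ 1 (MvPowerSeries.X 1 : MvPowerSeries (Fin 2) ℂ) = 1 :=
    MvPowerSeries.pderiv_X_self
  simp only [cf, map_add, Derivation.leibniz, MvPowerSeries.pderiv_pow, h0, h1,
    MvPowerSeries.pderiv_C, smul_eq_mul, map_mul]
  have c2 : (MvPowerSeries.C (2 : ℂ) : MvPowerSeries (Fin 2) ℂ) = 2 := map_ofNat _ 2
  have c3 : (MvPowerSeries.C (3 : ℂ) : MvPowerSeries (Fin 2) ℂ) = 3 := map_ofNat _ 3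
  rw [c2, c3]
  norm_num
  ring

/-- a coordinate and a power of the other one -/
theorem colength_pow (K : ℕ) : Colength (Fin.snoc (α := fun _ => (Fin 2 → ℂ) → ℂ)
    ![fun x : Fin 2 → ℂ => x 0] (fun x => x 1 ^ K)) K := by
  have ha : ∀ i, Hol ((![fun x : Fin 2 → ℂ => x 0] : Fin 1 → (Fin 2 → ℂ) → ℂ) i) := by
    intro i
    fin_cases i
    exact analyticAt_coord 0 0
  induction K with
  | zero =>
    refine (colength_of_unit (j := Fin.last 1) ?_ ?_ 0).2 rfl
    · rw [Fin.snoc_last]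
      exact (analyticAt_coord 1 0).pow 0
    · simp
  | succ K ih =>
    have h1 : Colength (Fin.snoc (α := fun _ => (Fin 2 → ℂ) → ℂ)
        ![fun x : Fin 2 → ℂ => x 0] (fun x => x 1)) 1 := by
      refine (colength_of_range (fun j => ?_) (fun j => ?_) 1).2 (colength_coord (n := 2))
      · fin_cases j
        · exact ⟨0, rfl⟩
        · exact ⟨1, rfl⟩
      · fin_cases j
        · exact ⟨0, rfl⟩
        · exact ⟨1, rfl⟩
    have h2 := colength_add ha (analyticAt_coord 1 0) ((analyticAt_coord 1 0).pow K) h1 ih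
    rw [add_comm K 1]
    convert h2 using 3
    simp only [Pi.pow_apply]
    ring

/-- a curve which is transversal to a line -/
theorem colength_line {G : (Fin 2 → ℂ) → ℂ} (hG : Hol G) {K : ℕ} {b : ℂ} (hb : b ≠ 0)
    {a r : MvPowerSeries (Fin 2) ℂ} (hr : r ∈ mR 2 ^ (K + 1))
    (h : ser G = MvPowerSeries.C b * MvPowerSeries.X 1 ^ K + MvPowerSeries.X 0 * a + r) :
    Colength (Fin.snoc (α := fun _ => (Fin 2 → ℂ) → ℂ) ![G] (fun x => x 0)) K := by
  have ha : ∀ i, Hol ((![fun x : Fin 2 → ℂ => x 0] : Fin 1 → (Fin 2 → ℂ) → ℂ) i) := by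
    intro i
    fin_cases i
    exact analyticAt_coord 0 0
  have haG : ∀ i, Hol ((![G] : Fin 1 → (Fin 2 → ℂ) → ℂ) i) := by
    intro i
    fin_cases i
    exact hG
  have hpow : Hol (fun x : Fin 2 → ℂ => x 1 ^ K) := (analyticAt_coord 1 0).pow K
  have h1 := (colength_iff_ser (hol_snoc ha hpow) K).1 (colength_pow K)
  refine (colength_iff_ser (hol_snoc haG (analyticAt_coord 0 0)) K).2 ?_
  have e1 : ser (fun x : Fin 2 → ℂ => x 1 ^ K) = MvPowerSeries.X 1 ^ K := by
    have h7 : (fun x : Fin 2 → ℂ => x 1 ^ K) = fun x : Fin 2 → ℂ =>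
        MvPolynomial.eval x ((MvPolynomial.X 1 : MvPolynomial (Fin 2) ℂ) ^ K) := by
      funext u
      simp
    rw [h7, ser_poly]
    simp
  have e2 : serIdeal ![G] = Ideal.span {ser G} := by
    rw [serIdeal]
    congr 1
    ext x
    constructor
    · rintro ⟨i, rfl⟩
      fin_cases i
      rfl
    · intro hx
      exact ⟨0, (Set.mem_singleton_iff.1 hx).symm⟩
  have e3 : serIdeal ![fun x : Fin 2 → ℂ => x 0] = Ideal.span {MvPowerSeries.X 0} := by
    rw [serIdeal]
    congr 1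
    ext x
    constructor
    · rintro ⟨i, rfl⟩
      fin_cases i
      exact ser_coord 0
    · intro hx
      exact ⟨0, by rw [Set.mem_singleton_iff.1 hx]; exact ser_coord 0⟩
  obtain ⟨a', b', hab⟩ := exists_mod_X0 _ hr
  have hu : IsUnit (MvPowerSeries.C b + MvPowerSeries.X 1 * b' : MvPowerSeries (Fin 2) ℂ) := by
    rw [MvPowerSeries.isUnit_iff_constantCoeff, isUnit_iff_ne_zero]
    simpa using hb
  have e4 : ser G = MvPowerSeries.X 0 * (a + a') +
      MvPowerSeries.X 1 ^ K * (MvPowerSeries.C b + MvPowerSeries.X 1 * b') := by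
    rw [h, hab]
    ring
  have key : serIdeal (Fin.snoc (α := fun _ => (Fin 2 → ℂ) → ℂ) ![G] (fun x => x 0)) =
      serIdeal (Fin.snoc (α := fun _ => (Fin 2 → ℂ) → ℂ)
        ![fun x : Fin 2 → ℂ => x 0] (fun x => x 1 ^ K)) := by
    rw [serIdeal_snoc, serIdeal_snoc, e1, e2, e3, ser_coord, sup_comm]
    apply le_antisymm
    · refine sup_le le_sup_left ?_
      rw [Ideal.span_singleton_le_iff_mem, e4]
      exact add_mem (Ideal.mem_sup_left (Ideal.mul_mem_right _ _
        (Ideal.mem_span_singleton_self _)))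
        (Ideal.mem_sup_right (Ideal.mul_mem_right _ _ (Ideal.mem_span_singleton_self _)))
    · refine sup_le le_sup_left ?_
      rw [Ideal.span_singleton_le_iff_mem]
      have h2 : MvPowerSeries.X 1 ^ K * (MvPowerSeries.C b + MvPowerSeries.X 1 * b') ∈
          Ideal.span {(MvPowerSeries.X 0 : MvPowerSeries (Fin 2) ℂ)} ⊔ Ideal.span {ser G} := by
        have h3 : MvPowerSeries.X 1 ^ K * (MvPowerSeries.C b + MvPowerSeries.X 1 * b') =
            ser G - MvPowerSeries.X 0 * (a + a') := by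
          rw [e4]
          ring
        rw [h3]
        exact sub_mem (Ideal.mem_sup_right (Ideal.mem_span_singleton_self _))
          (Ideal.mem_sup_left (Ideal.mul_mem_right _ _ (Ideal.mem_span_singleton_self _)))
      exact (Ideal.mul_unit_mem_iff_mem _ hu).1 h2
  rw [key]
  exact h1

end Vale.Agent.P298.H790
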