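import Vale.Agent.P298.H790.Plane1

/-!
# P298, block LC (helper790): colengths of plane curves of multiplicity three
-/

namespace Vale.Agent.P298.H790

open Filter Topology Metric Vale.Agent.P298 Vale.Agent.P298.H766 Module

/-- the second coordinate on the arcs of the polar curve -/
theorem arc_y (φ : MvPowerSeries (Fin 2) ℂ →ₐ[ℂ] PowerSeries ℂ) {N : ℕ}
    (hX : φ (MvPowerSeries.X 0) = PowerSeries.X ^ N) {b0 b1 b2 : ℂ} (hb : b2 ≠ 0)
    {r : MvPowerSeries (Fin 2) ℂ} (hr : r ∈ mR 2 ^ 3)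
    (h : φ (MvPowerSeries.C b0 * MvPowerSeries.X 0 ^ 2 +
      MvPowerSeries.C b1 * (MvPowerSeries.X 0 * MvPowerSeries.X 1) +
      MvPowerSeries.C b2 * MvPowerSeries.X 1 ^ 2 + r) = 0) :
    PowerSeries.X ^ N ∣ φ (MvPowerSeries.X 1) := by
  set y := φ (MvPowerSeries.X 1) with hy
  have hC : ∀ c : ℂ, φ (MvPowerSeries.C c) = PowerSeries.C c := by
    intro c
    have := φ.commutes c
    rwa [MvPowerSeries.algebraMap_apply, PowerSeries.algebraMap_apply, Algebra.algebraMap_self,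
      RingHom.id_apply] at this
  have hu : IsUnit (PowerSeries.C b2 : PowerSeries ℂ) := (isUnit_iff_ne_zero.2 hb).map _
  rw [map_add, map_add, map_add, map_mul, map_mul, map_mul, map_mul, map_pow, map_pow, hX, hC,
    hC, hC, ← hy] at h
  have hX1 : (PowerSeries.X : PowerSeries ℂ) ∣ y := P298.H824.X_dvd_arc φ (by simp)
  have key : ∀ ν, 1 ≤ ν → ν ≤ N → (PowerSeries.X : PowerSeries ℂ) ^ ν ∣ y := by
    intro ν h1
    induction ν, h1 using Nat.le_induction with
    | base => intro _; simpa using hX1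
    | succ ν h1 ih =>
      intro h2
      obtain ⟨y', hy'⟩ := ih (by omega)
      have h3 : (PowerSeries.X : PowerSeries ℂ) ^ (ν * 3) ∣ φ r := by
        refine pow_dvd_arc φ (fun i => ?_) 3 hr
        fin_cases i
        · change _ ∣ φ (MvPowerSeries.X 0)
          rw [hX]
          exact pow_dvd_pow _ (by omega)
        · change _ ∣ φ (MvPowerSeries.X 1)
          rw [← hy, hy']
          exact dvd_mul_right _ _
      obtain ⟨r', hr'⟩ := h3
      obtain ⟨m, rfl⟩ : ∃ m, N = ν + 1 + m := ⟨N - (ν + 1), by omega⟩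
      obtain ⟨n, rfl⟩ : ∃ n, ν = n + 1 := ⟨ν - 1, by omega⟩
      rw [hr', hy'] at h
      have h4 : (PowerSeries.X : PowerSeries ℂ) ^ (2 * (n + 1)) * (PowerSeries.C b2 * y' ^ 2 +
          PowerSeries.X * (PowerSeries.C b0 * PowerSeries.X ^ (1 + 2 * m) +
            PowerSeries.C b1 * (PowerSeries.X ^ m * y') + PowerSeries.X ^ n * r')) = 0 := by
        rw [← h]
        ring
      have h5 := (mul_eq_zero.1 h4).resolve_left (pow_ne_zero _ PowerSeries.X_ne_zero)
      have h6 : (PowerSeries.X : PowerSeries ℂ) ∣ PowerSeries.C b2 * y' ^ 2 :=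
        ⟨-(PowerSeries.C b0 * PowerSeries.X ^ (1 + 2 * m) +
            PowerSeries.C b1 * (PowerSeries.X ^ m * y') + PowerSeries.X ^ n * r'), by
          linear_combination h5⟩
      have h7 := PowerSeries.X_prime.dvd_of_dvd_pow (hu.dvd_mul_left.1 h6)
      rw [hy', pow_succ _ (n + 1)]
      exact mul_dvd_mul_left _ h7
  rcases Nat.eq_zero_or_pos N with hN | hN
  · rw [hN, pow_zero]
    exact one_dvd _
  · exact key N hN le_rfl

/-- the second coordinate on the arcs of the polar curve of a sum of two cubes -/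
theorem arc_y2 (φ : MvPowerSeries (Fin 2) ℂ →ₐ[ℂ] PowerSeries ℂ) {N : ℕ}
    (hX : φ (MvPowerSeries.X 0) = PowerSeries.X ^ N) {b2 : ℂ} (hb : b2 ≠ 0)
    {r : MvPowerSeries (Fin 2) ℂ} (hr : r ∈ mR 2 ^ 3)
    (h : φ (MvPowerSeries.C b2 * MvPowerSeries.X 1 ^ 2 + r) = 0) :
    PowerSeries.X ^ (3 * N) ∣ φ (MvPowerSeries.X 1) ^ 2 := by
  have h1 : PowerSeries.X ^ N ∣ φ (MvPowerSeries.X 1) := by
    refine arc_y φ hX (b0 := 0) (b1 := 0) hb hr ?_
    simpa using h
  have h3 : (PowerSeries.X : PowerSeries ℂ) ^ (N * 3) ∣ φ r := by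
    refine pow_dvd_arc φ (fun i => ?_) 3 hr
    fin_cases i
    · change _ ∣ φ (MvPowerSeries.X 0)
      rw [hX]
    · exact h1
  have hC : ∀ c : ℂ, φ (MvPowerSeries.C c) = PowerSeries.C c := by
    intro c
    have := φ.commutes c
    rwa [MvPowerSeries.algebraMap_apply, PowerSeries.algebraMap_apply, Algebra.algebraMap_self,
      RingHom.id_apply] at this
  have hu : IsUnit (PowerSeries.C b2 : PowerSeries ℂ) := (isUnit_iff_ne_zero.2 hb).map _
  rw [map_add, map_mul, map_pow, hC] at h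
  rw [← hu.dvd_mul_left, mul_comm 3 N]
  have h4 : PowerSeries.C b2 * φ (MvPowerSeries.X 1) ^ 2 = -φ r := by linear_combination h
  rw [h4]
  exact (dvd_neg).2 h3

variable {G : (Fin 2 → ℂ) → ℂ} {a0 a1 a2 a3 : ℂ}

theorem hol_single {n : ℕ} {g : (Fin n → ℂ) → ℂ} (hg : Hol g) :
    ∀ i, Hol ((![g] : Fin 1 → (Fin n → ℂ) → ℂ) i) := by
  intro i
  fin_cases i
  exact hg

/-- the Taylor series of the derivative -/
theorem ser_pd_cf (hG : Hol G) {r : MvPowerSeries (Fin 2) ℂ} (hr : r ∈ mR 2 ^ 4)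
    (h : ser G = cf a0 a1 a2 a3 + r) : ∃ r' ∈ mR 2 ^ 3, ser (pd 1 G) =
      MvPowerSeries.C a1 * MvPowerSeries.X 0 ^ 2 +
      MvPowerSeries.C (2 * a2) * (MvPowerSeries.X 0 * MvPowerSeries.X 1) +
      MvPowerSeries.C (3 * a3) * MvPowerSeries.X 1 ^ 2 + r' := by
  refine ⟨_, pderiv_mem 1 3 hr, ?_⟩
  rw [ser_pd hG, h, map_add, pderiv_cf]

theorem colength_polar (hG : Hol G) (h3 : a3 ≠ 0) {r : MvPowerSeries (Fin 2) ℂ}
    (hr : r ∈ mR 2 ^ 4) (h : ser G = cf a0 a1 a2 a3 + r) :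
    Colength (Fin.snoc (α := fun _ => (Fin 2 → ℂ) → ℂ) ![pd 1 G] (fun x => x 0)) 2 := by
  obtain ⟨r', hr', h'⟩ := ser_pd_cf hG hr h
  refine colength_line (hol_pd hG 1) (b := 3 * a3) (mul_ne_zero (by norm_num) h3) hr'
    (a := MvPowerSeries.C a1 * MvPowerSeries.X 0 + MvPowerSeries.C (2 * a2) * MvPowerSeries.X 1) ?_
  rw [h']
  ring

/-- the arcs of the polar curve -/
theorem exists_polar_arcs (hG : Hol G) (h3 : a3 ≠ 0) {r : MvPowerSeries (Fin 2) ℂ}
    (hr : r ∈ mR 2 ^ 4) (h : ser G = cf a0 a1 a2 a3 + r) :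
    ∃ N : ℕ, 0 < N ∧ ∃ φ : Fin 2 → (MvPowerSeries (Fin 2) ℂ →ₐ[ℂ] PowerSeries ℂ),
      (∀ i, φ i (ser (pd 1 G)) = 0) ∧ (∀ i, φ i (MvPowerSeries.X 0) = PowerSeries.X ^ N) ∧
      ∀ e : ℕ, Colength (Fin.snoc (α := fun _ => (Fin 2 → ℂ) → ℂ) ![pd 1 G] G) e ↔
          ∑ i, (φ i (ser G)).order = ((N * e : ℕ) : ℕ∞) := by
  obtain ⟨r', hr', h'⟩ := ser_pd_cf hG hr h
  have h0 : ∀ i, (![pd 1 G] : Fin 1 → (Fin 2 → ℂ) → ℂ) i 0 = 0 := by
    intro i
    fin_cases i
    change pd 1 G 0 = 0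
    rw [← constantCoeff_ser (hol_pd hG 1), h']
    have h4 : MvPowerSeries.constantCoeff r' = 0 := by
      have h5 : r' ∈ mR 2 := Ideal.pow_le_self (by norm_num) hr'
      rw [← maximalIdeal_eq] at h5
      exact mem_maximalIdeal_iff.1 h5
    simp [h4]
  obtain ⟨N, hN, k, φ, h1, h2, h3'⟩ := arcs (hol_single (hol_pd hG 1)) (analyticAt_coord 0 0) h0
    rfl (colength_polar hG h3 hr h)
  have hk : k = 2 := by
    have h4 := (h3' _ (analyticAt_coord 0 0) 2).1 (colength_polar hG h3 hr h)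
    simp only [h2, PowerSeries.order_X_pow, Finset.sum_const, Finset.card_univ,
      Fintype.card_fin, nsmul_eq_mul] at h4
    have h5 : k * N = N * 2 := by exact_mod_cast h4
    rw [mul_comm k N] at h5
    exact Nat.eq_of_mul_eq_mul_left hN h5
  subst hk
  refine ⟨N, hN, φ, fun i => h1 i 0, fun i => ?_, fun e => h3' G hG e⟩
  rw [← h2 i, ser_coord]

theorem plane_low (hG : Hol G) (h3 : a3 ≠ 0) {r : MvPowerSeries (Fin 2) ℂ}
    (hr : r ∈ mR 2 ^ 4) (h : ser G = cf a0 a1 a2 a3 + r) {e : ℕ}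
    (he : Colength (Fin.snoc (α := fun _ => (Fin 2 → ℂ) → ℂ) ![pd 1 G] G) e) : 6 ≤ e := by
  obtain ⟨r', hr', h'⟩ := ser_pd_cf hG hr h
  obtain ⟨N, hN, φ, k1, k2, k3⟩ := exists_polar_arcs hG h3 hr h
  have h4 : ∀ i, (((3 * N : ℕ)) : ℕ∞) ≤ (φ i (ser G)).order := by
    intro i
    have e1 : PowerSeries.X ^ N ∣ φ i (MvPowerSeries.X 1) :=
      arc_y (φ i) (k2 i) (mul_ne_zero three_ne_zero h3) hr' (by rw [← h']; exact k1 i)
    have e2 : (PowerSeries.X : PowerSeries ℂ) ^ (N * 3) ∣ φ i (ser G) := by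
      refine pow_dvd_arc (φ i) (fun j => ?_) 3 ?_
      · fin_cases j
        · change _ ∣ φ i (MvPowerSeries.X 0)
          rw [k2]
        · exact e1
      · rw [h]
        refine add_mem ?_ (Ideal.pow_le_pow_right (by norm_num) hr)
        have x0 : (MvPowerSeries.X 0 : MvPowerSeries (Fin 2) ℂ) ∈ mR 2 := X_mem_mR 0
        have x1 : (MvPowerSeries.X 1 : MvPowerSeries (Fin 2) ℂ) ∈ mR 2 := X_mem_mR 1
        have m3 : ∀ a b c : MvPowerSeries (Fin 2) ℂ, a ∈ mR 2 → b ∈ mR 2 → c ∈ mR 2 →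
            a * b * c ∈ mR 2 ^ 3 := by
          intro a b c ha hb hc
          rw [pow_succ, pow_two]
          exact Ideal.mul_mem_mul (Ideal.mul_mem_mul ha hb) hc
        unfold cf
        refine add_mem (add_mem (add_mem ?_ ?_) ?_) ?_
        · refine Ideal.mul_mem_left _ _ (Ideal.pow_mem_pow x0 3)
        · refine Ideal.mul_mem_left _ _ ?_
          have := m3 _ _ _ x0 x0 x1
          convert this using 1
          ring
        · refine Ideal.mul_mem_left _ _ ?_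
          have := m3 _ _ _ x0 x1 x1
          convert this using 1
          ring
        · refine Ideal.mul_mem_left _ _ (Ideal.pow_mem_pow x1 3)
    rw [mul_comm]
    exact PowerSeries.nat_le_order _ _ (PowerSeries.X_pow_dvd_iff.1 e2)
  have h5 := (k3 e).1 he
  rw [Fin.sum_univ_two] at h5
  have h6 : (((3 * N : ℕ)) : ℕ∞) + ((3 * N : ℕ) : ℕ∞) ≤ ((N * e : ℕ) : ℕ∞) := by
    rw [← h5]
    exact add_le_add (h4 0) (h4 1)
  have h7 : 3 * N + 3 * N ≤ N * e := by exact_mod_cast h6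
  by_contra h8
  push Not at h8
  have h9 : N * e ≤ N * 5 := Nat.mul_le_mul_left N (by omega)
  omega

theorem plane_eq (hG : Hol G) (h0 : a0 ≠ 0) (h3 : a3 ≠ 0) {r : MvPowerSeries (Fin 2) ℂ}
    (hr : r ∈ mR 2 ^ 4) (h : ser G = cf a0 0 0 a3 + r) :
    Colength (Fin.snoc (α := fun _ => (Fin 2 → ℂ) → ℂ) ![pd 1 G] G) 6 := by
  obtain ⟨r', hr', h'⟩ := ser_pd_cf hG hr h
  obtain ⟨N, hN, φ, k1, k2, k3⟩ := exists_polar_arcs hG h3 hr h
  rw [k3]
  have h4 : ∀ i, (φ i (ser G)).order = ((3 * N : ℕ) : ℕ∞) := by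
    intro i
    have e0 : φ i (MvPowerSeries.C (3 * a3) * MvPowerSeries.X 1 ^ 2 + r') = 0 := by
      have := k1 i
      rw [h'] at this
      simpa using this
    have e1 : PowerSeries.X ^ N ∣ φ i (MvPowerSeries.X 1) :=
      arc_y (φ i) (k2 i) (mul_ne_zero three_ne_zero h3) hr' (by rw [← h']; exact k1 i)
    have e2 := arc_y2 (φ i) (k2 i) (mul_ne_zero three_ne_zero h3) hr' e0
    have e3 : (PowerSeries.X : PowerSeries ℂ) ^ (N * 4) ∣ φ i r := by
      refine pow_dvd_arc (φ i) (fun j => ?_) 4 hr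
      fin_cases j
      · change _ ∣ φ i (MvPowerSeries.X 0)
        rw [k2]
      · exact e1
    have hC : ∀ c : ℂ, φ i (MvPowerSeries.C c) = PowerSeries.C c := by
      intro c
      have := (φ i).commutes c
      rwa [MvPowerSeries.algebraMap_apply, PowerSeries.algebraMap_apply, Algebra.algebraMap_self,
        RingHom.id_apply] at this
    obtain ⟨m, rfl⟩ : ∃ m, N = m + 1 := ⟨N - 1, by omega⟩
    obtain ⟨y1, hy1⟩ := e1
    obtain ⟨y2, hy2⟩ := e2
    obtain ⟨r1, hr1⟩ := e3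
    have e4 : φ i (ser G) = PowerSeries.X ^ (3 * (m + 1)) * (PowerSeries.C a0 +
        PowerSeries.X * (PowerSeries.X ^ m * (PowerSeries.C a3 * (y1 * y2) + r1))) := by
      have e5 : φ i (MvPowerSeries.X 1) ^ 3 = PowerSeries.X ^ (m + 1) * y1 *
          (PowerSeries.X ^ (3 * (m + 1)) * y2) := by
        rw [← hy1, ← hy2]
        ring
      rw [h, cf]
      simp only [map_add, map_mul, map_pow, hC]
      rw [k2, e5, hr1, map_zero]
      ring
    rw [e4, PowerSeries.order_mul, PowerSeries.order_X_pow]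
    have e6 : (PowerSeries.C a0 + PowerSeries.X * (PowerSeries.X ^ m *
        (PowerSeries.C a3 * (y1 * y2) + r1))).order = 0 := by
      rw [PowerSeries.order_zero_of_unit]
      rw [PowerSeries.isUnit_iff_constantCoeff]
      simpa using h0
    rw [e6, add_zero]
  rw [Fin.sum_univ_two, h4, h4]
  norm_cast
  ring

end Vale.Agent.P298.H790
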