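import Vale.Agent.P298.H790.Jet2

/-!
# P298, block LC (helper790): the 2-jets of the family vanish
-/

namespace Vale.Agent.P298.H790

open Filter Topology Metric Vale.Agent.P298 Vale.Agent.P298.H766 Module

/-- weighted growth: in the coordinates `T` all monomials of `f` have weight at least
`D > w₀ + w₁ + w₂` -/
def WBad (f : (Fin 3 → ℂ) → ℂ) : Prop :=
  ∃ (T : (Fin 3 → ℂ) ≃L[ℂ] (Fin 3 → ℂ)) (w : Fin 3 → ℕ) (D : ℕ), (∀ i, 0 < w i) ∧
    w 0 + w 1 + w 2 < D ∧ ∃ C : ℝ, ∀ᶠ l : ℝ in 𝓝[>] 0, ∀ y : Fin 3 → ℂ, ‖y‖ ≤ 1 →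
      ‖f (T fun i => (l : ℂ) ^ w i * y i)‖ ≤ C * l ^ D

/-- the terms of order at least four -/
theorem jet_bound {f : (Fin 3 → ℂ) → ℂ} {φ : Fin 3 → Fin 3 → Fin 3 → (Fin 3 → ℂ) → ℂ}
    (hφ : ∀ i j k, Hol (φ i j k))
    (hf : ∀ᶠ x in 𝓝 (0 : Fin 3 → ℂ), f x = ∑ i, ∑ j, ∑ k, x i * x j * x k * φ i j k x) :
    ∃ C : ℝ, 0 ≤ C ∧ ∀ᶠ x in 𝓝 (0 : Fin 3 → ℂ),
      ‖f x - P3 (fun i j k => φ i j k 0) x‖ ≤ C * ‖x‖ ^ 4 := by
  have h1 : ∀ i j k, ∃ C : ℝ, ∀ᶠ x in 𝓝 (0 : Fin 3 → ℂ), ‖φ i j k x - φ i j k 0‖ ≤ C * ‖x‖ := by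
    intro i j k
    have h2 := (AnalyticAt.differentiableAt (hφ i j k)).isBigO_sub
    obtain ⟨C, hC⟩ := h2.bound
    refine ⟨C, ?_⟩
    filter_upwards [hC] with x hx
    simpa using hx
  choose C hC using h1
  refine ⟨∑ i, ∑ j, ∑ k, |C i j k|, by positivity, ?_⟩
  filter_upwards [hf, eventually_all.2 fun i => eventually_all.2 fun j =>
    eventually_all.2 fun k => hC i j k] with x hx hb
  have h2 : f x - P3 (fun i j k => φ i j k 0) x =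
      ∑ i, ∑ j, ∑ k, x i * x j * x k * (φ i j k x - φ i j k 0) := by
    rw [hx, P3]
    simp only [mul_sub, Finset.sum_sub_distrib]
  rw [h2]
  simp only [Finset.sum_mul]
  refine (norm_sum_le _ _).trans (Finset.sum_le_sum fun i _ => ?_)
  refine (norm_sum_le _ _).trans (Finset.sum_le_sum fun j _ => ?_)
  refine (norm_sum_le _ _).trans (Finset.sum_le_sum fun k _ => ?_)
  rw [norm_mul, norm_mul, norm_mul]
  have n1 := norm_le_pi_norm x i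
  have n2 := norm_le_pi_norm x j
  have n3 := norm_le_pi_norm x k
  have n4 : ‖φ i j k x - φ i j k 0‖ ≤ |C i j k| * ‖x‖ :=
    (hb i j k).trans (mul_le_mul_of_nonneg_right (le_abs_self _) (norm_nonneg _))
  calc ‖x i‖ * ‖x j‖ * ‖x k‖ * ‖φ i j k x - φ i j k 0‖
      ≤ ‖x‖ * ‖x‖ * ‖x‖ * (|C i j k| * ‖x‖) := by gcongr
    _ = |C i j k| * ‖x‖ ^ 4 := by ring

/-- germs with exceptional cubic part -/
theorem wbad_of_jet {f : (Fin 3 → ℂ) → ℂ} {φ : Fin 3 → Fin 3 → Fin 3 → (Fin 3 → ℂ) → ℂ}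
    (hφ : ∀ i j k, Hol (φ i j k))
    (hf : ∀ᶠ x in 𝓝 (0 : Fin 3 → ℂ), f x = ∑ i, ∑ j, ∑ k, x i * x j * x k * φ i j k x)
    (T0 : (Fin 3 → ℂ) ≃L[ℂ] (Fin 3 → ℂ)) {c : Cu}
    (hc : ∀ x, P3 (fun i j k => φ i j k 0) (T0 x) = c.ev (x 0) (x 1) (x 2)) (hb : c.Bad) :
    WBad f := by
  obtain ⟨C2, hC2, hrem⟩ := jet_bound hφ hf
  obtain ⟨c', hs, hsh⟩ := hb
  obtain ⟨M, -, hM⟩ := hs.exists_equiv
  obtain ⟨w, D, hD, hw, hDw, C, hC, hgr⟩ := c'.shape_growth hsh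
  set T := M.trans T0 with hT
  have hPT : ∀ x, P3 (fun i j k => φ i j k 0) (T x) = c'.ev (x 0) (x 1) (x 2) := by
    intro x
    rw [← hM]
    exact hc (M x)
  obtain ⟨δ, hδ, hδ'⟩ := Metric.eventually_nhds_iff_ball.1 hrem
  set K : ℝ := ‖(T : (Fin 3 → ℂ) →L[ℂ] (Fin 3 → ℂ))‖ with hK
  refine ⟨T, w, 4 * D, fun i => hD.trans_le (hDw i), hw, C + C2 * K ^ 4, ?_⟩
  have hl1 : ∀ᶠ l : ℝ in 𝓝[>] 0, l < min 1 (δ / (K + 1)) := by
    have : (0 : ℝ) < min 1 (δ / (K + 1)) := lt_min one_pos (by positivity)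
    filter_upwards [Ioo_mem_nhdsGT this] with l h using h.2
  filter_upwards [hl1, self_mem_nhdsWithin] with l hl hl0 y hy
  have hl0' : 0 < l := hl0
  have hl1' : l ≤ 1 := (hl.trans_le (min_le_left _ _)).le
  have hl2 : l < δ / (K + 1) := hl.trans_le (min_le_right _ _)
  set v : Fin 3 → ℂ := fun i => (l : ℂ) ^ w i * y i with hv
  have hvn : ‖v‖ ≤ l ^ D := by
    rw [pi_norm_le_iff_of_nonneg (by positivity)]
    intro i
    simp only [hv]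
    rw [norm_mul, norm_pow, Complex.norm_real, Real.norm_of_nonneg hl0'.le]
    calc l ^ w i * ‖y i‖ ≤ l ^ w i * 1 := by
          gcongr
          exact (norm_le_pi_norm y i).trans hy
      _ = l ^ w i := mul_one _
      _ ≤ l ^ D := pow_le_pow_of_le_one hl0'.le hl1' (hDw i)
  have hTv : ‖T v‖ ≤ K * l ^ D := by
    refine ((T : (Fin 3 → ℂ) →L[ℂ] (Fin 3 → ℂ)).le_opNorm v).trans ?_
    gcongr
  have hTv' : T v ∈ ball (0 : Fin 3 → ℂ) δ := by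
    rw [mem_ball_zero_iff]
    calc ‖T v‖ ≤ K * l ^ D := hTv
      _ ≤ K * l := by
          gcongr
          exact pow_le_of_le_one hl0'.le hl1' (Nat.pos_iff_ne_zero.1 hD)
      _ ≤ (K + 1) * l := by nlinarith
      _ < δ := by
          rw [lt_div_iff₀ (by positivity)] at hl2
          linarith
  have h1 := hδ' _ hTv'
  have h2 : ‖P3 (fun i j k => φ i j k 0) (T v)‖ ≤ C * l ^ (4 * D) := by
    rw [hPT]
    exact hgr l hl0' hl1' y hy
  calc ‖f (T v)‖ = ‖(f (T v) - P3 (fun i j k => φ i j k 0) (T v)) +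
        P3 (fun i j k => φ i j k 0) (T v)‖ := by rw [sub_add_cancel]
    _ ≤ C2 * ‖T v‖ ^ 4 + C * l ^ (4 * D) := (norm_add_le _ _).trans (add_le_add h1 h2)
    _ ≤ C2 * (K * l ^ D) ^ 4 + C * l ^ (4 * D) := by gcongr
    _ = (C + C2 * K ^ 4) * l ^ (4 * D) := by
        rw [mul_pow, ← pow_mul, mul_comm D 4]
        ring

/-- the derivative of an affine cubic at a point -/
theorem hasDerivAt_ev_Y (c : Cu) (Y Z : ℂ) (h : c.x2y = 0) :
    HasDerivAt (fun s : ℂ => c.ev 1 (Y + s) Z) (PY c.k Y Z) 0 := by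
  have h1 : HasDerivAt (fun s : ℂ => Y + s) 1 0 := by
    simpa using (hasDerivAt_id (0 : ℂ)).const_add Y
  have h2 := ((h1.pow 2).const_mul (c.xy2 + c.y2z * Z)).add
    ((h1.const_mul (c.x2y + c.xyz * Z + c.yz2 * Z ^ 2)).add ((h1.pow 3).const_mul c.y3))
  have h3 := h2.add_const (c.x3 + c.x2z * Z + c.xz2 * Z ^ 2 + c.z3 * Z ^ 3)
  refine (h3.congr_deriv ?_).congr_of_eventuallyEq (Filter.Eventually.of_forall fun s => ?_)
  · simp only [PY, Cu.k, Matrix.cons_val, Algebra.algebraMap_self, RingHom.id_apply, h]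
    simp
    ring
  · simp only [Cu.ev, Pi.add_apply, Pi.pow_apply]
    ring

theorem hasDerivAt_ev_Z (c : Cu) (Y Z : ℂ) (h : c.x2z = 0) :
    HasDerivAt (fun s : ℂ => c.ev 1 Y (Z + s)) (PZ c.k Y Z) 0 := by
  have h1 : HasDerivAt (fun s : ℂ => Z + s) 1 0 := by
    simpa using (hasDerivAt_id (0 : ℂ)).const_add Z
  have h2 := ((h1.pow 2).const_mul (c.xz2 + c.yz2 * Y)).add
    ((h1.const_mul (c.x2z + c.xyz * Y + c.y2z * Y ^ 2)).add ((h1.pow 3).const_mul c.z3))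
  have h3 := h2.add_const (c.x3 + c.x2y * Y + c.xy2 * Y ^ 2 + c.y3 * Y ^ 3)
  refine (h3.congr_deriv ?_).congr_of_eventuallyEq (Filter.Eventually.of_forall fun s => ?_)
  · simp only [PZ, Cu.k, Matrix.cons_val, Algebra.algebraMap_self, RingHom.id_apply, h]
    simp
    ring
  · simp only [Cu.ev, Pi.add_apply, Pi.pow_apply]
    ring

end Vale.Agent.P298.H790
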