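import Vale.Agent.P298.H790.Step2
import Vale.Agent.P298.H845.Coord

/-!
# P298, block LC (helper790): if `ord f₀ ≥ 3`, `f₀` is not exceptional and all Hessians have
rank at most one, then `ord f_t ≥ 3`
-/

namespace Vale.Agent.P298.H790

open Filter Topology Metric Vale.Agent.P298 Vale.Agent.P298.H766 Module

variable {F : (Fin 3 → ℂ) → ℂ → ℂ} {r : ℝ} {μ : ℕ}

theorem eventually_zero (hr : 0 < r) (hF : IsHolFamily r F) : ∀ᶠ t in 𝓝 (0 : ℂ), F 0 t = 0 := by
  filter_upwards [isOpen_ball.mem_nhds (mem_ball_self hr)] with t ht using (hF t ht).2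

theorem eventually_grad (hr : 0 < r) (hF : IsHolFamily r F)
    (hμ : ∀ t ∈ ball (0 : ℂ) r, Milnor (F · t) μ) (hμ0 : μ ≠ 0) :
    ∀ᶠ t in 𝓝 (0 : ℂ), ∀ i, pd i (fun x => F x t) 0 = 0 := by
  filter_upwards [isOpen_ball.mem_nhds (mem_ball_self hr)] with t ht i
  exact H845.pd_zero_of_milnor (slice_hol (hF t ht).1) (hμ t ht) hμ0 i

/-- the Hessian depends analytically on the parameter -/
theorem analytic_hess (hF : AnalyticAt ℂ (fun p : (Fin 3 → ℂ) × ℂ => F p.1 p.2) (0, 0))
    (i j : Fin 3) : AnalyticAt ℂ (fun t : ℂ => pd i (pd j fun x => F x t) 0) 0 := by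
  have h1 := analyticAt_pd (G := fun x t => pd j (fun x => F x t) x) (analyticAt_pd hF j) i
  have h2 : AnalyticAt ℂ (fun t : ℂ => ((0 : Fin 3 → ℂ), t)) 0 :=
    analyticAt_const.prod analyticAt_id
  exact AnalyticAt.fun_comp (g := fun p : (Fin 3 → ℂ) × ℂ =>
    pd i (fun x => pd j (fun x => F x p.2) x) p.1) (f := fun t : ℂ => ((0 : Fin 3 → ℂ), t)) h1 h2

/-- **Step 2.** The 2-jets of all members of the family vanish. -/
theorem hess_zero (hr : 0 < r) (hF : IsHolFamily r F)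
    (hμ : ∀ t ∈ ball (0 : ℂ) r, Milnor (F · t) μ) (hμ0 : μ ≠ 0)
    (h2 : ∀ i j, pd i (pd j fun x => F x 0) 0 = 0)
    (hrk : ∀ᶠ t in 𝓝 (0 : ℂ), ∀ i j k l, pd i (pd j fun x => F x t) 0 *
      pd k (pd l fun x => F x t) 0 = pd i (pd l fun x => F x t) 0 * pd k (pd j fun x => F x t) 0)
    (hbad : ¬ WBad (F · 0)) :
    ∀ᶠ t in 𝓝 (0 : ℂ), ∀ i j, pd i (pd j fun x => F x t) 0 = 0 := by
  have hF0 : AnalyticAt ℂ (fun p : (Fin 3 → ℂ) × ℂ => F p.1 p.2) (0, 0) :=
    (hF 0 (mem_ball_self hr)).1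
  obtain ⟨ψ, hψ, hsym, htay⟩ := taylor3 hF0 (eventually_zero hr hF)
    (eventually_grad hr hF hμ hμ0)
  set M : Fin 3 → Fin 3 → ℂ → ℂ := fun i j t => 1 / 2 * pd i (pd j fun x => F x t) 0 with hM
  have hMa : ∀ i j, AnalyticAt ℂ (M i j) 0 := fun i j =>
    analyticAt_const.mul (analytic_hess hF0 i j)
  by_contra hne
  obtain ⟨a, cc, hcc, hcca, hqa, hrank⟩ := rank_one hMa (by
      filter_upwards [hsym] with t ht i j
      simp only [hM]
      rw [ht i j])
    (fun i j => by simp only [hM]; rw [h2, mul_zero])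
    (by
      filter_upwards [hrk] with t ht i j k l
      simp only [hM]
      linear_combination (1 / 4 : ℂ) * ht i j k l)
    (by
      intro h
      apply hne
      filter_upwards [h] with t ht i j
      have := ht i j
      simp only [hM] at this
      exact (mul_eq_zero.1 this).resolve_left (by norm_num))
  -- adapted coordinates
  obtain ⟨T0, hT0⟩ := exists_adapted (fun i => cc i 0) (hcca 0)
  set τ : Fin 3 → Fin 3 → Fin 3 → ℂ := fun i j k => ψ i j k (0, 0) with hτ
  obtain ⟨c, hc⟩ := isCu_comp τ (T0 : (Fin 3 → ℂ) →L[ℂ] (Fin 3 → ℂ))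
  rcases Cu.good_or_bad c with hg | hb
  swap
  · apply hbad
    refine wbad_of_jet (φ := fun i j k x => ψ i j k (x, 0)) (fun i j k => slice_hol (hψ i j k))
      ?_ T0 hc hb
    have h3 : Tendsto (fun x : Fin 3 → ℂ => (x, (0 : ℂ))) (𝓝 0) (𝓝 (0, 0)) :=
      Continuous.tendsto (by fun_prop) 0
    filter_upwards [h3.eventually htay] with x hx
    simpa [h2] using hx
  obtain ⟨c', hs, hx2y, hx2z, hiso⟩ := hg
  obtain ⟨N, hN0, hN⟩ := hs.exists_equiv
  set T := N.trans T0 with hT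
  have hPT : ∀ x, P3 τ (T x) = c'.ev (x 0) (x 1) (x 2) := by
    intro x
    rw [← hN]
    exact hc (N x)
  -- the linear forms
  set L : ℂ → (Fin 3 → ℂ) → ℂ := fun t x => ∑ i, cc i t * x i with hL
  have hLadd : ∀ t x y, L t (x + y) = L t x + L t y := by
    intro t x y
    simp only [hL, Pi.add_apply, mul_add, Finset.sum_add_distrib]
  have hLsub : ∀ t x y, L t (x - y) = L t x - L t y := by
    intro t x y
    simp only [hL, Pi.sub_apply, mul_sub, Finset.sum_sub_distrib]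
  have hLsmul : ∀ t (s : ℂ) x, L t (s • x) = s * L t x := by
    intro t s x
    simp only [hL, Pi.smul_apply, smul_eq_mul, Finset.mul_sum]
    refine Finset.sum_congr rfl fun i _ => ?_
    ring
  have hL0 : ∀ x, L 0 (T x) = x 0 := by
    intro x
    have := hT0 (N x)
    rw [hN0] at this
    exact this
  have hLa : ∀ x, AnalyticAt ℂ (fun t => L t x) 0 := by
    intro x
    exact Finset.analyticAt_fun_sum _ fun i _ => (hcc i).mul analyticAt_const
  set b : Fin 3 → Fin 3 → ℂ := fun j => T (Pi.single j 1) with hb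
  have hLb0 : L 0 (b 0) = 1 := by rw [hb, hL0]; simp
  have hLb1 : L 0 (b 1) = 0 := by rw [hb, hL0]; simp
  have hLb2 : L 0 (b 2) = 0 := by rw [hb, hL0]; simp
  set v0 : ℂ → Fin 3 → ℂ := fun t => (L t (b 0))⁻¹ • b 0 with hv0
  set v : Fin 3 → ℂ → (Fin 3 → ℂ) := ![v0, fun t => b 1 - L t (b 1) • v0 t,
    fun t => b 2 - L t (b 2) • v0 t] with hv
  have hv0a : AnalyticAt ℂ v0 0 :=
    ((hLa (b 0)).inv (by rw [hLb0]; exact one_ne_zero)).smul analyticAt_const
  have hva : ∀ j, AnalyticAt ℂ (v j) 0 := by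
    intro j
    fin_cases j
    · exact hv0a
    · exact analyticAt_const.sub ((hLa (b 1)).smul hv0a)
    · exact analyticAt_const.sub ((hLa (b 2)).smul hv0a)
  have hv00 : v0 0 = b 0 := by simp only [hv0]; rw [hLb0, inv_one, one_smul]
  have hvT : ∀ j, v j 0 = T (Pi.single j 1) := by
    intro j
    fin_cases j
    · exact hv00
    · change b 1 - L 0 (b 1) • v0 0 = b 1
      rw [hLb1, zero_smul, sub_zero]
    · change b 2 - L 0 (b 2) • v0 0 = b 2
      rw [hLb2, zero_smul, sub_zero]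
  have hLray : ∀ᶠ w in 𝓝 (0 : Fin 4 → ℂ), L (w 3) (ray v w) = 1 := by
    have h3 : Tendsto (fun w : Fin 4 → ℂ => w 3) (𝓝 0) (𝓝 0) :=
      (continuous_apply (3 : Fin 4)).tendsto (0 : Fin 4 → ℂ)
    have h4 : ∀ᶠ t in 𝓝 (0 : ℂ), L t (b 0) ≠ 0 :=
      (hLa (b 0)).continuousAt.eventually_ne (by rw [hLb0]; exact one_ne_zero)
    filter_upwards [h3.eventually h4] with w hw
    have e0 : L (w 3) (v0 (w 3)) = 1 := by
      simp only [hv0]
      rw [hLsmul, inv_mul_cancel₀ hw]
    have e1 : L (w 3) (v 1 (w 3)) = 0 := by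
      change L (w 3) (b 1 - L (w 3) (b 1) • v0 (w 3)) = 0
      rw [hLsub, hLsmul, e0, mul_one, sub_self]
    have e2 : L (w 3) (v 2 (w 3)) = 0 := by
      change L (w 3) (b 2 - L (w 3) (b 2) • v0 (w 3)) = 0
      rw [hLsub, hLsmul, e0, mul_one, sub_self]
    unfold ray
    rw [hLadd, hLadd, hLsmul, hLsmul, e1, e2]
    have e3 : v 0 (w 3) = v0 (w 3) := rfl
    rw [e3, e0]
    ring
  -- the function `H`
  set H : (Fin 4 → ℂ) → ℂ := fun w => ∑ i, ∑ j, ∑ k, ray v w i * ray v w j * ray v w k *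
    ψ i j k (bl v w, w 3) with hH
  have hraya : ∀ i, AnalyticAt ℂ (fun w => ray v w i) 0 := by
    intro i
    have h := analytic_v hva
    have hc := fun i : Fin 4 => analyticAt_coord i (0 : Fin 4 → ℂ)
    have h1 : AnalyticAt ℂ (ray v) 0 :=
      ((h 0).add ((hc 0).smul (h 1))).add ((hc 1).smul (h 2))
    exact analyticAt_pi_iff.1 h1 i
  have hbw : AnalyticAt ℂ (fun w : Fin 4 → ℂ => (bl v w, w 3)) 0 :=
    (analytic_bl hva).prod (analyticAt_coord 3 0)
  have hbw0 : ((fun w : Fin 4 → ℂ => (bl v w, w 3)) 0) = (0, 0) := by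
    simp [bl_zero]
  have hHa : Hol H := by
    refine Finset.analyticAt_fun_sum _ fun i _ => Finset.analyticAt_fun_sum _ fun j _ =>
      Finset.analyticAt_fun_sum _ fun k _ => ?_
    refine (((hraya i).mul (hraya j)).mul (hraya k)).mul ?_
    have h3 := hψ i j k
    rw [← hbw0] at h3
    exact AnalyticAt.fun_comp (g := ψ i j k) (f := fun w : Fin 4 → ℂ => (bl v w, w 3)) h3 hbw
  have hFH : ∀ᶠ w in 𝓝 (0 : Fin 4 → ℂ), F (bl v w) (w 3) =
      (w 2) ^ 2 * M a a (w 3) + (w 2) ^ 3 * H w := by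
    have h3 : Tendsto (fun w : Fin 4 → ℂ => (bl v w, w 3)) (𝓝 0) (𝓝 (0, 0)) := by
      have := hbw.continuousAt.tendsto
      rw [bl_zero] at this
      exact this
    have h4 : Tendsto (fun w : Fin 4 → ℂ => w 3) (𝓝 0) (𝓝 0) :=
      (continuous_apply (3 : Fin 4)).tendsto (0 : Fin 4 → ℂ)
    filter_upwards [h3.eventually htay, h4.eventually hrank, hLray] with w k1 k2 k3
    rw [k1]
    have e1 : ∑ i, ∑ j, bl v w i * bl v w j * (1 / 2 * pd i (pd j fun x => F x (w 3)) 0) =
        (w 2) ^ 2 * M a a (w 3) := by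
      have e2 : ∀ i j, bl v w i * bl v w j * (1 / 2 * pd i (pd j fun x => F x (w 3)) 0) =
          (w 2) ^ 2 * M a a (w 3) * ((cc i (w 3) * ray v w i) * (cc j (w 3) * ray v w j)) := by
        intro i j
        have := k2 i j
        simp only [hM] at this ⊢
        rw [this]
        simp only [bl, Pi.smul_apply, smul_eq_mul]
        ring
      simp only [e2]
      simp only [← Finset.mul_sum, ← Finset.sum_mul]
      have e3 : ∑ i, cc i (w 3) * ray v w i = 1 := k3
      rw [e3]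
      ring
    rw [e1]
    congr 1
    simp only [hH, Finset.mul_sum]
    refine Finset.sum_congr rfl fun i _ => Finset.sum_congr rfl fun j _ =>
      Finset.sum_congr rfl fun k _ => ?_
    simp only [bl, Pi.smul_apply, smul_eq_mul]
    ring
  -- the restriction to the exceptional divisor
  have hHres : ∀ Y Z : ℂ, H ![Y, Z, 0, 0] = c'.ev 1 Y Z := by
    intro Y Z
    have e1 : ray v ![Y, Z, 0, 0] = T ![1, Y, Z] := by
      have e2 : (![1, Y, Z] : Fin 3 → ℂ) = Pi.single 0 1 + Y • Pi.single 1 1 +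
          Z • Pi.single 2 1 := by
        funext i
        fin_cases i <;> simp
      rw [e2, map_add, map_add, map_smul, map_smul, ← hvT, ← hvT, ← hvT]
      rfl
    have e3 : bl v ![Y, Z, 0, 0] = 0 := by
      change (0 : ℂ) • ray v ![Y, Z, 0, 0] = 0
      rw [zero_smul]
    have e4 : H ![Y, Z, 0, 0] = P3 τ (T ![1, Y, Z]) := by
      simp only [hH, e1, e3, P3, hτ]
      rfl
    rw [e4, hPT]
    rfl
  have hemb : Tendsto (fun u : Fin 2 → ℂ => (![u 0, u 1, 0, 0] : Fin 4 → ℂ)) (𝓝 0) (𝓝 0) := by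
    have h3 : Continuous (fun u : Fin 2 → ℂ => (![u 0, u 1, 0, 0] : Fin 4 → ℂ)) := by
      refine continuous_pi fun i => ?_
      fin_cases i
      · exact continuous_apply 0
      · exact continuous_apply 1
      · exact continuous_const
      · exact continuous_const
    have h4 := h3.tendsto 0
    have h5 : (![(0 : Fin 2 → ℂ) 0, (0 : Fin 2 → ℂ) 1, 0, 0] : Fin 4 → ℂ) = 0 := by
      funext i
      fin_cases i <;> rfl
    rw [h5] at h4
    exact h4
  have hY : ∀ᶠ u in 𝓝 (0 : Fin 2 → ℂ), pd 0 H ![u 0, u 1, 0, 0] = PY c'.k (u 0) (u 1) := by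
    filter_upwards [hemb.eventually (AnalyticAt.eventually_analyticAt hHa)] with u hu
    have e1 := hasDerivAt_line hu.differentiableAt (Pi.single 0 1)
    have e2 := hasDerivAt_ev_Y c' (u 0) (u 1) hx2y
    have e3 : (fun s : ℂ => H (![u 0, u 1, 0, 0] + s • (Pi.single 0 1 : Fin 4 → ℂ))) =
        fun s : ℂ => c'.ev 1 (u 0 + s) (u 1) := by
      funext s
      rw [← hHres]
      congr 1
      funext i
      fin_cases i <;> simp
    rw [e3] at e1
    exact e1.unique e2
  have hZ : ∀ᶠ u in 𝓝 (0 : Fin 2 → ℂ), pd 1 H ![u 0, u 1, 0, 0] = PZ c'.k (u 0) (u 1) := by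
    filter_upwards [hemb.eventually (AnalyticAt.eventually_analyticAt hHa)] with u hu
    have e1 := hasDerivAt_line hu.differentiableAt (Pi.single 1 1)
    have e2 := hasDerivAt_ev_Z c' (u 0) (u 1) hx2z
    have e3 : (fun s : ℂ => H (![u 0, u 1, 0, 0] + s • (Pi.single 1 1 : Fin 4 → ℂ))) =
        fun s : ℂ => c'.ev 1 (u 0) (u 1 + s) := by
      funext s
      rw [← hHres]
      congr 1
      funext i
      fin_cases i <;> simp
    rw [e3] at e1
    exact e1.unique e2
  exact hqa (blow hr hF hμ hva hvT (hMa a a) (by simp only [hM]; rw [h2, mul_zero]) hHa hFH hY hZ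
    hiso)

end Vale.Agent.P298.H790
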