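import Vale.Agent.P298.H790.Plane2
import Vale.Agent.P298.H790.Step3
import Vale.Agent.P298.H137.Main

/-!
# P298, block LC (helper790): families of germs of order three
-/

namespace Vale.Agent.P298.H790

open Filter Topology Metric Vale.Agent.P298 Vale.Agent.P298.H766 Module

/-- the plane `x₂ = 0` -/
def s2 (x : Fin 2 → ℂ) : Fin 3 → ℂ := Fin.snoc (α := fun _ => ℂ) x 0

@[simp] theorem s2_0 (x : Fin 2 → ℂ) : s2 x 0 = x 0 := rfl
@[simp] theorem s2_1 (x : Fin 2 → ℂ) : s2 x 1 = x 1 := rfl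
@[simp] theorem s2_2 (x : Fin 2 → ℂ) : s2 x 2 = 0 := rfl

theorem ser_mem_mR {n : ℕ} {g : (Fin n → ℂ) → ℂ} (hg : Hol g) (h0 : g 0 = 0) : ser g ∈ mR n := by
  rw [← maximalIdeal_eq, mem_maximalIdeal_iff, constantCoeff_ser hg, h0]

theorem ser_sub_C_mem {n : ℕ} {g : (Fin n → ℂ) → ℂ} (hg : Hol g) :
    ser g - MvPowerSeries.C (g 0) ∈ mR n := by
  rw [← maximalIdeal_eq, mem_maximalIdeal_iff, map_sub, constantCoeff_ser hg]
  simp

/-- the cubic part of `∑ L_i L_j L_k g_{ijk}` -/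
theorem ser_cubic {n : ℕ} {L : Fin 3 → (Fin n → ℂ) → ℂ} (hL : ∀ i, Hol (L i))
    (hL0 : ∀ i, L i 0 = 0) {g : Fin 3 → Fin 3 → Fin 3 → (Fin n → ℂ) → ℂ}
    (hg : ∀ i j k, Hol (g i j k)) :
    ∃ r ∈ mR n ^ 4, ser (fun x => ∑ i, ∑ j, ∑ k, L i x * L j x * L k x * g i j k x) =
      ser (fun x => P3 (fun i j k => g i j k 0) (fun i => L i x)) + r := by
  have hLL : ∀ i j k, Hol (fun x => L i x * L j x * L k x) := fun i j k =>
    ((hL i).mul (hL j)).mul (hL k)
  have h1 : ∀ (g : Fin 3 → Fin 3 → Fin 3 → (Fin n → ℂ) → ℂ), (∀ i j k, Hol (g i j k)) →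
      ser (fun x => ∑ i, ∑ j, ∑ k, L i x * L j x * L k x * g i j k x) =
      ∑ i, ∑ j, ∑ k, ser (L i) * ser (L j) * ser (L k) * ser (g i j k) := by
    intro g hg
    have a1 : ∀ i j k, Hol (fun x => L i x * L j x * L k x * g i j k x) := fun i j k =>
      (hLL i j k).mul (hg i j k)
    rw [ser_sum Finset.univ (u := fun (i : Fin 3) (x : Fin n → ℂ) =>
      ∑ j, ∑ k, L i x * L j x * L k x * g i j k x) (fun i => Finset.analyticAt_fun_sum _ fun j _ =>
        Finset.analyticAt_fun_sum _ fun k _ => a1 i j k)]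
    refine Finset.sum_congr rfl fun i _ => ?_
    rw [ser_sum Finset.univ (u := fun (j : Fin 3) (x : Fin n → ℂ) =>
      ∑ k, L i x * L j x * L k x * g i j k x) (fun j => Finset.analyticAt_fun_sum _ fun k _ =>
        a1 i j k)]
    refine Finset.sum_congr rfl fun j _ => ?_
    rw [ser_sum Finset.univ (u := fun (k : Fin 3) (x : Fin n → ℂ) =>
      L i x * L j x * L k x * g i j k x) (fun k => a1 i j k)]
    refine Finset.sum_congr rfl fun k _ => ?_
    have a2 : Hol (fun x => L i x * L j x) := (hL i).mul (hL j)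
    rw [ser_mul (hLL i j k) (hg i j k), ser_mul a2 (hL k), ser_mul (hL i) (hL j)]
  refine ⟨_, ?_, (add_sub_cancel _ _).symm⟩
  have h2 : (fun x => P3 (fun i j k => g i j k 0) (fun i => L i x)) =
      fun x => ∑ i, ∑ j, ∑ k, L i x * L j x * L k x * (fun _ : Fin n → ℂ => g i j k 0) x := rfl
  rw [h2, h1 g hg, h1 _ (fun i j k => analyticAt_const), ← Finset.sum_sub_distrib]
  refine Submodule.sum_mem _ fun i _ => ?_
  rw [← Finset.sum_sub_distrib]
  refine Submodule.sum_mem _ fun j _ => ?_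
  rw [← Finset.sum_sub_distrib]
  refine Submodule.sum_mem _ fun k _ => ?_
  rw [ser_const, ← mul_sub, pow_succ, pow_succ, pow_two]
  exact Ideal.mul_mem_mul (Ideal.mul_mem_mul (Ideal.mul_mem_mul (ser_mem_mR (hL i) (hL0 i))
    (ser_mem_mR (hL j) (hL0 j))) (ser_mem_mR (hL k) (hL0 k))) (ser_sub_C_mem (hg i j k))

/-- Taylor series of binary cubics -/
theorem ser_cf (a0 a1 a2 a3 : ℂ) : ser (fun x : Fin 2 → ℂ => a0 * x 0 ^ 3 +
    a1 * (x 0 ^ 2 * x 1) + a2 * (x 0 * x 1 ^ 2) + a3 * x 1 ^ 3) = cf a0 a1 a2 a3 := by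
  have h : (fun x : Fin 2 → ℂ => a0 * x 0 ^ 3 + a1 * (x 0 ^ 2 * x 1) + a2 * (x 0 * x 1 ^ 2) +
      a3 * x 1 ^ 3) = fun x : Fin 2 → ℂ => MvPolynomial.eval x
      (MvPolynomial.C a0 * (MvPolynomial.X 0 : MvPolynomial (Fin 2) ℂ) ^ 3 +
        MvPolynomial.C a1 * (MvPolynomial.X 0 ^ 2 * MvPolynomial.X 1) +
        MvPolynomial.C a2 * (MvPolynomial.X 0 * MvPolynomial.X 1 ^ 2) +
        MvPolynomial.C a3 * MvPolynomial.X 1 ^ 3) := by
    funext x
    simp
  rw [h, ser_poly]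
  simp [cf]

/-- the Jacobian with respect to the flag of coordinates -/
theorem jac3_coord (f : (Fin 3 → ℂ) → ℂ) :
    jac3 f (fun x => x 2) (fun x => x 0) = pd 1 f := by
  funext x
  have h : ∀ i j : Fin 3, pd j (fun x : Fin 3 → ℂ => x i) x = if i = j then 1 else 0 := by
    intro i j
    unfold pd
    have : fderiv ℂ (fun x : Fin 3 → ℂ => x i) x =
        ContinuousLinearMap.proj (R := ℂ) (φ := fun _ : Fin 3 => ℂ) i :=
      (ContinuousLinearMap.proj (R := ℂ) (φ := fun _ : Fin 3 => ℂ) i).hasFDerivAt.fderiv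
    rw [this]
    simp [Pi.single_apply]
  unfold jac3
  rw [Matrix.det_fin_three]
  simp [h]

variable {f : (Fin 3 → ℂ) → ℂ}

theorem colength_jac (hf : Hol f) (e : ℕ) :
    Colength ![f, fun x => x 2, jac3 f (fun x => x 2) (fun x => x 0)] e ↔
      Colength (Fin.snoc (α := fun _ => (Fin 2 → ℂ) → ℂ) ![pd 1 fun x => f (s2 x)]
        (fun x => f (s2 x))) e := by
  rw [jac3_coord]
  have h1 : Colength ![f, fun x => x 2, pd 1 f] e ↔
      Colength (Fin.snoc (α := fun _ => (Fin 3 → ℂ) → ℂ) ![pd 1 f, f]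
        (fun x => x (Fin.last 2))) e := by
    refine colength_of_range (fun j => ?_) (fun j => ?_) e
    · fin_cases j
      · exact ⟨1, rfl⟩
      · exact ⟨2, rfl⟩
      · exact ⟨0, rfl⟩
    · fin_cases j
      · exact ⟨2, rfl⟩
      · exact ⟨0, rfl⟩
      · exact ⟨1, rfl⟩
  have hs : ∀ j, Hol ((![pd 1 f, f] : Fin 2 → (Fin 3 → ℂ) → ℂ) j) := by
    intro j
    fin_cases j
    · exact hol_pd hf 1
    · exact hf
  rw [h1, colength_restrict hs]
  have h2 : ∀ᶠ x in 𝓝 (0 : Fin 2 → ℂ), pd 1 (fun x => f (s2 x)) x = pd 1 f (s2 x) := by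
    have h3 := (tendsto_incl (m := 2)).eventually (AnalyticAt.eventually_analyticAt hf)
    filter_upwards [h3] with x hx
    exact pd_restrict hx.differentiableAt 1
  refine colength_congr (fun j => ?_) (fun j => ?_) e
  · fin_cases j
    · refine inIdeal_of_eventuallyEq (inIdeal_self _ 0) ?_
      filter_upwards [h2] with x hx
      exact hx.symm
    · exact inIdeal_self _ 1
  · fin_cases j
    · refine inIdeal_of_eventuallyEq (inIdeal_self _ 0) ?_
      filter_upwards [h2] with x hx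
      exact hx
    · exact inIdeal_self _ 1

theorem colength_flag (hf : Hol f) (e : ℕ) :
    Colength ![f, fun x => x 2, fun x => x 0] e ↔
      Colength (Fin.snoc (α := fun _ => (Fin 2 → ℂ) → ℂ) ![fun x => f (s2 x)]
        (fun x => x 0)) e := by
  have h1 : Colength ![f, fun x => x 2, fun x => x 0] e ↔
      Colength (Fin.snoc (α := fun _ => (Fin 3 → ℂ) → ℂ) ![f, fun x => x 0]
        (fun x => x (Fin.last 2))) e := by
    refine colength_of_range (fun j => ?_) (fun j => ?_) e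
    · fin_cases j
      · exact ⟨0, rfl⟩
      · exact ⟨2, rfl⟩
      · exact ⟨1, rfl⟩
    · fin_cases j
      · exact ⟨0, rfl⟩
      · exact ⟨2, rfl⟩
      · exact ⟨1, rfl⟩
  have hs : ∀ j, Hol ((![f, fun x => x 0] : Fin 2 → (Fin 3 → ℂ) → ℂ) j) := by
    intro j
    fin_cases j
    · exact hf
    · exact analyticAt_coord 0 0
  rw [h1, colength_restrict hs]
  refine colength_of_range (fun j => ?_) (fun j => ?_) e
  · fin_cases j
    · exact ⟨0, rfl⟩
    · exact ⟨1, rfl⟩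
  · fin_cases j
    · exact ⟨0, rfl⟩
    · exact ⟨1, rfl⟩

end Vale.Agent.P298.H790
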