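import Vale.Agent.P298.H790.Step4

/-!
# P298, block LC (helper790): topological triviality of families with vanishing 2-jets
-/

namespace Vale.Agent.P298.H790

open Filter Topology Metric Vale.Agent.P298 Vale.Agent.P298.H766 Module

variable {F : (Fin 3 → ℂ) → ℂ → ℂ} {r : ℝ} {μ : ℕ}

/-- **Step 4.** A `μ`-constant family with vanishing 2-jets and non exceptional cubic part is
topologically right-trivial. -/
theorem trivial_of_hess_zero (hr : 0 < r) (hF : IsHolFamily r F)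
    (hμ : ∀ t ∈ ball (0 : ℂ) r, Milnor (F · t) μ) (hμ0 : μ ≠ 0)
    (hh : ∀ᶠ t in 𝓝 (0 : ℂ), ∀ i j, pd i (pd j fun x => F x t) 0 = 0)
    (hbad : ¬ WBad (F · 0)) : TopRightTrivial r F := by
  have hF0 : AnalyticAt ℂ (fun p : (Fin 3 → ℂ) × ℂ => F p.1 p.2) (0, 0) :=
    (hF 0 (mem_ball_self hr)).1
  obtain ⟨ψ, hψ, -, htay⟩ := taylor3 hF0 (eventually_zero hr hF)
    (eventually_grad hr hF hμ hμ0)
  have hsnd : Tendsto (fun p : (Fin 3 → ℂ) × ℂ => p.2) (𝓝 (0, 0)) (𝓝 0) :=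
    continuous_snd.tendsto ((0 : Fin 3 → ℂ), (0 : ℂ))
  have htay' : ∀ᶠ p in 𝓝 ((0 : Fin 3 → ℂ), (0 : ℂ)), F p.1 p.2 =
      ∑ i, ∑ j, ∑ k, p.1 i * p.1 j * p.1 k * ψ i j k p := by
    filter_upwards [htay, hsnd.eventually hh] with p k1 k2
    rw [k1]
    simp [k2]
  have hf0 : ∀ᶠ x in 𝓝 (0 : Fin 3 → ℂ), F x 0 =
      ∑ i, ∑ j, ∑ k, x i * x j * x k * ψ i j k (x, 0) := by
    have h3 : Tendsto (fun x : Fin 3 → ℂ => (x, (0 : ℂ))) (𝓝 0) (𝓝 (0, 0)) :=
      Continuous.tendsto (by fun_prop) 0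
    exact h3.eventually htay'
  set τ : Fin 3 → Fin 3 → Fin 3 → ℂ := fun i j k => ψ i j k (0, 0) with hτ
  -- a vector where the cubic form does not vanish
  obtain ⟨b, hb⟩ : ∃ b, P3 τ b ≠ 0 := by
    by_contra h
    push Not at h
    apply hbad
    refine wbad_of_jet (φ := fun i j k x => ψ i j k (x, 0)) (fun i j k => slice_hol (hψ i j k))
      hf0 (ContinuousLinearEquiv.refl ℂ _) (c := ⟨0, 0, 0, 0, 0, 0, 0, 0, 0, 0⟩) ?_
      ⟨_, Cu.Sub.refl _, Or.inl ⟨rfl, rfl, rfl, rfl, rfl, rfl, rfl⟩⟩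
    intro x
    have h1 := h x
    have h2 : Cu.ev ⟨0, 0, 0, 0, 0, 0, 0, 0, 0, 0⟩ (x 0) (x 1) (x 2) = 0 := by
      simp only [Cu.ev]
      ring
    rw [h2]
    exact h1
  have hb0 : b ≠ 0 := by
    rintro rfl
    apply hb
    simp [P3]
  obtain ⟨T0, hT0⟩ := SeparatingDual.exists_continuousLinearEquiv_apply_eq (R := ℂ)
    (x := (Pi.single 1 1 : Fin 3 → ℂ)) (y := b)
    (by
      intro h
      have := congrFun h 1
      simp at this) hb0
  obtain ⟨c, hc⟩ := isCu_comp τ (T0 : (Fin 3 → ℂ) →L[ℂ] (Fin 3 → ℂ))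
  have hcy : c.y3 ≠ 0 := by
    have h1 := hc (Pi.single 1 1)
    have h2 : c.ev ((Pi.single 1 1 : Fin 3 → ℂ) 0) ((Pi.single 1 1 : Fin 3 → ℂ) 1)
        ((Pi.single 1 1 : Fin 3 → ℂ) 2) = c.y3 := by
      simp [Cu.ev]
    rw [h2] at h1
    rw [← h1]
    change P3 τ (T0 (Pi.single 1 1)) ≠ 0
    rw [hT0]
    exact hb
  rcases Cu.diag_or_bad c hcy with hd | hbd
  swap
  · exact absurd (wbad_of_jet (φ := fun i j k x => ψ i j k (x, 0))
      (fun i j k => slice_hol (hψ i j k)) hf0 T0 hc hbd) hbad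
  obtain ⟨c', ⟨M, hM⟩, y3, y2z, yz2, z3⟩ := hd
  obtain ⟨R, hR⟩ := Cu.exists_equiv_of_det !![0, 0, 1; 1, 0, 0; 0, 1, 0] (by
    rw [Matrix.det_fin_three]
    simp)
  have hR0 : ∀ x, R x 0 = x 2 := fun x => by
    rw [hR]
    simp [Matrix.mulVec, dotProduct, Fin.sum_univ_three]
  have hR1 : ∀ x, R x 1 = x 0 := fun x => by
    rw [hR]
    simp [Matrix.mulVec, dotProduct, Fin.sum_univ_three]
  have hR2 : ∀ x, R x 2 = x 1 := fun x => by
    rw [hR]
    simp [Matrix.mulVec, dotProduct, Fin.sum_univ_three]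
  set T : (Fin 3 → ℂ) ≃L[ℂ] (Fin 3 → ℂ) := (R.trans M).trans T0 with hT
  have hPT : ∀ x, P3 τ (T x) = c'.ev (x 2) (x 0) (x 1) := by
    intro x
    have h1 := hc (M (R x))
    have h2 := hM (R x)
    rw [h2, hR0, hR1, hR2] at h1
    exact h1
  -- change of coordinates
  let Ψ : OpenPartialHomeomorph ((Fin 3 → ℂ) × ℂ) ((Fin 3 → ℂ) × ℂ) :=
    (T.toHomeomorph.prodCongr (Homeomorph.refl ℂ)).toOpenPartialHomeomorph
  have hΨ : ∀ q, Ψ q = (T q.1, q.2) := fun q => rfl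
  have hΨs : ∀ q, Ψ.symm q = (T.symm q.1, q.2) := fun q => rfl
  obtain ⟨r', hr', hr'r, hF', hμ', -, hend⟩ := H845.coord_change hr hF hμ Ψ trivial (by
    intro q _
    refine ⟨rfl, ?_, ?_, ?_⟩
    · intro h1
      rw [hΨ, h1, map_zero]
      exact Prod.ext h1.symm rfl
    · have h1 : (Ψ : (Fin 3 → ℂ) × ℂ → (Fin 3 → ℂ) × ℂ) = fun q => (T q.1, q.2) := funext hΨ
      rw [h1]
      exact ((T : (Fin 3 → ℂ) →L[ℂ] (Fin 3 → ℂ)).analyticAt _ |>.comp analyticAt_fst).prod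
        analyticAt_snd
    · have h1 : (Ψ.symm : (Fin 3 → ℂ) × ℂ → (Fin 3 → ℂ) × ℂ) = fun q => (T.symm q.1, q.2) :=
        funext hΨs
      rw [h1]
      exact ((T.symm : (Fin 3 → ℂ) →L[ℂ] (Fin 3 → ℂ)).analyticAt _ |>.comp analyticAt_fst).prod
        analyticAt_snd)
  apply hend r'
  change TopRightTrivial r' (fun x t => F (T x) t)
  have hF'' : IsHolFamily r' (fun x t => F (T x) t) := hF'
  have hμ'' : ∀ t ∈ ball (0 : ℂ) r', Milnor (fun x => F (T x) t) μ := hμ'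
  -- the Taylor series of the plane sections
  have hT1 : ∀ t : ℂ, Tendsto (fun x : Fin 2 → ℂ => (T (s2 x), t)) (𝓝 0) (𝓝 (0, t)) := by
    intro t
    have h1 : Continuous (fun x : Fin 3 → ℂ => (T x, t)) := by fun_prop
    have h2 := (h1.tendsto 0).comp (tendsto_incl (m := 2))
    rw [map_zero] at h2
    exact h2
  have hψa : ∀ᶠ t in 𝓝 (0 : ℂ), ∀ i j k, AnalyticAt ℂ (ψ i j k) ((0 : Fin 3 → ℂ), t) := by
    have h2 : Tendsto (fun t : ℂ => ((0 : Fin 3 → ℂ), t)) (𝓝 0) (𝓝 (0, 0)) :=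
      Continuous.tendsto (by fun_prop) 0
    exact eventually_all.2 fun i => eventually_all.2 fun j => eventually_all.2 fun k =>
      h2.eventually (hψ i j k).eventually_analyticAt
  have hsl : ∀ᶠ t in 𝓝 (0 : ℂ), ∀ᶠ x in 𝓝 (0 : Fin 3 → ℂ), F x t =
      ∑ i, ∑ j, ∑ k, x i * x j * x k * ψ i j k (x, t) := slice_ev htay'
  have hser : ∀ᶠ t in 𝓝 (0 : ℂ), ∃ a0 a1 a2 : ℂ, ∃ rr ∈ mR 2 ^ 4,
      (t = 0 → a0 = c'.y3 ∧ a1 = 0 ∧ a2 = 0) ∧
      ser (fun x : Fin 2 → ℂ => F (T (s2 x)) t) =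
        cf a0 a1 a2 (P3 (fun i j k => ψ i j k (0, t)) (T (Pi.single 1 1))) + rr := by
    filter_upwards [hψa, hsl] with t k1 k2
    obtain ⟨ct, hct⟩ := isCu_comp (fun i j k => ψ i j k (0, t))
      (T : (Fin 3 → ℂ) →L[ℂ] (Fin 3 → ℂ))
    have hL : ∀ i, Hol (fun x : Fin 2 → ℂ => T (s2 x) i) := by
      intro i
      have h1 : Hol (fun x : Fin 3 → ℂ => T x i) :=
        ((ContinuousLinearMap.proj (R := ℂ) (φ := fun _ : Fin 3 => ℂ) i).comp
          (T : (Fin 3 → ℂ) →L[ℂ] (Fin 3 → ℂ))).analyticAt 0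
      exact hol_restrict h1
    have hs0 : s2 0 = 0 := by
      funext i
      fin_cases i <;> rfl
    have hL0 : ∀ i, T (s2 0) i = 0 := by
      intro i
      rw [hs0, map_zero]
      rfl
    have hg : ∀ i j k, Hol (fun x : Fin 2 → ℂ => ψ i j k (T (s2 x), t)) := by
      intro i j k
      have h1 : Hol (fun x : Fin 3 → ℂ => ψ i j k (T x, t)) := by
        have h2 : AnalyticAt ℂ (fun x : Fin 3 → ℂ => (T x, t)) 0 :=
          ((T : (Fin 3 → ℂ) →L[ℂ] (Fin 3 → ℂ)).analyticAt 0).prod analyticAt_const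
        have h3 : AnalyticAt ℂ (ψ i j k) ((fun x : Fin 3 → ℂ => (T x, t)) 0) := by
          change AnalyticAt ℂ (ψ i j k) (T 0, t)
          rw [map_zero]
          exact k1 i j k
        exact AnalyticAt.fun_comp (g := ψ i j k) (f := fun x : Fin 3 → ℂ => (T x, t)) h3 h2
      exact hol_restrict h1
    obtain ⟨rr, hrr, h1⟩ := ser_cubic hL hL0 hg
    have h2 : ser (fun x : Fin 2 → ℂ => F (T (s2 x)) t) = ser (fun x : Fin 2 → ℂ =>
        ∑ i, ∑ j, ∑ k, T (s2 x) i * T (s2 x) j * T (s2 x) k * ψ i j k (T (s2 x), t)) := by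
      refine ser_congr ?_
      have h3 : Tendsto (fun x : Fin 2 → ℂ => T (s2 x)) (𝓝 0) (𝓝 0) := by
        have h1 : Continuous (fun x : Fin 3 → ℂ => T x) := by fun_prop
        have h2 := (h1.tendsto 0).comp (tendsto_incl (m := 2))
        rw [map_zero] at h2
        exact h2
      exact h3.eventually k2
    have h4 : ct.y3 = P3 (fun i j k => ψ i j k (0, t)) (T (Pi.single 1 1)) := by
      have h5 := hct (Pi.single 1 1)
      have h6 : ct.ev ((Pi.single 1 1 : Fin 3 → ℂ) 0) ((Pi.single 1 1 : Fin 3 → ℂ) 1)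
          ((Pi.single 1 1 : Fin 3 → ℂ) 2) = ct.y3 := by
        simp [Cu.ev]
      rw [h6] at h5
      exact h5.symm
    refine ⟨ct.x3, ct.x2y, ct.xy2, rr, hrr, ?_, ?_⟩
    · intro ht
      subst ht
      have h5 : ∀ x : Fin 3 → ℂ, ct.ev (x 0) (x 1) (x 2) = c'.ev (x 2) (x 0) (x 1) := by
        intro x
        rw [← hPT x]
        exact (hct x).symm
      have e1 := h5 ![1, 0, 0]
      have e2 := h5 ![1, 1, 0]
      have e3 := h5 ![1, -1, 0]
      have e4 := h5 ![0, 1, 0]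
      simp only [Cu.ev, Matrix.cons_val, y2z, yz2] at e1 e2 e3 e4
      refine ⟨by linear_combination e1, ?_, ?_⟩
      · linear_combination (e2 - e3) / 2 - e4
      · linear_combination (e2 + e3) / 2 - e1
    · rw [h2, h1, ← h4, ← ser_cf]
      congr 2
      funext x
      have h7 := hct (s2 x)
      have h8 : T (s2 0) = 0 := by rw [hs0, map_zero]
      simp only [h8]
      change P3 (fun i j k => ψ i j k (0, t)) (T (s2 x)) = _
      have h9 : P3 (fun i j k => ψ i j k (0, t)) (T (s2 x)) = ct.ev (s2 x 0) (s2 x 1) (s2 x 2) :=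
        h7
      rw [h9]
      simp only [Cu.ev, s2_0, s2_1, s2_2]
      ring
  -- the coefficient of `x₁³`
  have hz3 : P3 (fun i j k => ψ i j k (0, 0)) (T (Pi.single 1 1)) = c'.z3 := by
    have h1 := hPT (Pi.single 1 1)
    rw [hτ] at h1
    rw [h1]
    simp [Cu.ev]
  have ha3 : ∀ᶠ t in 𝓝 (0 : ℂ),
      P3 (fun i j k => ψ i j k (0, t)) (T (Pi.single 1 1)) ≠ 0 := by
    have h1 : ContinuousAt (fun t : ℂ => P3 (fun i j k => ψ i j k (0, t))
        (T (Pi.single 1 1))) 0 := by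
      unfold P3
      have h2 : ∀ i j k, ContinuousAt (fun t : ℂ => ψ i j k (0, t)) 0 := by
        intro i j k
        have h3 : ContinuousAt (fun t : ℂ => ((0 : Fin 3 → ℂ), t)) 0 := by fun_prop
        exact ContinuousAt.comp (g := ψ i j k) (f := fun t : ℂ => ((0 : Fin 3 → ℂ), t))
          (hψ i j k).continuousAt h3
      fun_prop
    refine h1.eventually_ne ?_
    rw [hz3]
    exact z3
  have hhol : ∀ᶠ t in 𝓝 (0 : ℂ), Hol (fun x : Fin 3 → ℂ => F (T x) t) := by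
    filter_upwards [isOpen_ball.mem_nhds (mem_ball_self hr')] with t ht
    exact slice_hol (hF'' t ht).1
  -- the end
  obtain ⟨a0, a1, a2, rr, hrr, h00, hs0⟩ := hser.self_of_nhds
  obtain ⟨ea0, ea1, ea2⟩ := h00 rfl
  rw [hz3, ea0, ea1, ea2] at hs0
  have hG0 : Hol (fun x : Fin 2 → ℂ => F (T (s2 x)) 0) := hol_restrict hhol.self_of_nhds
  refine H137.Main.topRightTrivial (b := 6) (c := 3) (E := fun x _ => x 2)
    (H := fun x _ => x 0) hr' hF'' ?_ ?_ rfl rfl hμ'' hμ0 ?_ ?_ ?_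
  · exact ((ContinuousLinearMap.proj (R := ℂ) (φ := fun _ : Fin 3 => ℂ) 2).comp
      (ContinuousLinearMap.fst ℂ (Fin 3 → ℂ) ℂ)).analyticAt _
  · exact ((ContinuousLinearMap.proj (R := ℂ) (φ := fun _ : Fin 3 => ℂ) 0).comp
      (ContinuousLinearMap.fst ℂ (Fin 3 → ℂ) ℂ)).analyticAt _
  · exact (colength_jac hhol.self_of_nhds 6).2 (plane_eq hG0 y3 z3 hrr hs0)
  · refine (colength_flag hhol.self_of_nhds 3).2 ?_
    refine colength_line hG0 (b := c'.z3) z3 hrr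
      (a := MvPowerSeries.C c'.y3 * MvPowerSeries.X 0 ^ 2) ?_
    rw [hs0]
    simp only [cf, map_zero]
    ring
  · filter_upwards [hser, ha3, hhol] with t k1 k2 k3 b' hb'
    obtain ⟨a0, a1, a2, rr, hrr, -, hs⟩ := k1
    have hG : Hol (fun x : Fin 2 → ℂ => F (T (s2 x)) t) := hol_restrict k3
    exact plane_low hG k2 hrr hs ((colength_jac k3 b').1 hb')

/-- **Block LC, algebraic part.** -/
theorem lc (hr : 0 < r) (hF : IsHolFamily r F)
    (hμ : ∀ t ∈ ball (0 : ℂ) r, Milnor (F · t) μ) (hμ0 : μ ≠ 0)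
    (h2 : ∀ i j, pd i (pd j fun x => F x 0) 0 = 0)
    (hrk : ∀ᶠ t in 𝓝 (0 : ℂ), ∀ i j k l, pd i (pd j fun x => F x t) 0 *
      pd k (pd l fun x => F x t) 0 = pd i (pd l fun x => F x t) 0 * pd k (pd j fun x => F x t) 0)
    (hbad : ¬ WBad (F · 0)) : TopRightTrivial r F :=
  trivial_of_hess_zero hr hF hμ hμ0 (hess_zero hr hF hμ hμ0 h2 hrk hbad) hbad

end Vale.Agent.P298.H790
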