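import Vale.Agent.P298.H766.Unc

/-!
# P298, block LC (helper790): truncated arcs and finite colength
-/

namespace Vale.Agent.P298.H790

open Filter Topology Metric Vale.Agent.P298 Vale.Agent.P298.H766 Module

variable {n : ℕ}

/-- arcs do not decrease the order -/
theorem X_pow_dvd_arc (φ : MvPowerSeries (Fin n) ℂ →ₐ[ℂ] PowerSeries ℂ) (K : ℕ)
    {g : MvPowerSeries (Fin n) ℂ} (hg : g ∈ mR n ^ K) :
    (PowerSeries.X : PowerSeries ℂ) ^ K ∣ φ g := by
  have h1 : (mR n).map φ ≤ Ideal.span {PowerSeries.X} := by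
    rw [mR, Ideal.map_span, Ideal.span_le]
    rintro _ ⟨_, ⟨i, rfl⟩, rfl⟩
    rw [SetLike.mem_coe, Ideal.mem_span_singleton]
    exact P298.H824.X_dvd_arc φ (by simp)
  have h2 : φ g ∈ (Ideal.span {PowerSeries.X} : Ideal (PowerSeries ℂ)) ^ K := by
    refine Ideal.pow_right_mono h1 K ?_
    rw [← Ideal.map_pow]
    exact Ideal.mem_map_of_mem _ hg
  rwa [Ideal.span_singleton_pow, Ideal.mem_span_singleton] at h2

/-- the truncation of an arc -/
noncomputable def tr (φ : MvPowerSeries (Fin n) ℂ →ₐ[ℂ] PowerSeries ℂ) (K : ℕ) (i : Fin n) :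
    Polynomial ℂ := PowerSeries.trunc K (φ (MvPowerSeries.X i))

theorem tr_zero (φ : MvPowerSeries (Fin n) ℂ →ₐ[ℂ] PowerSeries ℂ) (K : ℕ) (i : Fin n) :
    Polynomial.X ∣ tr φ K i := by
  rw [Polynomial.X_dvd_iff, tr, PowerSeries.coeff_trunc]
  split_ifs with h
  · rw [PowerSeries.coeff_zero_eq_constantCoeff_apply, P298.H824.constantCoeff_arc]
    simp
  · rfl

/-- the truncated arc is congruent to the arc -/
theorem tr_congr (φ : MvPowerSeries (Fin n) ℂ →ₐ[ℂ] PowerSeries ℂ) (K : ℕ) (i : Fin n) :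
    (PowerSeries.X : PowerSeries ℂ) ^ K ∣
      φ (MvPowerSeries.X i) - (tr φ K i : PowerSeries ℂ) := by
  rw [PowerSeries.X_pow_dvd_iff]
  intro m hm
  rw [map_sub, Polynomial.coeff_coe, tr, PowerSeries.coeff_trunc, if_pos hm, sub_self]

theorem aeval_congr (I : Ideal (PowerSeries ℂ)) (a b : Fin n → PowerSeries ℂ)
    (h : ∀ i, a i - b i ∈ I) (P : MvPolynomial (Fin n) ℂ) :
    MvPolynomial.aeval a P - MvPolynomial.aeval b P ∈ I := by
  have h1 : (Ideal.Quotient.mkₐ ℂ I).comp (MvPolynomial.aeval a) =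
      (Ideal.Quotient.mkₐ ℂ I).comp (MvPolynomial.aeval b) := by
    refine MvPolynomial.algHom_ext fun i => ?_
    simp only [AlgHom.comp_apply, MvPolynomial.aeval_X, Ideal.Quotient.mkₐ_eq_mk]
    exact Ideal.Quotient.eq.2 (h i)
  have h2 := congrArg (fun f => f P) h1
  simp only [AlgHom.comp_apply, Ideal.Quotient.mkₐ_eq_mk] at h2
  exact Ideal.Quotient.eq.1 h2

theorem tr_bound (φ : MvPowerSeries (Fin n) ℂ →ₐ[ℂ] PowerSeries ℂ) (K : ℕ) :
    ∃ C : ℝ, 0 ≤ C ∧ ∀ᶠ s in 𝓝 (0 : ℂ), ‖fun i => (tr φ K i).eval s‖ ≤ C * ‖s‖ := by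
  choose q hq using fun i => tr_zero φ K i
  have h1 : ContinuousAt (fun s : ℂ => ‖fun i => (q i).eval s‖) 0 := by
    refine ContinuousAt.norm (continuousAt_pi.2 fun i => (q i).continuous.continuousAt)
  refine ⟨‖fun i => (q i).eval 0‖ + 1, by positivity, ?_⟩
  have h2 : ∀ᶠ s in 𝓝 (0 : ℂ), ‖fun i => (q i).eval s‖ < ‖fun i => (q i).eval 0‖ + 1 :=
    h1.eventually (gt_mem_nhds (lt_add_one _))
  filter_upwards [h2] with s hs
  have h3 : (fun i => (tr φ K i).eval s) = s • fun i => (q i).eval s := by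
    funext i
    rw [hq i, Polynomial.eval_mul, Polynomial.eval_X, Pi.smul_apply, smul_eq_mul]
  rw [h3, norm_smul, mul_comm]
  gcongr

theorem tendsto_tr (φ : MvPowerSeries (Fin n) ℂ →ₐ[ℂ] PowerSeries ℂ) (K : ℕ) :
    Tendsto (fun s : ℂ => fun i => (tr φ K i).eval s) (𝓝 0) (𝓝 0) := by
  refine tendsto_pi_nhds.2 fun i => ?_
  have h1 := (tr φ K i).continuous.tendsto (0 : ℂ)
  obtain ⟨q, hq⟩ := tr_zero φ K i
  have h2 : (tr φ K i).eval 0 = 0 := by rw [hq]; simp
  rwa [h2] at h1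

/-- If a germ vanishes on a formal arc then it is small on the truncations of the arc. -/
theorem trunc_bound {g : (Fin n → ℂ) → ℂ} (hg : Hol g)
    (φ : MvPowerSeries (Fin n) ℂ →ₐ[ℂ] PowerSeries ℂ) (h : φ (ser g) = 0) (K : ℕ) :
    ∃ C : ℝ, ∀ᶠ s in 𝓝 (0 : ℂ), ‖g (fun i => (tr φ K i).eval s)‖ ≤ C * ‖s‖ ^ K := by
  obtain ⟨P, hP⟩ := exists_poly (n := n) K ⟨g, hg⟩
  obtain ⟨C1, hC1⟩ := qM_bound K _ hP
  have hC1' : ∀ᶠ x in 𝓝 (0 : Fin n → ℂ), ‖g x - MvPolynomial.eval x P‖ ≤ |C1| * ‖x‖ ^ K := by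
    filter_upwards [hC1] with x hx
    have h1 : (((⟨g, hg⟩ : AnFun n) - toAn n P : AnFun n) : (Fin n → ℂ) → ℂ) x =
        g x - MvPolynomial.eval x P := by
      rw [← toAn_apply]
      rfl
    rw [h1] at hx
    refine hx.trans ?_
    gcongr
    exact le_abs_self _
  have h1 : ser g - (P : MvPowerSeries (Fin n) ℂ) ∈ mR n ^ K := by
    refine mem_mR_pow_of_order K ?_
    have h2 := le_order_T hP
    rwa [map_sub, T_toAn, ← ser_eq hg] at h2
  have h2 : (PowerSeries.X : PowerSeries ℂ) ^ K ∣ φ (P : MvPowerSeries (Fin n) ℂ) := by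
    have h3 := X_pow_dvd_arc φ K h1
    rw [map_sub, h, zero_sub] at h3
    exact (dvd_neg).1 h3
  have h3 : φ (P : MvPowerSeries (Fin n) ℂ) =
      MvPolynomial.aeval (fun i => φ (MvPowerSeries.X i)) P := by
    have h4 : φ.comp (MvPolynomial.coeToMvPowerSeries.algHom ℂ) =
        MvPolynomial.aeval (fun i => φ (MvPowerSeries.X i)) := by
      refine MvPolynomial.algHom_ext fun i => ?_
      rw [AlgHom.comp_apply, MvPolynomial.coeToMvPowerSeries.algHom_apply, MvPolynomial.aeval_X]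
      simp
    rw [← h4, AlgHom.comp_apply, MvPolynomial.coeToMvPowerSeries.algHom_apply]
    simp
  set Q : Polynomial ℂ := MvPolynomial.aeval (fun i => tr φ K i) P with hQ
  have h4 : (Q : PowerSeries ℂ) =
      MvPolynomial.aeval (fun i => (tr φ K i : PowerSeries ℂ)) P := by
    have h5 : (Polynomial.coeToPowerSeries.algHom ℂ).comp
        (MvPolynomial.aeval (fun i => tr φ K i) : MvPolynomial (Fin n) ℂ →ₐ[ℂ] Polynomial ℂ) =
        MvPolynomial.aeval (fun i => (tr φ K i : PowerSeries ℂ)) := by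
      refine MvPolynomial.algHom_ext fun i => ?_
      rw [AlgHom.comp_apply, MvPolynomial.aeval_X, MvPolynomial.aeval_X,
        Polynomial.coeToPowerSeries.algHom_apply]
      simp
    rw [← h5, AlgHom.comp_apply, Polynomial.coeToPowerSeries.algHom_apply, hQ]
    simp
  have h5 : (PowerSeries.X : PowerSeries ℂ) ^ K ∣ (Q : PowerSeries ℂ) := by
    have h6 := aeval_congr (Ideal.span {(PowerSeries.X : PowerSeries ℂ) ^ K})
      (fun i => φ (MvPowerSeries.X i)) (fun i => (tr φ K i : PowerSeries ℂ))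
      (fun i => Ideal.mem_span_singleton.2 (tr_congr φ K i)) P
    rw [Ideal.mem_span_singleton, ← h3, ← h4] at h6
    exact (dvd_sub_right h2).1 h6
  have h6 : Polynomial.X ^ K ∣ Q := by
    rw [Polynomial.X_pow_dvd_iff]
    intro d hd
    have h7 := (PowerSeries.X_pow_dvd_iff.1 h5) d hd
    rwa [Polynomial.coeff_coe] at h7
  obtain ⟨R, hR⟩ := h6
  obtain ⟨C3, hC3, h7⟩ := tr_bound φ K
  have h8 : ∀ᶠ s in 𝓝 (0 : ℂ), ‖R.eval s‖ < ‖R.eval 0‖ + 1 :=
    (R.continuous.continuousAt.norm).eventually (gt_mem_nhds (lt_add_one _))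
  refine ⟨|C1| * C3 ^ K + (‖R.eval 0‖ + 1), ?_⟩
  filter_upwards [(tendsto_tr φ K).eventually hC1', h7, h8] with s hs1 hs2 hs3
  have h9 : MvPolynomial.eval (fun i => (tr φ K i).eval s) P = s ^ K * R.eval s := by
    have h10 : Q.eval s = MvPolynomial.eval (fun i => (tr φ K i).eval s) P := by
      have h11 : (Polynomial.aeval s).comp
          (MvPolynomial.aeval (fun i => tr φ K i) : MvPolynomial (Fin n) ℂ →ₐ[ℂ] Polynomial ℂ) =
          MvPolynomial.aeval (fun i => (tr φ K i).eval s) := by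
        refine MvPolynomial.algHom_ext fun i => ?_
        rw [AlgHom.comp_apply, MvPolynomial.aeval_X, MvPolynomial.aeval_X,
          Polynomial.coe_aeval_eq_eval]
      have h12 := congrArg (fun f => f P) h11
      simp only [AlgHom.comp_apply] at h12
      rw [Polynomial.coe_aeval_eq_eval] at h12
      rw [hQ, h12, ← MvPolynomial.coe_aeval_eq_eval]
      rfl
    rw [← h10, hR, Polynomial.eval_mul, Polynomial.eval_pow, Polynomial.eval_X]
  calc ‖g (fun i => (tr φ K i).eval s)‖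
      ≤ ‖g (fun i => (tr φ K i).eval s) - MvPolynomial.eval (fun i => (tr φ K i).eval s) P‖ +
        ‖MvPolynomial.eval (fun i => (tr φ K i).eval s) P‖ := by
        have := norm_add_le (g (fun i => (tr φ K i).eval s) -
          MvPolynomial.eval (fun i => (tr φ K i).eval s) P)
          (MvPolynomial.eval (fun i => (tr φ K i).eval s) P)
        rwa [sub_add_cancel] at this
    _ ≤ |C1| * (C3 * ‖s‖) ^ K + ‖s‖ ^ K * (‖R.eval 0‖ + 1) := by
        refine add_le_add (hs1.trans ?_) ?_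
        · gcongr
        · rw [h9, norm_mul, norm_pow]
          gcongr
    _ = (|C1| * C3 ^ K + (‖R.eval 0‖ + 1)) * ‖s‖ ^ K := by
        rw [mul_pow]; ring

end Vale.Agent.P298.H790
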